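import Vale.Agent.Lib.P310.N.Spec

/-!
Alternating programs on frames, the specification they compile to, and acceptance.
-/

namespace Vale.Agent.Lib.P310.N

open scoped Classical
open Finset

noncomputable section

/-- An alternating program on frames of `p` labels. Nodes: gates (each gate has branches indexed by
`Br`, each branch a left and a right child; an AND gate has all branches equal, an OR gate has
branches with equal children), reads (the frame must have a given label in a column), writes (the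
frame is translated by a vector of sum zero), accepting nodes. -/
structure Prog (p b : ℕ) where
  Ga : Type
  Re : Type
  Wr : Type
  Ac : Type
  Br : Type
  instG : Fintype Ga
  instR : Fintype Re
  instW : Fintype Wr
  instA : Fintype Ac
  instB : Fintype Br
  gl : Ga → Br → Ga ⊕ Re ⊕ Wr ⊕ Ac
  gr : Ga → Br → Ga ⊕ Re ⊕ Wr ⊕ Ac
  gate_ok : ∀ g, (∀ i i', gl g i = gl g i' ∧ gr g i = gr g i') ∨ ∀ i, gl g i = gr g i
  reJ : Re → Fin p
  reS : Re → Sg b
  reN : Re → Ga ⊕ Re ⊕ Wr ⊕ Ac
  wrD : Wr → Fin p → Sg b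
  wrN : Wr → Ga ⊕ Re ⊕ Wr ⊕ Ac
  wr_sum : ∀ w, ∑ j, wrD w j = 0

attribute [instance] Prog.instG Prog.instR Prog.instW Prog.instA Prog.instB

namespace Prog

variable {p b : ℕ} (Q : Prog p b)

/-- The nodes of a program. -/
abbrev Node : Type := Q.Ga ⊕ Q.Re ⊕ Q.Wr ⊕ Q.Ac

/-- Acceptance of a frame at a node: a least fixed point. At a write node the frame is the result
of translating a frame accepted at the next node; since labels have characteristic two this is the
same as translating first. -/
inductive Acc : Q.Node → Frame p b → Prop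
  | ac (a : Q.Ac) (L : Frame p b) (hL : ∑ j, L j = 0) : Acc (Sum.inr (Sum.inr (Sum.inr a))) L
  | re (r : Q.Re) (L : Frame p b) (h : L (Q.reJ r) = Q.reS r) (h' : Acc (Q.reN r) L) :
      Acc (Sum.inr (Sum.inl r)) L
  | wr (w : Q.Wr) (L : Frame p b) (h : Acc (Q.wrN w) L) :
      Acc (Sum.inr (Sum.inr (Sum.inl w))) (fun j => L j + Q.wrD w j)
  | ga (g : Q.Ga) (i : Q.Br) (L : Frame p b) (h : Acc (Q.gl g i) L) (h' : Acc (Q.gr g i) L) :
      Acc (Sum.inl g) L

/-- The hubs of the compiled specification, for two distinguished nodes. -/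
abbrev Hub : Type := Q.Node ⊕ (Q.Ga × Q.Br × Bool) ⊕ Fin 3

/-- The lines: one per read, one per write, one per child of a branch, two from the first
distinguished node into the start gate, and the twisted line from the second one. -/
abbrev Ln : Type := Q.Re ⊕ Q.Wr ⊕ (Q.Ga × Q.Br × Bool) ⊕ Bool ⊕ Unit

/-- The T-rows: one per branch and the start gate. -/
abbrev Tr : Type := (Q.Ga × Q.Br) ⊕ Unit

/-- The writes of the compiled specification have sum zero. -/
theorem spec_wr_sum (l : Q.Re ⊕ Q.Wr ⊕ (Q.Ga × Q.Br × Bool) ⊕ Bool ⊕ Unit) (d : Fin p → Sg b)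
    (h : (Sum.elim (fun r => LineOp.rd (Q.reJ r) (Q.reS r))
      (Sum.elim (fun w => LineOp.wr (Q.wrD w)) (fun _ => LineOp.plain)) l : LineOp p b) =
        LineOp.wr d) : ∑ j, d j = 0 := by
  rcases l with r | w | x
  · simp at h
  · simp at h
    subst h
    exact Q.wr_sum w
  · simp at h

/-- The compiled specification; `s1` and `s2` are the distinguished nodes. -/
def spec (s1 s2 : Q.Node) : Spec p b where
  Hub := Q.Hub
  Ln := Q.Ln
  Tr := Q.Tr
  Src := Q.Ac
  instH := inferInstance
  instL := inferInstance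
  instT := inferInstance
  instS := inferInstance
  top := Sum.elim (fun r => Sum.inl (Q.reN r)) (Sum.elim (fun w => Sum.inl (Q.wrN w))
    (Sum.elim (fun x => Sum.inl (cond x.2.2 (Q.gr x.1 x.2.1) (Q.gl x.1 x.2.1)))
      (Sum.elim (fun _ => Sum.inl s1) (fun _ => Sum.inl s2))))
  bot := Sum.elim (fun r => Sum.inl (Sum.inr (Sum.inl r)))
    (Sum.elim (fun w => Sum.inl (Sum.inr (Sum.inr (Sum.inl w))))
      (Sum.elim (fun x => Sum.inr (Sum.inl x))
        (Sum.elim (fun c => Sum.inr (Sum.inr (cond c 2 1))) (fun _ => Sum.inr (Sum.inr 0)))))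
  op := Sum.elim (fun r => LineOp.rd (Q.reJ r) (Q.reS r))
    (Sum.elim (fun w => LineOp.wr (Q.wrD w)) (fun _ => LineOp.plain))
  twd := Sum.elim (fun _ => 0) (Sum.elim (fun _ => 0) (Sum.elim (fun _ => 0)
    (Sum.elim (fun _ => 0) (fun _ => 1))))
  srcHub := fun a => Sum.inl (Sum.inr (Sum.inr (Sum.inr a)))
  K := Sum.elim (fun x => Sum.inl (Sum.inl x.1)) (fun _ => Sum.inr (Sum.inr 0))
  A := Sum.elim (fun x => Sum.inr (Sum.inl (x.1, x.2, false))) (fun _ => Sum.inr (Sum.inr 1))
  B := Sum.elim (fun x => Sum.inr (Sum.inl (x.1, x.2, true))) (fun _ => Sum.inr (Sum.inr 2))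
  wr_sum := Q.spec_wr_sum

end Prog

end

end Vale.Agent.Lib.P310.N
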