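import Vale.Agent.Lib.P310.N.XorMore

namespace Vale.Agent.Lib.P310.N

open scoped Classical
open Finset

noncomputable section

namespace XorSys

variable (X : XorSys)

/-- Flip one chosen variable of the fiber by the right-hand side. -/
def flipVx (hne : ∀ e, (X.vars e).Nonempty) {c c' : ZMod 2} (hc : c' = c + 1) (u : X.Vx c) :
    X.Vx c' where
  e := u.e
  a := fun v => if v = (hne u.e).choose then u.a v + X.rhs u.e else u.a v
  supp := by
    intro v hv
    have h : v ≠ (hne u.e).choose := fun h => hv (h ▸ (hne u.e).choose_spec)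
    simp [h, u.supp v hv]
  par := by
    have h0 : ∀ v, (if v = (hne u.e).choose then u.a v + X.rhs u.e else u.a v) =
        u.a v + (if v = (hne u.e).choose then X.rhs u.e else 0) := by
      intro v
      split_ifs <;> simp
    simp only [h0]
    rw [Finset.sum_add_distrib, Finset.sum_ite_eq' (X.vars u.e) (hne u.e).choose,
      if_pos (hne u.e).choose_spec, u.par, hc]
    ring

lemma flipVx_flipVx (hne : ∀ e, (X.vars e).Nonempty) {c c' : ZMod 2} (hc : c' = c + 1)
    (hc' : c = c' + 1) (u : X.Vx c) : X.flipVx hne hc' (X.flipVx hne hc u) = u := by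
  apply Vx.ext
  · rfl
  · funext v
    show (if v = (hne u.e).choose then
      (if v = (hne u.e).choose then u.a v + X.rhs u.e else u.a v) + X.rhs u.e else
      (if v = (hne u.e).choose then u.a v + X.rhs u.e else u.a v)) = u.a v
    split_ifs with h
    · rw [add_assoc, CharTwo.add_self_eq_zero, add_zero]
    · rfl

/-- The flip is a bijection between the base vertices of the two graphs. -/
def vxEquiv (hne : ∀ e, (X.vars e).Nonempty) : X.Vx 0 ≃ X.Vx 1 where
  toFun := X.flipVx hne (by simp)
  invFun := X.flipVx hne (by decide)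
  left_inv := fun u => X.flipVx_flipVx hne _ _ u
  right_inv := fun u => X.flipVx_flipVx hne _ _ u

/-- The two graphs have the same vertices up to a bijection. -/
def vtxEquiv (hne : ∀ e, (X.vars e).Nonempty) : X.Vtx 0 ≃ X.Vtx 1 :=
  Equiv.sumCongr (X.vxEquiv hne) (Equiv.sigmaCongr (X.vxEquiv hne) (fun u => finCongr (by
    have : ((X.vxEquiv hne) u).e = u.e := rfl
    rw [this])))

/-- (module X3) The number of vertices: both graphs have the same number, with an explicit bound
when every equation has at most `d` variables. -/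
lemma card_vtx_eq (hne : ∀ e, (X.vars e).Nonempty) :
    Fintype.card (X.Vtx 1) = Fintype.card (X.Vtx 0) :=
  (Fintype.card_congr (X.vtxEquiv hne)).symm

/-- The number of base vertices is at most the number of fibers times `2 ^ d`. -/
lemma card_vx_le {d : ℕ} (hd : ∀ e, (X.vars e).card ≤ d) (c : ZMod 2) :
    Fintype.card (X.Vx c) ≤ Fintype.card X.Eqn * 2 ^ d := by
  let F : X.Vx c → Σ e : X.Eqn, ({v // v ∈ X.vars e} → ZMod 2) :=
    fun u => ⟨u.e, fun v => u.a v.1⟩
  have hF : Function.Injective F := by
    intro u u' h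
    obtain ⟨f, a, s, p⟩ := u
    obtain ⟨f', a', s', p'⟩ := u'
    obtain ⟨h1, h2⟩ := Sigma.mk.inj_iff.1 h
    simp only at h1 h2
    subst h1
    have h3 := eq_of_heq h2
    apply Vx.ext
    · rfl
    funext v
    simp only
    by_cases hv : v ∈ X.vars f
    · exact congrFun h3 ⟨v, hv⟩
    · rw [s v hv, s' v hv]
  have h := Fintype.card_le_of_injective F hF
  refine h.trans ?_
  rw [Fintype.card_sigma]
  calc ∑ e : X.Eqn, Fintype.card ({v // v ∈ X.vars e} → ZMod 2)
      ≤ ∑ _e : X.Eqn, 2 ^ d := by
        apply Finset.sum_le_sum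
        intro e _
        rw [Fintype.card_fun, ZMod.card]
        simp only [Fintype.card_coe]
        exact Nat.pow_le_pow_right (by norm_num) (hd e)
    _ = Fintype.card X.Eqn * 2 ^ d := by
        simp [Finset.card_univ]

lemma card_vtx_le {d : ℕ} (hd : ∀ e, (X.vars e).card ≤ d) (c : ZMod 2) :
    Fintype.card (X.Vtx c) ≤
      (Fintype.card X.Eqn * 2 ^ d) *
        (1 + Fintype.card X.Eqn * (Fintype.card X.Eqn * 2 ^ d + 2)) := by
  have hV := X.card_vx_le hd c
  have hV0 := X.card_vx_le hd 0
  simp only [Vtx, Fintype.card_sum, Fintype.card_sigma, Fintype.card_fin]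
  set E := Fintype.card X.Eqn with hE
  set V := E * 2 ^ d with hVdef
  have hm : ∀ u : X.Vx c, X.mult u.e ≤ E * (V + 2) := by
    intro u
    unfold mult
    apply Nat.mul_le_mul
    · have := (X.num u.e).isLt
      omega
    · omega
  have hs : ∑ u : X.Vx c, X.mult u.e ≤ V * (E * (V + 2)) := by
    calc ∑ u : X.Vx c, X.mult u.e ≤ ∑ _u : X.Vx c, E * (V + 2) :=
          Finset.sum_le_sum (fun u _ => hm u)
      _ = Fintype.card (X.Vx c) * (E * (V + 2)) := by simp [Finset.card_univ]
      _ ≤ V * (E * (V + 2)) := Nat.mul_le_mul_right _ hV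
  calc Fintype.card (X.Vx c) + ∑ u : X.Vx c, X.mult u.e ≤ V + V * (E * (V + 2)) := by omega
    _ = V * (1 + E * (V + 2)) := by ring

end XorSys

end

end Vale.Agent.Lib.P310.N
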