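import Vale.Agent.Lib.P310.N.NetDefs

namespace Vale.Agent.Lib.P310.N

open scoped Classical
open Finset

noncomputable section

namespace Net

variable {p b : ℕ} (N : Net p b)

/-- An affine state: on section `S`, the wire `(S, j, v)` has value `C S j + μ S v`. -/
structure State where
  C : N.Sec → Fin p → ZMod 2
  μ : N.Sec → (Sg b →+ ZMod 2)

variable {N}

namespace State

variable (σ : N.State)

/-- The value of a wire. -/
def y (S : N.Sec) (j : Fin p) (v : Sg b) : ZMod 2 := σ.C S j + σ.μ S v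

/-- The linear part on a row. -/
def phi (ℓ : N.Row) : Sg b →+ ZMod 2 := ∑ S ∈ N.inc ℓ, σ.μ S

/-- The constants on a row. -/
def c (ℓ : N.Row) (j : Fin p) : ZMod 2 := ∑ S ∈ N.inc ℓ, (σ.C S j + σ.μ S (N.dl ℓ S j))

/-- The frame value of a section (the same for all code frames). -/
def f (S : N.Sec) : ZMod 2 := ∑ j, σ.C S j

/-- The value of a rail. -/
def r (ℓ : N.Row) (j : Fin p) (t : Sg b) : ZMod 2 :=
  σ.phi ℓ t + N.tw ℓ + ∑ j' ∈ Finset.univ.filter (fun j' => j' ≤ j), σ.c ℓ j'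

/-- The assignment of all variables. -/
def theta : N.Var → ZMod 2
  | Sum.inl (S, j, v) => σ.y S j v
  | Sum.inr (ℓ, j, t) => σ.r ℓ j t

end State

/-- The rows of a set of blocks. -/
def rowsOf (U : Finset N.Bk) : Finset N.Row := U.image Bk.row

/-- One step of the link relation in column `j`, through the rows `R`. -/
def LkStep (R : Finset N.Row) (j : Fin p) (x y : N.Sec × Sg b) : Prop :=
  ∃ ℓ ∈ R, ∃ S ∈ N.inc ℓ, ∃ S' ∈ N.inc ℓ, ∃ w : Sg b,
    x = (S, w + N.dl ℓ S j) ∧ y = (S', w + N.dl ℓ S' j)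

/-- The link relation in column `j`. -/
def Lk (R : Finset N.Row) (j : Fin p) : N.Sec × Sg b → N.Sec × Sg b → Prop :=
  Relation.ReflTransGen (LkStep R j)

/-- A frame is visible from a set of blocks if each of its wires is linked to a wire of a block
in its column. -/
def Visible (U : Finset N.Bk) (S : N.Sec) (L : Frame p b) : Prop :=
  ∀ j, ∃ e ∈ U, e.col = j ∧ ∃ S' ∈ N.inc e.row,
    Lk (rowsOf U) j (S, L j) (S', e.lab + N.dl e.row S' j)

/-- Two sections share a row of `R`. -/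
def ClStep (R : Finset N.Row) (S S' : N.Sec) : Prop := ∃ ℓ ∈ R, S ∈ N.inc ℓ ∧ S' ∈ N.inc ℓ

/-- The clusters of `R`. -/
def Cl (R : Finset N.Row) : N.Sec → N.Sec → Prop := Relation.ReflTransGen (ClStep R)

/-- A potential for the translations on the rows of `R`. -/
def Pot (R : Finset N.Row) (g : N.Sec → Fin p → Sg b) : Prop :=
  (∀ S, ∑ j, g S j = 0) ∧
    ∀ ℓ ∈ R, ∀ S ∈ N.inc ℓ, ∀ S' ∈ N.inc ℓ, ∀ j, g S j + N.dl ℓ S j = g S' j + N.dl ℓ S' j

/-- A section of `ℓ` is shared if another row of `R` also contains it. -/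
def Shared (R : Finset N.Row) (ℓ : N.Row) (S : N.Sec) : Prop := ∃ ℓ' ∈ R, ℓ' ≠ ℓ ∧ S ∈ N.inc ℓ'

variable (N)

/-- The hypotheses on a net and a known system `(Kn, κ)` used by Duplicator. -/
structure Good (Kn : N.Sec → Frame p b → Prop) (κ : N.Sec → Frame p b → ZMod 2) : Prop where
  hp : 2 ≤ p
  pot : ∀ R : Finset N.Row, R.card ≤ p + 1 → ∃ g, Pot R g
  leaf : ∀ R : Finset N.Row, R.card ≤ p + 1 → R.Nonempty →
    (∃ ℓ ∈ R, 2 ≤ (N.inc ℓ).card ∧ ∀ S ∈ N.inc ℓ, ∀ S' ∈ N.inc ℓ,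
        Shared R ℓ S → Shared R ℓ S' → S = S') ∨
      ((∀ ℓ ∈ R, (N.inc ℓ).card = 1) ∧
        ∀ ℓ ∈ R, ∀ ℓ' ∈ R, ℓ ≠ ℓ' → Disjoint (N.inc ℓ) (N.inc ℓ'))
  forest : ∀ R : Finset N.Row, R.card ≤ p → ∀ ℓ ∉ R, ∀ S ∈ N.inc ℓ, ∀ S' ∈ N.inc ℓ, S ≠ S' →
    ¬ Cl R S S'
  code : ∀ S L, Kn S L → ∑ j, L j = 0
  kv : ∀ U : Finset N.Bk, U.card ≤ p + 1 → ∀ e ∈ U, ∀ L : Frame p b, ∑ j, L j = 0 →
    ∀ S0 ∈ N.inc e.row,
      (∀ S ∈ N.inc e.row, S ≠ S0 →
        Kn S (fun j => L j + N.dl e.row S j) ∧ Visible U S (fun j => L j + N.dl e.row S j)) →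
      Kn S0 (fun j => L j + N.dl e.row S0 j)
  ks : ∀ (ℓ : N.Row) (L : Frame p b), (∀ S ∈ N.inc ℓ, Kn S (fun j => L j + N.dl ℓ S j)) →
    ∑ S ∈ N.inc ℓ, κ S (fun j => L j + N.dl ℓ S j) = N.tw ℓ

variable {N}

/-- The Duplicator invariant: the rows of the position are exact, and visible known frames have
their known value. -/
def InE (Kn : N.Sec → Frame p b → Prop) (κ : N.Sec → Frame p b → ZMod 2) (U : Finset N.Bk)
    (σ : N.State) : Prop :=
  (∀ ℓ ∈ rowsOf U, ∑ S ∈ N.inc ℓ, σ.f S = N.tw ℓ) ∧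
    ∀ S L, Kn S L → Visible U S L → σ.f S = κ S L

variable (N)

/-- Derivations of frame values. -/
inductive Der : N.Sec → Frame p b → ZMod 2 → Prop
  | step (ℓ : N.Row) (L : Frame p b) (hL : ∑ j, L j = 0)
      (hA : ∀ i σ, N.rd ℓ = some (i, σ) → L i = σ) (S0 : N.Sec) (hS0 : S0 ∈ N.inc ℓ)
      (c : N.Sec → ZMod 2)
      (h : ∀ S ∈ N.inc ℓ, S ≠ S0 → Der S (fun j => L j + N.dl ℓ S j) (c S)) :
      Der S0 (fun j => L j + N.dl ℓ S0 j) (N.tw ℓ + ∑ S ∈ (N.inc ℓ).erase S0, c S)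

variable {N}

end Net

end

end Vale.Agent.Lib.P310.N
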