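import Vale.Agent.Lib.P310.N.Spec
import Vale.Agent.Lib.P310.N.NetState

/-! Properties of specifications used in the proofs, and semantics on hubs. -/

namespace Vale.Agent.Lib.P310.N

open scoped Classical
open Finset

noncomputable section

namespace Spec

variable {p b : ℕ} (Sp : Spec p b)

/-- The incidences of the T-rows are as expected. -/
class Ok (Sp : Spec p b) : Prop where
  srcHub_inj : ∀ s s', Sp.srcHub s = Sp.srcHub s' → s = s'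
  hKA : ∀ t, Sp.K t ≠ Sp.A t
  hKB : ∀ t, Sp.K t ≠ Sp.B t
  hAB : ∀ t, Sp.A t ≠ Sp.B t
  A_K : ∀ t t', Sp.A t ≠ Sp.K t'
  B_K : ∀ t t', Sp.B t ≠ Sp.K t'
  A_B : ∀ t t', Sp.A t ≠ Sp.B t'
  A_inj : ∀ t t', Sp.A t = Sp.A t' → t = t'
  B_inj : ∀ t t', Sp.B t = Sp.B t' → t = t'
  A_src : ∀ t s, Sp.A t ≠ Sp.srcHub s
  B_src : ∀ t s, Sp.B t ≠ Sp.srcHub s
  A_top : ∀ t l, Sp.A t ≠ Sp.top l
  B_top : ∀ t l, Sp.B t ≠ Sp.top l
  A_line : ∀ t l l', Sp.bot l = Sp.A t → Sp.bot l' = Sp.A t → l = l'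
  B_line : ∀ t l l', Sp.bot l = Sp.B t → Sp.bot l' = Sp.B t → l = l'

theorem srcHub_inj [h : Sp.Ok] : ∀ s s', Sp.srcHub s = Sp.srcHub s' → s = s' := h.srcHub_inj

theorem hKA [h : Sp.Ok] : ∀ t, Sp.K t ≠ Sp.A t := h.hKA

theorem hKB [h : Sp.Ok] : ∀ t, Sp.K t ≠ Sp.B t := h.hKB

theorem hAB [h : Sp.Ok] : ∀ t, Sp.A t ≠ Sp.B t := h.hAB

theorem A_K [h : Sp.Ok] : ∀ t t', Sp.A t ≠ Sp.K t' := h.A_K

theorem B_K [h : Sp.Ok] : ∀ t t', Sp.B t ≠ Sp.K t' := h.B_K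

theorem A_B [h : Sp.Ok] : ∀ t t', Sp.A t ≠ Sp.B t' := h.A_B

theorem A_inj [h : Sp.Ok] : ∀ t t', Sp.A t = Sp.A t' → t = t' := h.A_inj

theorem B_inj [h : Sp.Ok] : ∀ t t', Sp.B t = Sp.B t' → t = t' := h.B_inj

theorem A_src [h : Sp.Ok] : ∀ t s, Sp.A t ≠ Sp.srcHub s := h.A_src

theorem B_src [h : Sp.Ok] : ∀ t s, Sp.B t ≠ Sp.srcHub s := h.B_src

theorem A_top [h : Sp.Ok] : ∀ t l, Sp.A t ≠ Sp.top l := h.A_top

theorem B_top [h : Sp.Ok] : ∀ t l, Sp.B t ≠ Sp.top l := h.B_top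

theorem A_line [h : Sp.Ok] : ∀ t l l', Sp.bot l = Sp.A t → Sp.bot l' = Sp.A t → l = l' := h.A_line

theorem B_line [h : Sp.Ok] : ∀ t l l', Sp.bot l = Sp.B t → Sp.bot l' = Sp.B t → l = l' := h.B_line

/-- Semantics on hubs: the known frames of the hubs and their values, compatible with rows. -/
structure Sem where
  Kh : Sp.Hub → Frame p b → Prop
  kh : Sp.Hub → Frame p b → ZMod 2
  code : ∀ u L, Kh u L → ∑ j, L j = 0
  src : ∀ s L, ∑ j, L j = 0 → Kh (Sp.srcHub s) L ∧ kh (Sp.srcHub s) L = 0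
  tr_K : ∀ t L, Kh (Sp.A t) L → Kh (Sp.B t) L → Kh (Sp.K t) L
  tr_A : ∀ t L, Kh (Sp.K t) L → Kh (Sp.B t) L → Kh (Sp.A t) L
  tr_B : ∀ t L, Kh (Sp.K t) L → Kh (Sp.A t) L → Kh (Sp.B t) L
  tr_sum : ∀ t L, Kh (Sp.K t) L → Kh (Sp.A t) L → Kh (Sp.B t) L →
    kh (Sp.K t) L + kh (Sp.A t) L + kh (Sp.B t) L = 0
  ln_plain : ∀ l, Sp.op l = LineOp.plain → ∀ L, (Kh (Sp.bot l) L ↔ Kh (Sp.top l) L) ∧
    (Kh (Sp.top l) L → kh (Sp.bot l) L = kh (Sp.top l) L + Sp.twd l)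
  ln_rd : ∀ l j s, Sp.op l = LineOp.rd j s → Sp.twd l = 0 ∧
    ∀ L, (Kh (Sp.bot l) L ↔ Kh (Sp.top l) L ∧ L j = s) ∧
      (Kh (Sp.top l) L → L j = s → kh (Sp.bot l) L = kh (Sp.top l) L)
  ln_wr : ∀ l d, Sp.op l = LineOp.wr d → Sp.twd l = 0 ∧
    ∀ L, (Kh (Sp.bot l) (fun j => L j + d j) ↔ Kh (Sp.top l) L) ∧
      (Kh (Sp.top l) L → kh (Sp.bot l) (fun j => L j + d j) = kh (Sp.top l) L)

variable {Sp}

/-- The known frames on all sections. A failing frame stays known for `dd p` sections into the read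
track. -/
def Sem.Kn (M : Sp.Sem) : Sp.Sec → Frame p b → Prop
  | Sum.inl u, L => M.Kh u L
  | Sum.inr (l, t), L =>
    match Sp.op l with
    | LineOp.plain => M.Kh (Sp.top l) L
    | LineOp.rd j s => M.Kh (Sp.top l) L ∧ (L j = s ∨ t.val + 1 ≤ 2 * dd p)
    | LineOp.wr d =>
      if t.val + 1 ≤ dd p then M.Kh (Sp.top l) L else M.Kh (Sp.top l) (fun j => L j + d j)

/-- The values on all sections. -/
def Sem.kap (M : Sp.Sem) : Sp.Sec → Frame p b → ZMod 2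
  | Sum.inl u, L => M.kh u L
  | Sum.inr (l, t), L =>
    match Sp.op l with
    | LineOp.plain => M.kh (Sp.top l) L
    | LineOp.rd _ _ => M.kh (Sp.top l) L
    | LineOp.wr d =>
      if t.val + 1 ≤ dd p then M.kh (Sp.top l) L else M.kh (Sp.top l) (fun j => L j + d j)

end Spec

end

end Vale.Agent.Lib.P310.N
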