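import Vale.Agent.Lib.P310.N.Prog
import Vale.Agent.Lib.P310.N.SpecMore

namespace Vale.Agent.Lib.P310.N

open scoped Classical
open Finset

set_option linter.unnecessarySimpa false

noncomputable section

namespace Prog

variable {p b : ℕ} (Q : Prog p b)

/-- The compiled specification has the expected T-rows. -/
instance spec_ok (s1 s2 : Q.Node) : (Q.spec s1 s2).Ok where
  srcHub_inj := by
    intro s s' h
    have h' : (Sum.inl (Sum.inr (Sum.inr (Sum.inr s))) : Q.Hub) =
        Sum.inl (Sum.inr (Sum.inr (Sum.inr s'))) := h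
    exact Sum.inr_injective (Sum.inr_injective (Sum.inr_injective (Sum.inl_injective h')))
  hKA := by
    rintro (⟨g, i⟩ | u) <;> simp [spec]
  hKB := by
    rintro (⟨g, i⟩ | u) <;> simp [spec]
  hAB := by
    rintro (⟨g, i⟩ | u) <;> simp [spec]
  A_K := by
    rintro (⟨g, i⟩ | u) (⟨g', i'⟩ | u') <;> simp [spec]
  B_K := by
    rintro (⟨g, i⟩ | u) (⟨g', i'⟩ | u') <;> simp [spec]
  A_B := by
    rintro (⟨g, i⟩ | u) (⟨g', i'⟩ | u') <;> simp [spec]
  A_inj := by
    rintro (⟨g, i⟩ | u) (⟨g', i'⟩ | u') h <;> simp_all [spec]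
  B_inj := by
    rintro (⟨g, i⟩ | u) (⟨g', i'⟩ | u') h <;> simp_all [spec]
  A_src := by
    rintro (⟨g, i⟩ | u) a <;> simp [spec]
  B_src := by
    rintro (⟨g, i⟩ | u) a <;> simp [spec]
  A_top := by
    rintro (⟨g, i⟩ | u) (r | w | ⟨g', i', c⟩ | (x | x) | x)
    all_goals first
      | (simp [spec]; done)
      | (cases c <;> simp [spec])
  B_top := by
    rintro (⟨g, i⟩ | u) (r | w | ⟨g', i', c⟩ | (x | x) | x)
    all_goals first
      | (simp [spec]; done)
      | (cases c <;> simp [spec])
  A_line := by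
    intro t l l' h h'
    have hh := h.trans h'.symm
    clear h h'
    rcases l with r | w | ⟨g', i', c⟩ | (_ | _) | x <;>
      rcases l' with r' | w' | ⟨g'', i'', c'⟩ | (_ | _) | x'
    all_goals first
      | rfl
      | (simpa [spec] using hh)
      | (exact absurd hh (by simp [spec]))
      | (cases ‹Bool› <;> cases ‹Bool› <;> simp_all [spec])
  B_line := by
    intro t l l' h h'
    have hh := h.trans h'.symm
    clear h h'
    rcases l with r | w | ⟨g', i', c⟩ | (_ | _) | x <;>
      rcases l' with r' | w' | ⟨g'', i'', c'⟩ | (_ | _) | x'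
    all_goals first
      | rfl
      | (simpa [spec] using hh)
      | (exact absurd hh (by simp [spec]))
      | (cases ‹Bool› <;> cases ‹Bool› <;> simp_all [spec])

end Prog

end

end Vale.Agent.Lib.P310.N
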