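import Vale.Agent.Lib.P310.N.SpecP

/-! (module Q) A semantics on hubs gives a good known system. -/

namespace Vale.Agent.Lib.P310.N

open scoped Classical
open Finset

set_option linter.unusedSectionVars false

noncomputable section

namespace Spec

variable {p b : ℕ} {Sp : Spec p b} [Sp.Ok]

private lemma q_len_eq : len p = 5 * (p + 2) := rfl
private lemma q_dd_eq : dd p = p + 2 := rfl

private lemma q_sc_zero (l : Sp.Ln) : Sp.sc l 0 = Sum.inl (Sp.top l) := by simp [sc]

private lemma q_sc_mid (l : Sp.Ln) {x : ℕ} (h0 : x ≠ 0) (h : x < len p) :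
    Sp.sc l x = Sum.inr (l, ⟨x - 1, by omega⟩) := by
  simp [sc, h0, h]

private lemma q_sc_end (l : Sp.Ln) : Sp.sc l (len p) = Sum.inl (Sp.bot l) := by
  have h0 : len p ≠ 0 := by rw [q_len_eq]; omega
  simp [sc, h0]

private lemma q_sc_eq_inr {l l' : Sp.Ln} {y : ℕ} {k : Fin (len p - 1)}
    (h : Sp.sc l' y = Sum.inr (l, k)) : l' = l ∧ y = k.val + 1 := by
  unfold sc at h
  split_ifs at h with h0 h1
  · simp only [Sum.inr.injEq, Prod.mk.injEq] at h
    refine ⟨h.1, ?_⟩
    have := congrArg Fin.val h.2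
    simp only at this
    omega

private lemma q_sc_inj {l : Sp.Ln} {x y : ℕ} (hx0 : x ≠ 0) (hx : x < len p) (h : Sp.sc l y = Sp.sc l x) :
    y = x := by
  rw [q_sc_mid l hx0 hx] at h
  have := (q_sc_eq_inr h).2
  simp only at this
  omega

/-- Two consecutive sections differ. -/
private lemma q_sc_ne (l : Sp.Ln) {t : ℕ} (ht : t < len p) : Sp.sc l t ≠ Sp.sc l (t + 1) := by
  have hlen : 2 ≤ len p := by rw [q_len_eq]; omega
  by_cases h : t + 1 < len p
  · intro he
    have := q_sc_inj (l := l) (x := t + 1) (by omega) h he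
    omega
  · have h1 : t + 1 = len p := by omega
    have h0 : t ≠ 0 := by omega
    rw [h1, q_sc_end, q_sc_mid l h0 ht]
    simp

/-! ### the three operations: values of sections -/

section Values

variable (M : Sp.Sem) {l : Sp.Ln} {x : ℕ} (F : Frame p b)

private lemma q_kap_end (l : Sp.Ln) : M.kap (Sp.sc l (len p)) F = M.kh (Sp.bot l) F := by
  rw [q_sc_end]; rfl

private lemma q_Kn_end (l : Sp.Ln) : M.Kn (Sp.sc l (len p)) F ↔ M.Kh (Sp.bot l) F := by
  rw [q_sc_end]; rfl

private lemma q_kap_plain (hop : Sp.op l = LineOp.plain) (hx : x < len p) :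
    M.kap (Sp.sc l x) F = M.kh (Sp.top l) F := by
  by_cases h0 : x = 0
  · subst h0; rw [q_sc_zero]; rfl
  · rw [q_sc_mid l h0 hx]; simp only [Sem.kap]; rw [hop]

private lemma q_Kn_plain (hop : Sp.op l = LineOp.plain) (hx : x < len p) :
    M.Kn (Sp.sc l x) F ↔ M.Kh (Sp.top l) F := by
  by_cases h0 : x = 0
  · subst h0; rw [q_sc_zero]; rfl
  · rw [q_sc_mid l h0 hx]; simp only [Sem.Kn]; rw [hop]

private lemma q_kap_rd {j : Fin p} {s : Sg b} (hop : Sp.op l = LineOp.rd j s) (hx : x < len p) :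
    M.kap (Sp.sc l x) F = M.kh (Sp.top l) F := by
  by_cases h0 : x = 0
  · subst h0; rw [q_sc_zero]; rfl
  · rw [q_sc_mid l h0 hx]; simp only [Sem.kap]; rw [hop]

private lemma q_Kn_rd {j : Fin p} {s : Sg b} (hop : Sp.op l = LineOp.rd j s) (hx : x < len p) :
    M.Kn (Sp.sc l x) F ↔ M.Kh (Sp.top l) F ∧ (F j = s ∨ x ≤ 2 * dd p) := by
  by_cases h0 : x = 0
  · subst h0; rw [q_sc_zero]
    have : M.Kn (Sum.inl (Sp.top l)) F ↔ M.Kh (Sp.top l) F := Iff.rfl
    rw [this]
    simp
  · rw [q_sc_mid l h0 hx]; simp only [Sem.Kn]; rw [hop]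
    have e : x - 1 + 1 = x := by omega
    simp only [e]

private lemma q_kap_wr {d : Fin p → Sg b} (hop : Sp.op l = LineOp.wr d) (hx : x < len p) :
    M.kap (Sp.sc l x) F = if x ≤ dd p then M.kh (Sp.top l) F
      else M.kh (Sp.top l) (fun j => F j + d j) := by
  by_cases h0 : x = 0
  · subst h0; rw [q_sc_zero, if_pos (Nat.zero_le _)]; rfl
  · rw [q_sc_mid l h0 hx]; simp only [Sem.kap]; rw [hop]
    have e : x - 1 + 1 = x := by omega
    simp only [e]

private lemma q_Kn_wr {d : Fin p → Sg b} (hop : Sp.op l = LineOp.wr d) (hx : x < len p) :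
    M.Kn (Sp.sc l x) F ↔ if x ≤ dd p then M.Kh (Sp.top l) F
      else M.Kh (Sp.top l) (fun j => F j + d j) := by
  by_cases h0 : x = 0
  · subst h0; rw [q_sc_zero, if_pos (Nat.zero_le _)]; rfl
  · rw [q_sc_mid l h0 hx]; simp only [Sem.Kn]; rw [hop]
    have e : x - 1 + 1 = x := by omega
    simp only [e]

end Values

/-! ### translations -/

private lemma q_rdl_plain {l : Sp.Ln} (hop : Sp.op l = LineOp.plain) (t : Fin (len p)) (S : Sp.Sec) :
    Sp.rdl (Sum.inr (Sum.inr (l, t))) S = 0 := by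
  funext j; simp only [rdl]; rw [hop]; rfl

private lemma q_rdl_rd {l : Sp.Ln} {j0 : Fin p} {s : Sg b} (hop : Sp.op l = LineOp.rd j0 s)
    (t : Fin (len p)) (S : Sp.Sec) : Sp.rdl (Sum.inr (Sum.inr (l, t))) S = 0 := by
  funext j; simp only [rdl]; rw [hop]; rfl

private lemma q_rdl_wr {l : Sp.Ln} {d : Fin p → Sg b} (hop : Sp.op l = LineOp.wr d)
    (t : Fin (len p)) (S : Sp.Sec) : Sp.rdl (Sum.inr (Sum.inr (l, t))) S =
      fun j => if t.val = dd p ∧ S = Sp.sc l (t.val + 1) then d j else 0 := by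
  funext j; simp only [rdl]; rw [hop]

private lemma q_add_zero_frame (L : Frame p b) : (fun j => L j + (0 : Fin p → Sg b) j) = L := by
  funext j; simp

private lemma q_sg_add_self (v : Sg b) : v + v = 0 := by
  funext i
  simpa using CharTwo.add_self_eq_zero (v i)

private lemma q_frame_add_add (L d : Frame p b) : (fun j => (fun j => L j + d j) j + d j) = L := by
  funext j
  show L j + d j + d j = L j
  rw [add_assoc, q_sg_add_self, add_zero]

private lemma q_z_add_self (a : ZMod 2) : a + a = 0 := CharTwo.add_self_eq_zero a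

/-- Known frames are code frames. -/
theorem Sem.kn_code' (M : Sp.Sem) (S : Sp.Sec) (L : Frame p b) (h : M.Kn S L) :
    ∑ j, L j = 0 := by
  rcases S with u | ⟨l, t⟩
  · exact M.code u L h
  · simp only [Sem.Kn] at h
    cases hop : Sp.op l with
    | plain =>
      rw [hop] at h
      exact M.code _ L h
    | rd j s =>
      rw [hop] at h
      exact M.code _ L h.1
    | wr d =>
      rw [hop] at h
      simp only at h
      split_ifs at h with h1
      · exact M.code _ L h
      · have h2 := M.code _ _ h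
        have h3 := Sp.wr_sum l d hop
        rw [Finset.sum_add_distrib, h3, add_zero] at h2
        exact h2

/-- Values on a line row. -/
private lemma q_ks_line (M : Sp.Sem) (l : Sp.Ln) (t : Fin (len p)) (L : Frame p b)
    (h : ∀ S ∈ Sp.rinc (Sum.inr (Sum.inr (l, t))),
      M.Kn S (fun j => L j + Sp.rdl (Sum.inr (Sum.inr (l, t))) S j)) :
    ∑ S ∈ Sp.rinc (Sum.inr (Sum.inr (l, t))),
      M.kap S (fun j => L j + Sp.rdl (Sum.inr (Sum.inr (l, t))) S j)
      = Sp.rtw (Sum.inr (Sum.inr (l, t))) := by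
  have ht := t.isLt
  have hup : Sp.sc l t.val ∈ Sp.rinc (Sum.inr (Sum.inr (l, t))) := by simp [rinc]
  have hlow : Sp.sc l (t.val + 1) ∈ Sp.rinc (Sum.inr (Sum.inr (l, t))) := by simp [rinc]
  have hU := h _ hup
  have hL := h _ hlow
  show ∑ S ∈ ({Sp.sc l t.val, Sp.sc l (t.val + 1)} : Finset Sp.Sec), _ = _
  rw [Finset.sum_pair (q_sc_ne l ht)]
  simp only [rtw]
  cases hop : Sp.op l with
  | plain =>
    simp only [q_rdl_plain hop] at hU hL ⊢
    simp only [Pi.zero_apply, add_zero] at hU hL ⊢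
    change M.Kn _ L at hU
    change M.Kn _ L at hL
    change M.kap _ L + M.kap _ L = _
    rw [q_kap_plain M L hop ht]
    by_cases h1 : t.val + 1 = len p
    · rw [h1, q_kap_end, if_pos rfl]
      rw [q_Kn_plain M L hop ht] at hU
      rw [((M.ln_plain l hop L).2 hU)]
      have hz := q_z_add_self (M.kh (Sp.top l) L)
      linear_combination hz
    · rw [q_kap_plain M L hop (by omega), if_neg h1, q_z_add_self]
  | rd j s =>
    simp only [q_rdl_rd hop] at hU hL ⊢
    simp only [Pi.zero_apply, add_zero] at hU hL ⊢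
    change M.Kn _ L at hU
    change M.Kn _ L at hL
    change M.kap _ L + M.kap _ L = _
    rw [q_kap_rd M L hop ht]
    obtain ⟨htw, hb⟩ := M.ln_rd l j s hop
    by_cases h1 : t.val + 1 = len p
    · rw [h1, q_kap_end, if_pos rfl, htw]
      rw [h1, q_Kn_end, (hb L).1] at hL
      rw [(hb L).2 hL.1 hL.2, q_z_add_self]
    · rw [q_kap_rd M L hop (by omega), if_neg h1, q_z_add_self]
  | wr d =>
    obtain ⟨htw, hb⟩ := M.ln_wr l d hop
    have hlen : len p = 5 * (p + 2) := rfl
    have hdd : dd p = p + 2 := rfl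
    simp only [q_rdl_wr hop, and_true] at hU hL ⊢
    have hne : Sp.sc l t.val ≠ Sp.sc l (t.val + 1) := q_sc_ne l ht
    have eU : (fun j => L j + (if t.val = dd p ∧ Sp.sc l t.val = Sp.sc l (t.val + 1) then d j else 0))
        = L := by
      funext j; rw [if_neg (fun hh => hne hh.2), add_zero]
    rw [eU] at hU ⊢
    by_cases h1 : t.val + 1 = len p
    · have hnd : t.val ≠ dd p := by omega
      have eL : (fun j => L j + (if t.val = dd p then d j else 0))
          = L := by
        funext j; rw [if_neg hnd, add_zero]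
      rw [eL]
      rw [h1, q_kap_end, if_pos rfl, htw, q_kap_wr M L hop ht]
      have hnd2 : ¬ t.val ≤ dd p := by omega
      rw [if_neg hnd2]
      rw [q_Kn_wr M L hop ht, if_neg hnd2] at hU
      have := ((hb (fun j => L j + d j)).2 hU)
      rw [q_frame_add_add] at this
      rw [this, q_z_add_self]
    · have hlt : t.val + 1 < len p := by omega
      rw [if_neg h1]
      rw [q_kap_wr M L hop ht]
      by_cases h2 : t.val = dd p
      · have eL : (fun j => L j + (if t.val = dd p then d j else 0))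
            = fun j => L j + d j := by
          funext j; rw [if_pos h2]
        rw [eL, q_kap_wr M _ hop hlt, if_pos h2.le, if_neg (by omega), q_frame_add_add, q_z_add_self]
      · have eL : (fun j => L j + (if t.val = dd p then d j else 0))
            = L := by
          funext j; rw [if_neg h2, add_zero]
        rw [eL, q_kap_wr M L hop hlt]
        by_cases h3 : t.val ≤ dd p
        · rw [if_pos h3, if_pos (by omega), q_z_add_self]
        · rw [if_neg h3, if_neg (by omega), q_z_add_self]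

/-- All rows. -/
private lemma q_ks_row (M : Sp.Sem) (ℓ : Sp.Row) (L : Frame p b)
    (h : ∀ S ∈ Sp.rinc ℓ, M.Kn S (fun j => L j + Sp.rdl ℓ S j)) :
    ∑ S ∈ Sp.rinc ℓ, M.kap S (fun j => L j + Sp.rdl ℓ S j) = Sp.rtw ℓ := by
  rcases ℓ with s | t | ⟨l, t⟩
  · have hS : Sp.rinc (Sum.inl s) = {Sum.inl (Sp.srcHub s)} := rfl
    rw [hS, Finset.sum_singleton]
    have hk := h (Sum.inl (Sp.srcHub s)) (by rw [hS]; simp)
    have e : (fun j => L j + Sp.rdl (Sum.inl s) (Sum.inl (Sp.srcHub s)) j) = L := by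
      funext j; show L j + 0 = L j; rw [add_zero]
    rw [e] at hk ⊢
    exact (M.src s L (M.code _ _ hk)).2
  · have hS : Sp.rinc (Sum.inr (Sum.inl t)) =
        {Sum.inl (Sp.K t), Sum.inl (Sp.A t), Sum.inl (Sp.B t)} := rfl
    have e : ∀ S, (fun j => L j + Sp.rdl (Sum.inr (Sum.inl t)) S j) = L := by
      intro S; funext j; show L j + 0 = L j; rw [add_zero]
    simp only [e] at h ⊢
    have hK : M.Kh (Sp.K t) L := h (Sum.inl (Sp.K t)) (by rw [hS]; simp)
    have hA : M.Kh (Sp.A t) L := h (Sum.inl (Sp.A t)) (by rw [hS]; simp)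
    have hB : M.Kh (Sp.B t) L := h (Sum.inl (Sp.B t)) (by rw [hS]; simp)
    rw [hS, Finset.sum_insert, Finset.sum_pair]
    · have := M.tr_sum t L hK hA hB
      show M.kh _ L + (M.kh _ L + M.kh _ L) = 0
      rw [← add_assoc]; exact this
    · intro he; exact Sp.hAB t (Sum.inl.inj he)
    · simp only [Finset.mem_insert, Finset.mem_singleton, not_or]
      exact ⟨fun he => Sp.hKA t (Sum.inl.inj he), fun he => Sp.hKB t (Sum.inl.inj he)⟩
  · exact q_ks_line M l t L h

/-- Plain lines: known along a row. -/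
private lemma q_Kn_iff_plain (M : Sp.Sem) {l : Sp.Ln} (hop : Sp.op l = LineOp.plain)
    {t : ℕ} (ht : t < len p) (L : Frame p b) :
    M.Kn (Sp.sc l t) L ↔ M.Kn (Sp.sc l (t + 1)) L := by
  rw [q_Kn_plain M L hop ht]
  by_cases h1 : t + 1 = len p
  · rw [h1, q_Kn_end]
    exact ((M.ln_plain l hop L).1).symm
  · rw [q_Kn_plain M L hop (by omega)]

/-- Write lines: known along a row. -/
private lemma q_Kn_iff_wr (M : Sp.Sem) {l : Sp.Ln} {d : Fin p → Sg b} (hop : Sp.op l = LineOp.wr d)
    {t : ℕ} (ht : t < len p) (L : Frame p b) :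
    M.Kn (Sp.sc l t) L ↔
      M.Kn (Sp.sc l (t + 1)) (fun j => L j + (if t = dd p then d j else 0)) := by
  have hlen : len p = 5 * (p + 2) := rfl
  have hdd : dd p = p + 2 := rfl
  rw [q_Kn_wr M L hop ht]
  by_cases h1 : t + 1 = len p
  · have hnd : t ≠ dd p := by omega
    have eL : (fun j => L j + (if t = dd p then d j else 0)) = L := by
      funext j; rw [if_neg hnd, add_zero]
    rw [eL, h1, q_Kn_end, if_neg (by omega)]
    have := ((M.ln_wr l d hop).2 (fun j => L j + d j)).1
    rw [q_frame_add_add] at this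
    exact this.symm
  · have hlt : t + 1 < len p := by omega
    by_cases h2 : t = dd p
    · have eL : (fun j => L j + (if t = dd p then d j else 0)) = fun j => L j + d j := by
        funext j; rw [if_pos h2]
      rw [eL, q_Kn_wr M _ hop hlt, if_pos h2.le, if_neg (by omega), q_frame_add_add]
    · have eL : (fun j => L j + (if t = dd p then d j else 0)) = L := by
        funext j; rw [if_neg h2, add_zero]
      rw [eL, q_Kn_wr M L hop hlt]
      by_cases h3 : t ≤ dd p
      · rw [if_pos h3, if_pos (by omega)]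
      · rw [if_neg h3, if_neg (by omega)]

/-- The closure property, for an abstract visibility with the margin property. -/
private lemma q_kv_row (M : Sp.Sem) (Vis : Sp.Sec → Frame p b → Prop)
    (hmar : ∀ l j s, Sp.op l = LineOp.rd j s → ∀ L, Vis (Sp.sc l (2 * dd p)) L → L j = s)
    (ℓ : Sp.Row) (L : Frame p b) (hL : ∑ j, L j = 0) (S0 : Sp.Sec) (hS0 : S0 ∈ Sp.rinc ℓ)
    (h : ∀ S ∈ Sp.rinc ℓ, S ≠ S0 →
      M.Kn S (fun j => L j + Sp.rdl ℓ S j) ∧ Vis S (fun j => L j + Sp.rdl ℓ S j)) :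
    M.Kn S0 (fun j => L j + Sp.rdl ℓ S0 j) := by
  have hlen : len p = 5 * (p + 2) := rfl
  have hdd : dd p = p + 2 := rfl
  rcases ℓ with s | t | ⟨l, t⟩
  · have hS : Sp.rinc (Sum.inl s) = {Sum.inl (Sp.srcHub s)} := rfl
    rw [hS, Finset.mem_singleton] at hS0
    subst hS0
    have e : (fun j => L j + Sp.rdl (Sum.inl s) (Sum.inl (Sp.srcHub s)) j) = L := by
      funext j; show L j + 0 = L j; rw [add_zero]
    rw [e]
    exact (M.src s L hL).1
  · have hS : Sp.rinc (Sum.inr (Sum.inl t)) =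
        {Sum.inl (Sp.K t), Sum.inl (Sp.A t), Sum.inl (Sp.B t)} := rfl
    have e : ∀ S, (fun j => L j + Sp.rdl (Sum.inr (Sum.inl t)) S j) = L := by
      intro S; funext j; show L j + 0 = L j; rw [add_zero]
    simp only [e] at h ⊢
    have hKA : (Sum.inl (Sp.K t) : Sp.Sec) ≠ Sum.inl (Sp.A t) := fun he => Sp.hKA t (Sum.inl.inj he)
    have hKB : (Sum.inl (Sp.K t) : Sp.Sec) ≠ Sum.inl (Sp.B t) := fun he => Sp.hKB t (Sum.inl.inj he)
    have hAB : (Sum.inl (Sp.A t) : Sp.Sec) ≠ Sum.inl (Sp.B t) := fun he => Sp.hAB t (Sum.inl.inj he)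
    have mK : (Sum.inl (Sp.K t) : Sp.Sec) ∈ Sp.rinc (Sum.inr (Sum.inl t)) := by rw [hS]; simp
    have mA : (Sum.inl (Sp.A t) : Sp.Sec) ∈ Sp.rinc (Sum.inr (Sum.inl t)) := by rw [hS]; simp
    have mB : (Sum.inl (Sp.B t) : Sp.Sec) ∈ Sp.rinc (Sum.inr (Sum.inl t)) := by rw [hS]; simp
    rw [hS] at hS0
    simp only [Finset.mem_insert, Finset.mem_singleton] at hS0
    rcases hS0 with rfl | rfl | rfl
    · exact M.tr_K t L (h _ mA hKA.symm).1 (h _ mB hKB.symm).1
    · exact M.tr_A t L (h _ mK hKA).1 (h _ mB hAB.symm).1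
    · exact M.tr_B t L (h _ mK hKB).1 (h _ mA hAB).1
  · have ht := t.isLt
    have hne := q_sc_ne (Sp := Sp) l ht
    have mU : Sp.sc l t.val ∈ Sp.rinc (Sum.inr (Sum.inr (l, t))) := by simp [rinc]
    have mL : Sp.sc l (t.val + 1) ∈ Sp.rinc (Sum.inr (Sum.inr (l, t))) := by simp [rinc]
    have hS0' : S0 = Sp.sc l t.val ∨ S0 = Sp.sc l (t.val + 1) := by simpa [rinc] using hS0
    cases hop : Sp.op l with
    | plain =>
      simp only [q_rdl_plain hop, Pi.zero_apply, add_zero] at h ⊢
      change M.Kn S0 L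
      have hi := q_Kn_iff_plain M hop ht L
      rcases hS0' with rfl | rfl
      · exact hi.2 (h _ mL hne.symm).1
      · exact hi.1 (h _ mU hne).1
    | wr d =>
      simp only [q_rdl_wr hop] at h ⊢
      have hi := q_Kn_iff_wr M hop ht L
      have eU : (fun j => L j + (if t.val = dd p ∧ Sp.sc l t.val = Sp.sc l (t.val + 1) then d j else 0))
          = L := by
        funext j; rw [if_neg (fun hh => hne hh.2), add_zero]
      have eL : (fun j => L j + (if t.val = dd p ∧ Sp.sc l (t.val + 1) = Sp.sc l (t.val + 1) then d j else 0))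
          = (fun j => L j + (if t.val = dd p then d j else 0)) := by
        funext j; simp only [and_true]
      rcases hS0' with rfl | rfl
      · rw [eU]
        have hK := (h _ mL hne.symm).1
        rw [eL] at hK
        exact hi.2 hK
      · have hU := (h _ mU hne).1
        rw [eU] at hU
        rw [eL]
        exact hi.1 hU
    | rd j s =>
      simp only [q_rdl_rd hop, Pi.zero_apply, add_zero] at h ⊢
      change M.Kn S0 L
      obtain ⟨_, hb⟩ := M.ln_rd l j s hop
      rcases hS0' with rfl | rfl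
      · have hK : M.Kn (Sp.sc l (t.val + 1)) L := (h _ mL hne.symm).1
        rw [q_Kn_rd M L hop ht]
        by_cases h1 : t.val + 1 = len p
        · rw [h1, q_Kn_end, (hb L).1] at hK
          exact ⟨hK.1, Or.inl hK.2⟩
        · rw [q_Kn_rd M L hop (by omega)] at hK
          refine ⟨hK.1, ?_⟩
          rcases hK.2 with h2 | h2
          · exact Or.inl h2
          · exact Or.inr (by omega)
      · have hK : M.Kn (Sp.sc l t.val) L := (h _ mU hne).1
        have hV : Vis (Sp.sc l t.val) L := (h _ mU hne).2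
        rw [q_Kn_rd M L hop ht] at hK
        have hj : L j = s ∨ t.val + 1 ≤ 2 * dd p := by
          rcases hK.2 with h2 | h2
          · exact Or.inl h2
          · by_cases h3 : t.val = 2 * dd p
            · rw [h3] at hV
              exact Or.inl (hmar l j s hop L hV)
            · exact Or.inr (by omega)
        by_cases h1 : t.val + 1 = len p
        · rw [h1, q_Kn_end, (hb L).1]
          refine ⟨hK.1, ?_⟩
          rcases hj with h2 | h2
          · exact h2
          · omega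
        · rw [q_Kn_rd M L hop (by omega)]
          exact ⟨hK.1, hj⟩

/-- A row through an interior section. -/
private lemma q_row_of_mid {l : Sp.Ln} {x : ℕ} (h0 : x ≠ 0) (hx : x < len p) {ℓ : Sp.Row}
    (h : Sp.sc l x ∈ Sp.rinc ℓ) :
    ∃ t : Fin (len p), ℓ = Sum.inr (Sum.inr (l, t)) ∧ (t.val = x ∨ t.val + 1 = x) := by
  rw [q_sc_mid l h0 hx] at h
  rcases ℓ with s | t | ⟨l', t⟩
  · simp [rinc] at h
  · simp [rinc] at h
  · have h' : Sum.inr (l, (⟨x - 1, by omega⟩ : Fin (len p - 1))) = Sp.sc l' t.val ∨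
        Sum.inr (l, (⟨x - 1, by omega⟩ : Fin (len p - 1))) = Sp.sc l' (t.val + 1) := by
      simpa [rinc] using h
    rcases h' with h1 | h1
    · obtain ⟨rfl, h2⟩ := q_sc_eq_inr h1.symm
      refine ⟨t, rfl, Or.inl ?_⟩
      simp only at h2
      omega
    · obtain ⟨rfl, h2⟩ := q_sc_eq_inr h1.symm
      refine ⟨t, rfl, Or.inr ?_⟩
      simp only at h2
      omega

/-- Some row of a window is missing from a small set of rows. -/
private lemma q_exists_missing (R : Finset Sp.Row) (hR : R.card ≤ p + 1) (l : Sp.Ln) (a : ℕ)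
    (ha : a + p + 2 ≤ len p) :
    ∃ t : Fin (len p), a ≤ t.val ∧ t.val < a + p + 2 ∧ (Sum.inr (Sum.inr (l, t)) : Sp.Row) ∉ R := by
  by_contra hcon
  push Not at hcon
  have hlpos : 0 < len p := by
    have hlen : len p = 5 * (p + 2) := rfl
    omega
  let f : ℕ → Sp.Row := fun i => Sum.inr (Sum.inr (l, ⟨(a + i) % len p, Nat.mod_lt _ hlpos⟩))
  have hmem : ∀ i ∈ Finset.range (p + 2), f i ∈ R := by
    intro i hi
    rw [Finset.mem_range] at hi
    have hlt : a + i < len p := by omega
    apply hcon ⟨(a + i) % len p, Nat.mod_lt _ hlpos⟩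
    · simp only [Nat.mod_eq_of_lt hlt]; omega
    · simp only [Nat.mod_eq_of_lt hlt]; omega
  have hinj : Set.InjOn f (Finset.range (p + 2) : Finset ℕ) := by
    intro i hi i' hi' he
    have hi2 := Finset.mem_range.mp hi
    have hi2' := Finset.mem_range.mp hi'
    have h1 : (⟨(a + i) % len p, Nat.mod_lt _ hlpos⟩ : Fin (len p))
        = ⟨(a + i') % len p, Nat.mod_lt _ hlpos⟩ := by
      have h2 := Sum.inr.inj (Sum.inr.inj he)
      exact (Prod.mk.inj h2).2
    have h3 := congrArg Fin.val h1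
    simp only [Nat.mod_eq_of_lt (show a + i < len p by omega),
      Nat.mod_eq_of_lt (show a + i' < len p by omega)] at h3
    omega
  have := Finset.card_le_card_of_injOn f hmem hinj
  rw [Finset.card_range] at this
  omega

private lemma q_mem_line_inc {l : Sp.Ln} {t : Fin (len p)} {S : Sp.Sec}
    (h : S ∈ Sp.rinc (Sum.inr (Sum.inr (l, t)))) : S = Sp.sc l t.val ∨ S = Sp.sc l (t.val + 1) := by
  simpa [rinc] using h

/-- One link step in a window of a read line. -/
private lemma q_trap_step {R : Finset Sp.net.Row} {l : Sp.Ln} {j0 : Fin p} {s : Sg b}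
    (hop : Sp.op l = LineOp.rd j0 s) {i : Fin p} {c d' : ℕ} (hd : d' < len p)
    (hcm : ∀ t : Fin (len p), t.val = c → (Sum.inr (Sum.inr (l, t)) : Sp.Row) ∉ R)
    (hdm : ∀ t : Fin (len p), t.val = d' → (Sum.inr (Sum.inr (l, t)) : Sp.Row) ∉ R)
    {x : ℕ} {v : Sg b} (hx1 : c < x) (hx2 : x ≤ d') {y : Sp.Sec × Sg b}
    (hs : Net.LkStep (N := Sp.net) R i (Sp.sc l x, v) y) :
    ∃ x', c < x' ∧ x' ≤ d' ∧ y = (Sp.sc l x', v) := by
  obtain ⟨ℓ, hℓ, S, hS, S', hS', w, h1, h2⟩ := hs
  obtain ⟨e1, e2⟩ := Prod.mk.inj h1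
  have hS1 : Sp.sc l x ∈ Sp.rinc ℓ := by rw [e1]; exact hS
  obtain ⟨t, rfl, ht⟩ := q_row_of_mid (by omega) (by omega) hS1
  have hdl : ∀ Z, Sp.rdl (Sum.inr (Sum.inr (l, t))) Z = 0 := fun Z => q_rdl_rd hop t Z
  have hw : w = v := by
    have e3 : Sp.rdl (Sum.inr (Sum.inr (l, t))) S i = 0 := congrFun (hdl S) i
    have e4 : v = w + Sp.rdl (Sum.inr (Sum.inr (l, t))) S i := e2
    rw [e3, add_zero] at e4
    exact e4.symm
  have hy : y = (S', v) := by
    have e3 : Sp.rdl (Sum.inr (Sum.inr (l, t))) S' i = 0 := congrFun (hdl S') i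
    have e4 : y = (S', w + Sp.rdl (Sum.inr (Sum.inr (l, t))) S' i) := h2
    rw [e3, add_zero, hw] at e4
    exact e4
  have hS2 : S' = Sp.sc l t.val ∨ S' = Sp.sc l (t.val + 1) := q_mem_line_inc hS'
  rcases ht with ht | ht
  · have hne : t.val ≠ d' := fun he => hdm t he hℓ
    rcases hS2 with hS3 | hS3
    · exact ⟨x, hx1, hx2, by rw [hy, hS3, ht]; rfl⟩
    · exact ⟨x + 1, by omega, by omega, by rw [hy, hS3, ht]; rfl⟩
  · have hne : t.val ≠ c := fun he => hcm t he hℓ
    rcases hS2 with hS3 | hS3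
    · exact ⟨t.val, by omega, by omega, by rw [hy, hS3]; rfl⟩
    · exact ⟨t.val + 1, by omega, by omega, by rw [hy, hS3]; rfl⟩

/-- **The margin lemma**: a frame visible at the middle of a read line satisfies the read. -/
theorem margin (U : Finset Sp.net.Bk) (hU : U.card ≤ p + 1) (l : Sp.Ln) (j : Fin p) (s : Sg b)
    (hop : Sp.op l = LineOp.rd j s) (L : Frame p b)
    (hv : Net.Visible U (Sp.sc l (2 * dd p)) L) : L j = s := by
  have hlen : len p = 5 * (p + 2) := rfl
  have hdd : dd p = p + 2 := rfl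
  have hR : (Net.rowsOf U).card ≤ p + 1 := (Finset.card_image_le).trans hU
  obtain ⟨tc, hc1, hc2, hc3⟩ := q_exists_missing (Sp := Sp) (Net.rowsOf U) hR l (dd p) (by omega)
  obtain ⟨td, hd1, hd2, hd3⟩ := q_exists_missing (Sp := Sp) (Net.rowsOf U) hR l (2 * dd p) (by omega)
  obtain ⟨e, he, hcol, S', hS', hlk⟩ := hv j
  have hcm : ∀ t : Fin (len p), t.val = tc.val →
      (Sum.inr (Sum.inr (l, t)) : Sp.Row) ∉ Net.rowsOf U := by
    intro t ht
    rw [Fin.ext ht]; exact hc3
  have hdm : ∀ t : Fin (len p), t.val = td.val →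
      (Sum.inr (Sum.inr (l, t)) : Sp.Row) ∉ Net.rowsOf U := by
    intro t ht
    rw [Fin.ext ht]; exact hd3
  have htrap : ∀ y, Net.Lk (N := Sp.net) (Net.rowsOf U) j (Sp.sc l (2 * dd p), L j) y →
      ∃ x', tc.val < x' ∧ x' ≤ td.val ∧ y = (Sp.sc l x', L j) := by
    intro y hy
    induction hy with
    | refl => exact ⟨2 * dd p, by omega, by omega, rfl⟩
    | tail _ hstep ih =>
      obtain ⟨x', h1, h2, rfl⟩ := ih
      exact q_trap_step hop td.isLt hcm hdm h1 h2 hstep
  obtain ⟨x', h1, h2, h3⟩ := htrap _ hlk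
  obtain ⟨e1, e2⟩ := Prod.mk.inj h3
  have hmem : Sp.sc l x' ∈ Sp.rinc e.row := by rw [← e1]; exact hS'
  have hx0 : x' ≠ 0 := by omega
  have hxl : x' < len p := by omega
  obtain ⟨t, ht, ht2⟩ := q_row_of_mid hx0 hxl hmem
  have hrow : (Sum.inr (Sum.inr (l, t)) : Sp.Row) ∈ Net.rowsOf U := by
    have h0 : e.row ∈ Net.rowsOf U := by
      unfold Net.rowsOf
      exact @Finset.mem_image_of_mem _ _ _ _ _ _ he
    rw [ht] at h0
    exact h0
  have hnc : t.val ≠ tc.val := fun h => hcm t h hrow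
  have hnd : t.val ≠ td.val := fun h => hdm t h hrow
  have hrd : Sp.rrd e.row = some (j, s) := by
    rw [ht]
    simp only [rrd]
    rw [hop]
    simp only
    rw [if_pos]
    constructor <;> omega
  have hlab := e.allowed j s hrd hcol.symm
  have hdl0 : Sp.rdl e.row S' j = 0 := by
    rw [ht]; exact congrFun (q_rdl_rd hop t S') j
  have : e.lab = L j := by
    have e2' : e.lab + Sp.rdl e.row S' j = L j := e2
    rw [hdl0, add_zero] at e2'
    exact e2'
  rw [← this, hlab]

/-- (module Q2) Closure: the only case needing visibility is the boundary of the read margin. -/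
theorem Sem.kv (M : Sp.Sem) (U : Finset Sp.net.Bk) (hU : U.card ≤ p + 1) (e : Sp.net.Bk)
    (he : e ∈ U) (L : Frame p b) (hL : ∑ j, L j = 0) (S0 : Sp.net.Sec)
    (hS0 : S0 ∈ Sp.net.inc e.row)
    (h : ∀ S ∈ Sp.net.inc e.row, S ≠ S0 →
      M.Kn S (fun j => L j + Sp.net.dl e.row S j) ∧
        Net.Visible U S (fun j => L j + Sp.net.dl e.row S j)) :
    M.Kn S0 (fun j => L j + Sp.net.dl e.row S0 j) :=
  q_kv_row M (fun S F => Net.Visible U S F)
    (fun l j s hop F hF => margin U hU l j s hop F hF) e.row L hL S0 hS0 h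

/-- (module Q1) Frames known on a line: the value sum along rows. -/
theorem Sem.ks (M : Sp.Sem) (ℓ : Sp.net.Row) (L : Frame p b)
    (h : ∀ S ∈ Sp.net.inc ℓ, M.Kn S (fun j => L j + Sp.net.dl ℓ S j)) :
    ∑ S ∈ Sp.net.inc ℓ, M.kap S (fun j => L j + Sp.net.dl ℓ S j) = Sp.net.tw ℓ :=
  q_ks_row M ℓ L h

/-- Known frames are code frames. -/
theorem Sem.kn_code (M : Sp.Sem) (S : Sp.net.Sec) (L : Frame p b) (h : M.Kn S L) :
    ∑ j, L j = 0 := Sem.kn_code' M S L h

/-- (module Q) The known system of a semantics is good. -/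
theorem Sem.good (M : Sp.Sem) (hp : 2 ≤ p) : Sp.net.Good M.Kn M.kap where
  hp := hp
  pot := Sp.net_pot
  leaf := Sp.net_leaf
  forest := fun R hR ℓ hℓ S hS S' hS' hne => Sp.net_forest R hR ℓ hℓ S hS S' hS' hne
  code := M.kn_code
  kv := fun U hU e he L hL S0 hS0 h => M.kv U hU e he L hL S0 hS0 h
  ks := M.ks

end Spec

end

end Vale.Agent.Lib.P310.N
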