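import Vale.Agent.Lib.P310.N.XorMore

namespace Vale.Agent.Lib.P310.N

open scoped Classical
open Finset

noncomputable section

namespace XorSys

variable (X : XorSys)

variable {X}

/-! Degrees identify fibers. -/

lemma deg_base_ge {c : ZMod 2} (u : X.Vx c) :
    X.mult u.e ≤ deg' (X.Gr c) (Sum.inl u) := by
  unfold deg'
  have := Finset.card_le_card_of_injOn (s := (Finset.univ : Finset (Fin (X.mult u.e))))
    (t := Finset.univ.filter (fun y => (X.Gr c).Adj (Sum.inl u) y))
    (fun n => (Sum.inr ⟨u, n⟩ : X.Vtx c))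
    (fun n _ => by
      simp only [Finset.coe_filter, Finset.mem_univ, true_and]
      exact rfl)
    (fun n _ n' _ h => by
      have h' := Sum.inr_injective h
      simpa using h')
  simpa using this

lemma deg_base_le {c : ZMod 2} (u : X.Vx c) :
    deg' (X.Gr c) (Sum.inl u) ≤ X.mult u.e + Fintype.card (X.Vx c) := by
  unfold deg'
  have hsub : Finset.univ.filter (fun y => (X.Gr c).Adj (Sum.inl u) y) ⊆
      (Finset.univ : Finset (Fin (X.mult u.e))).image
        (fun n => (Sum.inr ⟨u, n⟩ : X.Vtx c)) ∪
      (Finset.univ : Finset (X.Vx c)).image (fun u' => (Sum.inl u' : X.Vtx c)) := by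
    intro y hy
    simp only [Finset.mem_filter, Finset.mem_univ, true_and] at hy
    rcases y with u' | ⟨u', n⟩
    · apply Finset.mem_union_right
      exact Finset.mem_image.2 ⟨u', Finset.mem_univ _, rfl⟩
    · have he : u' = u := hy
      subst he
      apply Finset.mem_union_left
      exact Finset.mem_image.2 ⟨n, Finset.mem_univ _, rfl⟩
  refine (Finset.card_le_card hsub).trans ((Finset.card_union_le _ _).trans ?_)
  have h1 := Finset.card_image_le (s := (Finset.univ : Finset (Fin (X.mult u.e))))
    (f := fun n => (Sum.inr ⟨u, n⟩ : X.Vtx c))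
  have h2 := Finset.card_image_le (s := (Finset.univ : Finset (X.Vx c)))
    (f := fun u' => (Sum.inl u' : X.Vtx c))
  simp only [Finset.card_univ, Fintype.card_fin] at h1 h2
  omega

lemma deg_leaf_le {c : ZMod 2} (l : Σ u : X.Vx c, Fin (X.mult u.e)) :
    deg' (X.Gr c) (Sum.inr l) ≤ 1 := by
  unfold deg'
  have hsub : Finset.univ.filter (fun y => (X.Gr c).Adj (Sum.inr l) y) ⊆
      {(Sum.inl l.1 : X.Vtx c)} := by
    intro y hy
    simp only [Finset.mem_filter, Finset.mem_univ, true_and] at hy
    rcases y with u' | l'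
    · have he : l.1 = u' := hy
      subst he
      simp
    · exact False.elim hy
  simpa using Finset.card_le_card hsub

/-- Flip one chosen variable of each equation by the right-hand side: the fibers of `Gr 1` inject
into those of `Gr 0`. -/
lemma card_vx_one_le (hne : ∀ e, (X.vars e).Nonempty) :
    Fintype.card (X.Vx 1) ≤ Fintype.card (X.Vx 0) := by
  choose pick hpick using hne
  let F : X.Vx 1 → X.Vx 0 := fun u =>
    { e := u.e
      a := fun v => u.a v + if v = pick u.e then X.rhs u.e else 0
      supp := by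
        intro v hv
        have hvp : v ≠ pick u.e := fun h => hv (h ▸ hpick u.e)
        simp [u.supp v hv, hvp]
      par := by
        rw [Finset.sum_add_distrib, u.par, Finset.sum_ite_eq' (X.vars u.e) (pick u.e)]
        simp only [hpick u.e, if_true, one_mul, zero_mul]
        generalize X.rhs u.e = z
        revert z
        decide }
  apply Fintype.card_le_of_injective F
  intro u u' h
  have he : u.e = u'.e := congrArg (fun w : X.Vx 0 => w.e) h
  have ha : ∀ v, (F u).a v = (F u').a v := fun v => by rw [h]
  apply Vx.ext he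
  funext v
  have := ha v
  simp only [F] at this
  rw [← he] at this
  exact add_right_cancel this

lemma mult_eq (e : X.Eqn) :
    X.mult e = ((X.num e).val + 1) * (Fintype.card (X.Vx 0) + 2) := rfl

/-- A vertex with the degree of a zero vertex lies in the same fiber. -/
lemma fib_of_deg (hne : ∀ e, (X.vars e).Nonempty) (e : X.Eqn) (y' : X.Vtx 1)
    (h : deg' (X.Gr 0) (X.zv e) = deg' (X.Gr 1) y') :
    ∃ u' : X.Vx 1, y' = Sum.inl u' ∧ u'.e = e := by
  have h1 := deg_base_ge (X.zeroVx e)
  have h2 := deg_base_le (X.zeroVx e)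
  have hφ : (X.zeroVx e).e = e := rfl
  rw [hφ] at h1 h2
  have hz : deg' (X.Gr 0) (X.zv e) = deg' (X.Gr 0) (Sum.inl (X.zeroVx e)) := rfl
  rw [hz] at h
  set c := Fintype.card (X.Vx 0) with hc
  set i := (X.num e).val with hi
  have hm : X.mult e = (i + 1) * (c + 2) := rfl
  rcases y' with u' | l
  · refine ⟨u', rfl, ?_⟩
    have h3 := deg_base_ge u'
    have h4 := deg_base_le u'
    have h5 := card_vx_one_le hne
    rw [← hc] at h5
    set j := (X.num u'.e).val with hj
    have hm' : X.mult u'.e = (j + 1) * (c + 2) := rfl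
    have hij : i = j := by
      rcases lt_trichotomy i j with hlt | heq | hlt
      · exfalso
        have : (i + 1 + 1) * (c + 2) ≤ (j + 1) * (c + 2) := Nat.mul_le_mul_right _ (by omega)
        have e : (i + 1 + 1) * (c + 2) = (i + 1) * (c + 2) + (c + 2) := by ring
        omega
      · exact heq
      · exfalso
        have : (j + 1 + 1) * (c + 2) ≤ (i + 1) * (c + 2) := Nat.mul_le_mul_right _ (by omega)
        have e : (j + 1 + 1) * (c + 2) = (j + 1) * (c + 2) + (c + 2) := by ring
        omega
    have : X.num u'.e = X.num e :=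
      Fin.ext hij.symm
    exact (X.num).injective this
  · exfalso
    have h3 := deg_leaf_le l
    have : 1 * (c + 2) ≤ (i + 1) * (c + 2) := Nat.mul_le_mul_right _ (by omega)
    omega

lemma zv_adj {e e' : X.Eqn} (h : e ≠ e') : (X.Gr 0).Adj (X.zv e) (X.zv e') :=
  ⟨h, fun _ _ _ => rfl⟩

lemma atomic_iff {V W : Type} {G : SimpleGraph V} {H : SimpleGraph W} {t : ℕ}
    {x : Fin t → V} {x' : Fin t → W} (h : atomicType G x = atomicType H x') (i j : Fin t) :
    (x i = x j ↔ x' i = x' j) ∧ (G.Adj (x i) (x j) ↔ H.Adj (x' i) (x' j)) := by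
  have := congrFun (congrFun h i) j
  simp only [atomicType, Prod.mk.injEq, decide_eq_decide] at this
  exact this

lemma exists_other {t : ℕ} (ht : 2 ≤ t) (s : Fin t) : ∃ j, s ≠ j := by
  by_cases h : s.val = 0
  · exact ⟨⟨1, by omega⟩, fun e => by
      have := congrArg Fin.val e
      simp at this
      omega⟩
  · exact ⟨⟨0, by omega⟩, fun e => by
      have := congrArg Fin.val e
      simp at this
      omega⟩

variable (X)

/-- (module X2) Either the tuples are separated or the image tuple reads off an assignment. -/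
lemma lost_or_match (hne : ∀ e, (X.vars e).Nonempty) {t : ℕ} (ht : 2 ≤ t) (pos : Fin t → X.Eqn)
    (x' : Fin t → X.Vtx 1) :
    LostAt (X.Gr 0) (X.Gr 1) (fun s => X.zv (pos s)) x' ∨ ∃ val, X.Match pos val x' := by
  by_cases hl : LostAt (X.Gr 0) (X.Gr 1) (fun s => X.zv (pos s)) x'
  · exact Or.inl hl
  · right
    have hE : ∀ r, EqAt (X.Gr 0) (X.Gr 1) r (fun s => X.zv (pos s)) x' := by
      intro r
      by_contra h
      exact hl ⟨r, h⟩
    have hex : ∀ s, ∃ u' : X.Vx 1, x' s = Sum.inl u' ∧ u'.e = pos s := by
      intro s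
      obtain ⟨j, hj⟩ := exists_other ht s
      exact fib_of_deg hne (pos s) (x' s) ((hE 1).deg s j hj)
    choose u hu hf using hex
    have hat := (hE 0).atomic
    have hag : ∀ s s' v, v ∈ X.vars (pos s) → v ∈ X.vars (pos s') → (u s).a v = (u s').a v := by
      intro s s' v h1 h2
      have hi := atomic_iff hat s s'
      by_cases hp : pos s = pos s'
      · have : x' s = x' s' := hi.1.1 (by simp only [hp])
        rw [hu s, hu s'] at this
        rw [Sum.inl_injective this]
      · have ha := hi.2.1 (zv_adj hp)
        rw [hu s, hu s'] at ha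
        have hb : X.baseAdj (u s) (u s') := ha
        exact hb.2 v (by rwa [hf s]) (by rwa [hf s'])
    refine ⟨fun v => if h : ∃ s, v ∈ X.vars (pos s) then (u h.choose).a v else 0, fun s => ?_⟩
    refine ⟨u s, hu s, hf s, fun v hv => ?_⟩
    have h : ∃ s, v ∈ X.vars (pos s) := ⟨s, hv⟩
    simp only [h, dif_pos]
    exact hag _ _ v hv h.choose_spec

/-- (module X2) A matched assignment satisfies the equations of the position. -/
lemma Match.eq {X : XorSys} {t : ℕ} {pos : Fin t → X.Eqn} {val : X.Var → ZMod 2}
    {x' : Fin t → X.Vtx 1} (h : X.Match pos val x') (s : Fin t) :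
    ∑ v ∈ X.vars (pos s), val v = X.rhs (pos s) := by
  obtain ⟨u', -, hf, hv⟩ := h s
  have hp := u'.par
  rw [hf, one_mul] at hp
  rw [← hp]
  exact (Finset.sum_congr rfl (fun v hv' => hv v hv')).symm

/-- (module X2) Spoiler replaces slot `j` by a new equation `e`; the new assignment agrees with the
old one on everything the old position saw. -/
lemma lost_swap (hne : ∀ e, (X.vars e).Nonempty) {t : ℕ} (ht : 2 ≤ t) {pos : Fin t → X.Eqn}
    {val : X.Var → ZMod 2} {x' : Fin t → X.Vtx 1} (hM : X.Match pos val x') (j : Fin t)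
    (e : X.Eqn)
    (H : ∀ (y' : X.Vtx 1) (val3 : X.Var → ZMod 2),
      X.Match (Function.update pos j e) val3 (Function.update x' j y') →
      (∀ s, ∀ v ∈ X.vars (pos s), val3 v = val v) →
      LostAt (X.Gr 0) (X.Gr 1) (fun s => X.zv (Function.update pos j e s))
        (Function.update x' j y')) :
    LostAt (X.Gr 0) (X.Gr 1) (fun s => X.zv (pos s)) x' := by
  apply lost_step (X.zv e)
  intro y'
  have hupd : ∀ i, Function.update (fun s => X.zv (pos s)) i (X.zv e) =
      fun s => X.zv (Function.update pos i e s) := by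
    intro i
    funext s
    by_cases hs : s = i
    · subst hs; simp
    · simp [Function.update_of_ne hs]
  obtain ⟨i, hij⟩ := exists_other ht j
  -- reading from a slot updated at `l`
  have key : ∀ l : Fin t, (¬ LostAt (X.Gr 0) (X.Gr 1) (fun s => X.zv (Function.update pos l e s))
      (Function.update x' l y')) →
      ∃ u' : X.Vx 1, y' = Sum.inl u' ∧ u'.e = e ∧
        ∀ s, s ≠ l → ∀ v ∈ X.vars (pos s), v ∈ X.vars e → u'.a v = val v := by
    intro l hl
    rcases X.lost_or_match hne ht (Function.update pos l e) (Function.update x' l y') with h | ⟨v3, hv3⟩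
    · exact absurd h hl
    · obtain ⟨u', hu', hfu, hvu⟩ := hv3 l
      rw [Function.update_self] at hu' hfu
      rw [Function.update_self] at hvu
      refine ⟨u', hu', hfu, fun s hs v hv hve => ?_⟩
      obtain ⟨us, hus, hfs, hvs⟩ := hv3 s
      rw [Function.update_of_ne hs] at hus hfs hvs
      obtain ⟨us', hus', hfs', hvs'⟩ := hM s
      rw [hus'] at hus
      have eu : us' = us := Sum.inl_injective hus
      subst eu
      rw [hvu v hve, ← hvs v hv, hvs' v hv]
  by_cases hi : LostAt (X.Gr 0) (X.Gr 1) (fun s => X.zv (Function.update pos i e s))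
      (Function.update x' i y')
  · exact ⟨i, by rw [hupd]; exact hi⟩
  by_cases hj : LostAt (X.Gr 0) (X.Gr 1) (fun s => X.zv (Function.update pos j e s))
      (Function.update x' j y')
  · exact ⟨j, by rw [hupd]; exact hj⟩
  obtain ⟨u', hu', hfu, h1⟩ := key i hi
  obtain ⟨u'', hu'', hfu', h2⟩ := key j hj
  have euu : u'' = u' := by
    rw [hu'] at hu''
    exact (Sum.inl_injective hu'').symm
  subst euu
  have hag : ∀ s, ∀ v ∈ X.vars (pos s), v ∈ X.vars e → u''.a v = val v := by
    intro s v hv hve
    by_cases hs : s = i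
    · subst hs
      exact h2 s hij.symm v hv hve
    · exact h1 s hs v hv hve
  let val3 : X.Var → ZMod 2 := fun v => if v ∈ X.vars e then u''.a v else val v
  have hval : ∀ s, ∀ v ∈ X.vars (pos s), val3 v = val v := by
    intro s v hv
    by_cases hc : v ∈ X.vars e
    · simp only [val3, hc, if_true]
      exact hag s v hv hc
    · simp only [val3, hc, if_false]
  refine ⟨j, ?_⟩
  rw [hupd]
  refine H y' val3 (fun s => ?_) hval
  by_cases hs : s = j
  · subst hs
    refine ⟨u'', by simpa using hu'', by simpa using hfu, fun v hv => ?_⟩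
    rw [Function.update_self] at hv
    simp only [val3, hv, if_true]
  · obtain ⟨us, hus, hfs, hvs⟩ := hM s
    rw [Function.update_of_ne hs, Function.update_of_ne hs]
    exact ⟨us, hus, hfs, fun v hv => by rw [hvs v hv, hval s v hv]⟩

end XorSys

end

end Vale.Agent.Lib.P310.N
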