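import Vale.Agent.Lib.P310.N.Alg
import Vale.Agent.Lib.P310.N.XorSpoil

namespace Vale.Agent.Lib.P310.N

open scoped Classical
open Finset

noncomputable section

namespace Net

variable {p b : ℕ} {N : Net p b}

variable (ν : N.Num)

/-- A wire of a block is a variable of the block. -/
lemma Bk.wire_mem (e : N.Bk) {S : N.Sec} (hS : S ∈ N.inc e.row) :
    wire S e.col (e.lab + N.dl e.row S e.col) ∈ e.vars := by
  unfold Bk.vars Bk.wires
  exact Finset.mem_union_left _ (Finset.mem_union_left _ (Finset.mem_image_of_mem _ hS))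

/-- Blocks have variables. -/
lemma Bk.vars_nonempty (e : N.Bk) : e.vars.Nonempty := by
  obtain ⟨S, hS⟩ := N.inc_ne e.row
  exact ⟨_, Bk.wire_mem e hS⟩

/-- The sum over the variables of a block, split into wires and rails. -/
lemma Bk.sum_vars_eq (e : N.Bk) (val : N.Var → ZMod 2) :
    ∑ v ∈ e.vars, val v =
      ∑ S ∈ N.inc e.row, val (wire S e.col (e.lab + N.dl e.row S e.col)) +
      (if e.col.val + 1 < p then val (rail e.row e.col (e.st + e.lab)) else 0) +
      (if h : 0 < e.col.val then
        val (rail e.row ⟨e.col.val - 1, by have := e.col.isLt; omega⟩ e.st) else 0) := by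
  have hw : ∀ v ∈ e.wires, ∃ x, v = Sum.inl x := by
    intro v hv
    unfold Bk.wires at hv
    obtain ⟨S, -, rfl⟩ := Finset.mem_image.1 hv
    exact ⟨_, rfl⟩
  have ho : ∀ v ∈ e.outRail, v = rail e.row e.col (e.st + e.lab) := by
    intro v hv
    unfold Bk.outRail at hv
    split_ifs at hv
    · simpa using hv
    · simp at hv
  have hi : ∀ v ∈ e.inRail, ∃ h : 0 < e.col.val,
      v = rail e.row ⟨e.col.val - 1, by have := e.col.isLt; omega⟩ e.st := by
    intro v hv
    unfold Bk.inRail at hv
    split_ifs at hv with h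
    · exact ⟨h, by simpa using hv⟩
    · simp at hv
  have hd2 : Disjoint e.wires e.outRail := by
    rw [Finset.disjoint_left]
    intro v h1 h2
    obtain ⟨x, rfl⟩ := hw v h1
    have := ho _ h2
    simp [rail] at this
  have hd1 : Disjoint (e.wires ∪ e.outRail) e.inRail := by
    rw [Finset.disjoint_left]
    intro v h1 h2
    obtain ⟨h, rfl⟩ := hi v h2
    rcases Finset.mem_union.1 h1 with h3 | h3
    · obtain ⟨x, hx⟩ := hw _ h3
      simp [rail] at hx
    · have := ho _ h3
      simp only [rail, Sum.inr.injEq, Prod.mk.injEq] at this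
      have h5 := congrArg Fin.val this.2.1
      simp only at h5
      omega
  unfold Bk.vars
  rw [Finset.sum_union hd1, Finset.sum_union hd2]
  congr 1
  · congr 1
    · unfold Bk.wires
      rw [Finset.sum_image]
      intro S _ S' _ h
      simp only [wire, Sum.inl.injEq, Prod.mk.injEq] at h
      exact h.1
    · unfold Bk.outRail
      split_ifs <;> simp
  · unfold Bk.inRail
    split_ifs <;> simp

/-- The rails cancel. -/
lemma rail_cancel (p : ℕ) (R : ℕ → ZMod 2) :
    ∑ j : Fin p, ((if j.val + 1 < p then R j.val else 0) +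
      (if 0 < j.val then R (j.val - 1) else 0)) = 0 := by
  rw [Fin.sum_univ_eq_sum_range
    (fun j => (if j + 1 < p then R j else 0) + (if 0 < j then R (j - 1) else 0)) p]
  rw [Finset.sum_add_distrib]
  cases p with
  | zero => simp
  | succ m =>
    have h1 : ∑ j ∈ Finset.range (m + 1), (if j + 1 < m + 1 then R j else 0) =
        ∑ j ∈ Finset.range m, R j := by
      rw [Finset.sum_range_succ]
      simp only [lt_self_iff_false, if_false, add_zero]
      apply Finset.sum_congr rfl
      intro j hj
      have := Finset.mem_range.1 hj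
      rw [if_pos (by omega)]
    have h2 : ∑ j ∈ Finset.range (m + 1), (if 0 < j then R (j - 1) else 0) =
        ∑ j ∈ Finset.range m, R j := by
      rw [Finset.sum_range_succ']
      simp only [lt_self_iff_false, if_false, add_zero]
      apply Finset.sum_congr rfl
      intro j _
      simp
    rw [h1, h2]
    exact z2_add_self _

/-- The partial sums of a frame. -/
def stN (L : Frame p b) (n : ℕ) : Sg b := ∑ j ∈ Finset.univ.filter (fun j : Fin p => j.val < n), L j

lemma stN_zero (L : Frame p b) : stN L 0 = 0 := by
  simp [stN]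

lemma stN_succ (L : Frame p b) (j : Fin p) : stN L (j.val + 1) = stN L j.val + L j := by
  unfold stN
  have : Finset.univ.filter (fun i : Fin p => i.val < j.val + 1) =
      insert j (Finset.univ.filter (fun i : Fin p => i.val < j.val)) := by
    ext i
    simp only [Finset.mem_filter, Finset.mem_univ, true_and, Finset.mem_insert, Fin.ext_iff]
    omega
  rw [this, Finset.sum_insert (by simp), add_comm]

lemma stN_top (L : Frame p b) : stN L p = ∑ j, L j := by
  unfold stN
  congr 1
  ext i
  simp

/-- The blocks of a frame on a row. -/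
def frameBk (ℓ : N.Row) (L : Frame p b) (hL : ∑ j, L j = 0)
    (hA : ∀ i σ, N.rd ℓ = some (i, σ) → L i = σ) (j : Fin p) : N.Bk where
  row := ℓ
  col := j
  st := stN L j.val
  lab := L j
  allowed := by
    intro i σ h hij
    subst hij
    exact hA i σ h
  first := by
    intro h
    rw [h]
    exact stN_zero L
  last := by
    intro h
    rw [← stN_succ, h, stN_top]
    exact hL

/-- Telescoping: a global assignment satisfying the equations of all the blocks of a frame. -/
lemma frame_sum (hp : 1 ≤ p) (ℓ : N.Row) (L : Frame p b) (hL : ∑ j, L j = 0)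
    (hA : ∀ i σ, N.rd ℓ = some (i, σ) → L i = σ) (val : N.Var → ZMod 2)
    (h : ∀ j, ∑ v ∈ (frameBk ℓ L hL hA j).vars, val v = (frameBk ℓ L hL hA j).rhs) :
    ∑ S ∈ N.inc ℓ, ∑ j, val (wire S j (L j + N.dl ℓ S j)) = N.tw ℓ := by
  let R : ℕ → ZMod 2 := fun n =>
    if hn : n < p then val (rail ℓ ⟨n, hn⟩ (stN L (n + 1))) else 0
  have hj : ∀ j : Fin p, ∑ S ∈ N.inc ℓ, val (wire S j (L j + N.dl ℓ S j)) +
      ((if j.val + 1 < p then R j.val else 0) + (if 0 < j.val then R (j.val - 1) else 0)) =
      if j.val = 0 then N.tw ℓ else 0 := by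
    intro j
    have h1 := h j
    rw [Bk.sum_vars_eq] at h1
    have h2 : (if (frameBk ℓ L hL hA j).col.val + 1 < p then
        val (rail (frameBk ℓ L hL hA j).row (frameBk ℓ L hL hA j).col
          ((frameBk ℓ L hL hA j).st + (frameBk ℓ L hL hA j).lab)) else 0) =
        (if j.val + 1 < p then R j.val else 0) := by
      show (if j.val + 1 < p then val (rail ℓ j (stN L j.val + L j)) else 0) = _
      simp only [R, j.isLt, dif_pos, Fin.eta, stN_succ]
    have h3 : (if h : 0 < (frameBk ℓ L hL hA j).col.val then
        val (rail (frameBk ℓ L hL hA j).row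
          ⟨(frameBk ℓ L hL hA j).col.val - 1, by
            have := (frameBk ℓ L hL hA j).col.isLt; omega⟩
          (frameBk ℓ L hL hA j).st) else 0) =
        (if 0 < j.val then R (j.val - 1) else 0) := by
      show (if h : 0 < j.val then
        val (rail ℓ ⟨j.val - 1, by have := j.isLt; omega⟩ (stN L j.val)) else 0) = _
      by_cases hpos : 0 < j.val
      · rw [dif_pos hpos, if_pos hpos]
        have hlt : j.val - 1 < p := by have := j.isLt; omega
        simp only [R, dif_pos hlt]
        rw [Nat.sub_add_cancel (by omega : 1 ≤ j.val)]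
      · rw [dif_neg hpos, if_neg hpos]
    rw [h2, h3] at h1
    rw [← add_assoc]
    exact h1
  have hsum := Finset.sum_congr (rfl : (Finset.univ : Finset (Fin p)) = Finset.univ)
    (fun j _ => hj j)
  rw [Finset.sum_add_distrib, rail_cancel p R, add_zero] at hsum
  have h0 : ∑ j : Fin p, (if j.val = 0 then N.tw ℓ else 0) = N.tw ℓ := by
    have hjj : ∀ j : Fin p, j.val = 0 ↔ j = ⟨0, hp⟩ := fun j => by
      simp [Fin.ext_iff]
    simp only [hjj]
    rw [Finset.sum_ite_eq' Finset.univ]
    simp
  rw [h0] at hsum
  rw [Finset.sum_comm]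
  exact hsum

/-- The walk of Spoiler along a derivation. -/
theorem walk (hp : 2 ≤ p) {S : N.Sec} {L : Frame p b} {c : ZMod 2} (hD : N.Der S L c) :
    ∀ (pos : Fin p → N.Bk) (x' : Fin p → (N.sys ν).Vtx 1) (val : N.Var → ZMod 2),
      (∀ j, wire S j (L j) ∈ (pos j).vars) → (N.sys ν).Match pos val x' →
      ∑ j, val (wire S j (L j)) ≠ c →
      LostAt ((N.sys ν).Gr 0) ((N.sys ν).Gr 1) (fun s => (N.sys ν).zv (pos s)) x' := by
  induction hD with
  | step ℓ L0 hL hA S0 hS0 c' h ih =>
    intro pos x' val hpos hM hne
    let E : Fin p → N.Bk := frameBk ℓ L0 hL hA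
    let P : ℕ → Fin p → N.Bk := fun k j => if j.val < k then E j else pos j
    have hEw : ∀ {S : N.Sec}, S ∈ N.inc ℓ → ∀ j, wire S j (L0 j + N.dl ℓ S j) ∈ (E j).vars := by
      intro S hS j
      exact Bk.wire_mem (frameBk ℓ L0 hL hA j) hS
    have hwire : ∀ k j, wire S0 j (L0 j + N.dl ℓ S0 j) ∈ (P k j).vars := by
      intro k j
      by_cases hj : j.val < k
      · simp only [P, hj, if_true]
        exact hEw hS0 j
      · simp only [P, hj, if_false]
        exact hpos j
    have key : ∀ d k, k + d = p → ∀ (x'' : Fin p → (N.sys ν).Vtx 1) (val' : N.Var → ZMod 2),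
        (N.sys ν).Match (P k) val' x'' →
        ∑ j, val' (wire S0 j (L0 j + N.dl ℓ S0 j)) ≠
          N.tw ℓ + ∑ S ∈ (N.inc ℓ).erase S0, c' S →
        LostAt ((N.sys ν).Gr 0) ((N.sys ν).Gr 1) (fun s => (N.sys ν).zv (P k s)) x'' := by
      intro d
      induction d with
      | zero =>
        intro k hk x'' val' hM' hne'
        have hPk : P k = E := by
          funext j
          have : j.val < k := by have := j.isLt; omega
          simp only [P, this, if_true]
        rw [hPk] at hM' ⊢
        have hfs : ∑ S ∈ N.inc ℓ, ∑ j, val' (wire S j (L0 j + N.dl ℓ S j)) = N.tw ℓ :=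
          frame_sum (by omega) ℓ L0 hL hA val' (fun j => XorSys.Match.eq hM' j)
        have hex : ∃ S ∈ (N.inc ℓ).erase S0,
            ∑ j, val' (wire S j (L0 j + N.dl ℓ S j)) ≠ c' S := by
          by_contra hcon
          push Not at hcon
          apply hne'
          rw [← Finset.add_sum_erase _ _ hS0, Finset.sum_congr rfl hcon] at hfs
          rw [← hfs, add_assoc, z2_add_self, add_zero]
        obtain ⟨S, hS, hSne⟩ := hex
        have hS' := Finset.mem_erase.1 hS
        exact ih S hS'.2 hS'.1 E x'' val' (fun j => hEw hS'.2 j) hM' hSne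
      | succ d ihd =>
        intro k hk x'' val' hM' hne'
        have hkp : k < p := by omega
        let j0 : Fin p := ⟨k, hkp⟩
        refine XorSys.lost_swap (N.sys ν) (fun e => Bk.vars_nonempty e) hp hM' j0 (E j0) ?_
        intro y' val3 hM3 hval3
        have hup : ∀ j, (Function.update (P k) j0 (E j0) : Fin p → N.Bk) j = P (k + 1) j := by
          intro j
          by_cases hj : j = j0
          · subst hj
            simp only [Function.update_self, P, j0]
            rw [if_pos (Nat.lt_succ_self k)]
          · rw [Function.update_of_ne hj]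
            have hne2 : j.val ≠ k := fun h => hj (Fin.ext h)
            simp only [P]
            by_cases hlt : j.val < k
            · rw [if_pos hlt, if_pos (by omega)]
            · rw [if_neg hlt, if_neg (by omega)]
        have hM4 : (N.sys ν).Match (P (k + 1)) val3 (Function.update x'' j0 y') := by
          intro s
          obtain ⟨u', h1, h2, h3⟩ := hM3 s
          refine ⟨u', h1, h2.trans (hup s), ?_⟩
          intro v hv
          refine h3 v ?_
          have e := hup s
          have hv' : v ∈ (P (k + 1) s).vars := hv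
          rw [← e] at hv'
          exact hv'
        have hsame : ∑ j, val3 (wire S0 j (L0 j + N.dl ℓ S0 j)) =
            ∑ j, val' (wire S0 j (L0 j + N.dl ℓ S0 j)) :=
          Finset.sum_congr rfl (fun j _ => hval3 j _ (hwire k j))
        have hL4 := ihd (k + 1) (by omega) _ val3 hM4 (by rw [hsame]; exact hne')
        have hfun : (fun s => (N.sys ν).zv (Function.update (P k) j0 (E j0) s)) =
            fun s => (N.sys ν).zv (P (k + 1) s) :=
          funext fun s => congrArg (N.sys ν).zv (hup s)
        exact hfun.symm ▸ hL4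
    have hP0 : P 0 = pos := by
      funext j
      simp [P]
    have := key p 0 (by omega) x' val (by rw [hP0]; exact hM) hne
    rw [hP0] at this
    exact this

/-- A derivation has a position seeing its frame. -/
lemma Der.exists_pos {S : N.Sec} {L : Frame p b} {c : ZMod 2} (hD : N.Der S L c) :
    ∃ pos : Fin p → N.Bk, ∀ j, wire S j (L j) ∈ (pos j).vars := by
  cases hD with
  | step ℓ L0 hL hA S0 hS0 c' h =>
    exact ⟨frameBk ℓ L0 hL hA, fun j => Bk.wire_mem (frameBk ℓ L0 hL hA j) hS0⟩

variable (N)

/-- (module W) Spoiler wins from a conflict. -/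
theorem not_wlEquiv_of_conflict (hp : 2 ≤ p) {S : N.Sec} {L : Frame p b} (h0 : N.Der S L 0)
    (h1 : N.Der S L 1) : ¬ WLEquiv p ((N.sys ν).Gr 0) ((N.sys ν).Gr 1) := by
  obtain ⟨pos, hpos⟩ := Der.exists_pos h0
  apply not_wlEquiv_of_lost (fun s => (N.sys ν).zv (pos s))
  intro x'
  rcases XorSys.lost_or_match (N.sys ν) (fun e => Bk.vars_nonempty e) hp pos x' with h | ⟨val, hM⟩
  · exact h
  · by_cases hs : ∑ j, val (wire S j (L j)) = 0
    · refine walk ν hp h1 pos x' val hpos hM ?_
      rw [hs]
      exact zero_ne_one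
    · exact walk ν hp h0 pos x' val hpos hM hs

end Net

end

end Vale.Agent.Lib.P310.N
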