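import Vale.Agent.Lib.P310.N.Sound
import Vale.Agent.Lib.P310.N.Walk
import Vale.Agent.Lib.P310.N.SpecQ
import Vale.Agent.Lib.P310.N.ProgOk

/-! (module R) The compiled specification decides acceptance. -/

namespace Vale.Agent.Lib.P310.N

open scoped Classical
open Finset

set_option linter.unusedSectionVars false

noncomputable section

lemma mem_pair' {α : Type} {inst : DecidableEq α} (X a b : α) :
    X ∈ (@insert α (Finset α) (@Finset.instInsert α inst) a {b}) ↔ X = a ∨ X = b := by
  simp

lemma mem_triple' {α : Type} {inst : DecidableEq α} (X a b c : α) :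
    X ∈ (@insert α (Finset α) (@Finset.instInsert α inst) a
      (@insert α (Finset α) (@Finset.instInsert α inst) b {c})) ↔ X = a ∨ X = b ∨ X = c := by
  simp

namespace Net

variable {p b : ℕ} {N : Net p b}

/-- Change the frame and the value of a derivation along equalities. -/
lemma Der.cast {S : N.Sec} {L L' : Frame p b} {c c' : ZMod 2} (h : N.Der S L c) (hL : L = L')
    (hc : c = c') : N.Der S L' c' := by
  subst hL
  subst hc
  exact h

/-- A row with two sections. -/
lemma Der.step_one (ℓ : N.Row) (L : Frame p b) (hL : ∑ j, L j = 0)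
    (hA : ∀ i σ, N.rd ℓ = some (i, σ) → L i = σ) (S S' : N.Sec)
    (hinc : ∀ X, X ∈ N.inc ℓ ↔ X = S ∨ X = S') (hne : S ≠ S') (c : ZMod 2)
    (h : N.Der S (fun j => L j + N.dl ℓ S j) c) :
    N.Der S' (fun j => L j + N.dl ℓ S' j) (N.tw ℓ + c) := by
  have hstep := Net.Der.step (N := N) ℓ L hL hA S' ((hinc S').2 (Or.inr rfl)) (fun _ => c) (by
    intro X hX hXne
    rcases (hinc X).1 hX with rfl | rfl
    · exact h
    · exact absurd rfl hXne)
  refine hstep.cast rfl ?_
  have he : (N.inc ℓ).erase S' = {S} := by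
    ext X
    rw [Finset.mem_erase, hinc X, Finset.mem_singleton]
    constructor
    · rintro ⟨h1, h2 | h2⟩
      · exact h2
      · exact absurd h2 h1
    · rintro rfl
      exact ⟨hne, Or.inl rfl⟩
  rw [he, Finset.sum_singleton]

/-- A row with three sections, without translation or twist. -/
lemma Der.step_tr (ℓ : N.Row) (L : Frame p b) (hL : ∑ j, L j = 0)
    (hA : ∀ i σ, N.rd ℓ = some (i, σ) → L i = σ) (K A B : N.Sec)
    (hinc : ∀ X, X ∈ N.inc ℓ ↔ X = K ∨ X = A ∨ X = B) (hdl : ∀ S j, N.dl ℓ S j = 0)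
    (htw : N.tw ℓ = 0) (h1 : N.Der A L 0) (h2 : N.Der B L 0) : N.Der K L 0 := by
  have hstep := Net.Der.step (N := N) ℓ L hL hA K ((hinc K).2 (Or.inl rfl)) (fun _ => 0) (by
    intro X hX hXne
    have e : (fun j => L j + N.dl ℓ X j) = L := by
      funext j
      rw [hdl]
      simp
    rw [e]
    rcases (hinc X).1 hX with rfl | rfl | rfl
    · exact absurd rfl hXne
    · exact h1
    · exact h2)
  refine hstep.cast ?_ ?_
  · funext j
    rw [hdl]
    simp
  · rw [htw]
    simp

/-- A row with one section, without translation or twist. -/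
lemma Der.step_src (ℓ : N.Row) (L : Frame p b) (hL : ∑ j, L j = 0)
    (hA : ∀ i σ, N.rd ℓ = some (i, σ) → L i = σ) (K : N.Sec)
    (hinc : ∀ X, X ∈ N.inc ℓ ↔ X = K) (hdl : ∀ S j, N.dl ℓ S j = 0)
    (htw : N.tw ℓ = 0) : N.Der K L 0 := by
  have hstep := Net.Der.step (N := N) ℓ L hL hA K ((hinc K).2 rfl) (fun _ => 0) (by
    intro X hX hXne
    exact absurd ((hinc X).1 hX) hXne)
  refine hstep.cast ?_ ?_
  · funext j
    rw [hdl]
    simp
  · rw [htw]
    simp

end Net

namespace Spec

variable {p b : ℕ} {Sp : Spec p b} [Sp.Ok]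

lemma len_ge (p : ℕ) : 2 ≤ len p := by
  unfold len dd
  omega

lemma sc_len (l : Sp.Ln) : Sp.sc l (len p) = Sum.inl (Sp.bot l) := by
  unfold sc
  have h := len_ge p
  have h0 : len p ≠ 0 := by omega
  simp [h0]

lemma sc_ne (l : Sp.Ln) {t : ℕ} (ht : t < len p) : Sp.sc l t ≠ Sp.sc l (t + 1) := by
  have h := len_ge p
  unfold sc
  by_cases h0 : t = 0
  · subst h0
    by_cases h1 : 1 < len p
    · simp [h1]
    · omega
  · by_cases h1 : t + 1 < len p
    · simp [h0, h1, ht]
      omega
    · simp [h0, h1, ht]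

/-- One row of a line. -/
abbrev lrow (l : Sp.Ln) {t : ℕ} (ht : t < len p) : Sp.Row := Sum.inr (Sum.inr (l, ⟨t, ht⟩))

/-- One step along a line. -/
lemma der_row (l : Sp.Ln) {t : ℕ} (ht : t < len p) (L : Frame p b) (hL : ∑ j, L j = 0)
    (hA : ∀ i σ, Sp.rrd (lrow l ht) = some (i, σ) → L i = σ) (c : ZMod 2)
    (h : Sp.net.Der (Sp.sc l t) (fun j => L j + Sp.rdl (lrow l ht) (Sp.sc l t) j) c) :
    Sp.net.Der (Sp.sc l (t + 1)) (fun j => L j + Sp.rdl (lrow l ht) (Sp.sc l (t + 1)) j)
      (Sp.rtw (lrow l ht) + c) := by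
  exact Net.Der.step_one (N := Sp.net) (lrow l ht) L hL hA _ _ (fun X => mem_pair' X _ _)
    (sc_ne l ht) c h

/-- A run of rows without translation or twist. -/
lemma der_run (l : Sp.Ln) (L : Frame p b) (hL : ∑ j, L j = 0) (c : ZMod 2) (a n : ℕ)
    (hz : a + n ≤ len p)
    (hrows : ∀ t (ht : t < len p), a ≤ t → t < a + n →
      (∀ S j, Sp.rdl (lrow l ht) S j = 0) ∧ Sp.rtw (lrow l ht) = 0 ∧
        ∀ i σ, Sp.rrd (lrow l ht) = some (i, σ) → L i = σ)
    (h : Sp.net.Der (Sp.sc l a) L c) : Sp.net.Der (Sp.sc l (a + n)) L c := by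
  induction n with
  | zero => exact h
  | succ n ih =>
    have ih' := ih (by omega) (fun t ht h1 h2 => hrows t ht h1 (by omega))
    have ht : a + n < len p := by omega
    obtain ⟨h1, h2, h3⟩ := hrows (a + n) ht (by omega) (by omega)
    have hs := der_row l ht L hL h3 c (ih'.cast (by
      funext j
      rw [h1]
      simp) rfl)
    refine hs.cast ?_ ?_
    · funext j
      rw [h1]
      simp
    · rw [h2]
      simp

/-- A line without translation. -/
lemma der_line (l : Sp.Ln) (L : Frame p b) (hL : ∑ j, L j = 0) (c : ZMod 2)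
    (hd : ∀ t (ht : t < len p), ∀ S j, Sp.rdl (lrow l ht) S j = 0)
    (hA : ∀ t (ht : t < len p), ∀ i σ, Sp.rrd (lrow l ht) = some (i, σ) → L i = σ)
    (h : Sp.net.Der (Sum.inl (Sp.top l)) L c) :
    Sp.net.Der (Sum.inl (Sp.bot l)) L (Sp.twd l + c) := by
  have hle := len_ge p
  have h0 : Sp.net.Der (Sp.sc l 0) L c := by
    rw [sc_zero]
    exact h
  have h1 := der_run l L hL c 0 (len p - 1) (by omega) (fun t ht _ h2 =>
    ⟨hd t ht, by
      have : t + 1 ≠ len p := by omega
      simp [rtw, this], hA t ht⟩) h0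
  have hlast : len p - 1 < len p := by omega
  rw [Nat.zero_add] at h1
  have h2 := der_row l hlast L hL (hA _ hlast) c (h1.cast (by
    funext j
    rw [hd]
    simp) rfl)
  have e1 : len p - 1 + 1 = len p := by omega
  have h3 : Sp.rtw (lrow l hlast) = Sp.twd l := by
    simp [rtw, e1]
  rw [h3] at h2
  rw [e1, sc_len] at h2
  refine h2.cast ?_ rfl
  funext j
  rw [hd]
  simp

/-- A write line. -/
lemma der_line_wr (l : Sp.Ln) (L : Frame p b) (hL : ∑ j, L j = 0) (c : ZMod 2) (d : Fin p → Sg b)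
    (hop : Sp.op l = LineOp.wr d) (hd : ∑ j, d j = 0) (htw : Sp.twd l = 0)
    (h : Sp.net.Der (Sum.inl (Sp.top l)) L c) :
    Sp.net.Der (Sum.inl (Sp.bot l)) (fun j => L j + d j) c := by
  have hdd : 2 ≤ dd p := by
    unfold dd
    omega
  have hlen : len p = 5 * dd p := rfl
  have hrd : ∀ t (ht : t < len p) i σ, Sp.rrd (lrow l ht) ≠ some (i, σ) := by
    intro t ht i σ
    simp [rrd, hop]
  have hnew : ∑ j, (L j + d j) = 0 := by
    rw [Finset.sum_add_distrib, hL, hd]
    simp
  have hzero : ∀ t (ht : t < len p), t ≠ dd p → ∀ S j, Sp.rdl (lrow l ht) S j = 0 := by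
    intro t ht hne S j
    simp [rdl, hop, hne]
  have htw0 : ∀ t (ht : t < len p), Sp.rtw (lrow l ht) = 0 := by
    intro t ht
    simp [rtw, htw]
  have h0 : Sp.net.Der (Sp.sc l 0) L c := by
    rw [sc_zero]
    exact h
  -- the upper part
  have h1 := der_run l L hL c 0 (dd p) (by omega) (fun t ht _ h2 =>
    ⟨hzero t ht (by omega), htw0 t ht, fun i σ he => absurd he (hrd t ht i σ)⟩) h0
  rw [Nat.zero_add] at h1
  -- the translating row
  have hmid : dd p < len p := by omega
  have h2 := der_row l hmid L hL (fun i σ he => absurd he (hrd _ hmid i σ)) c (h1.cast (by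
    funext j
    have hne := sc_ne l hmid
    have : Sp.rdl (lrow l hmid) (Sp.sc l (dd p)) j = 0 := by
      simp [rdl, hop, hne]
    rw [this]
    simp) rfl)
  have h3 : Sp.net.Der (Sp.sc l (dd p + 1)) (fun j => L j + d j) c := by
    refine h2.cast ?_ ?_
    · funext j
      congr 1
      simp [rdl, hop]
    · rw [htw0]
      simp
  -- the lower part
  have h4 := der_run l (fun j => L j + d j) hnew c (dd p + 1) (len p - 1 - (dd p + 1)) (by omega)
    (fun t ht h5 h6 => ⟨hzero t ht (by omega), htw0 t ht, fun i σ he => absurd he (hrd t ht i σ)⟩) h3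
  have e : dd p + 1 + (len p - 1 - (dd p + 1)) = len p - 1 := by omega
  rw [e] at h4
  have hlast : len p - 1 < len p := by omega
  have h5 := der_row l hlast (fun j => L j + d j) hnew (fun i σ he => absurd he (hrd _ hlast i σ)) c
    (h4.cast (by
      funext j
      rw [hzero _ hlast (by omega)]
      simp) rfl)
  have e1 : len p - 1 + 1 = len p := by omega
  rw [e1, sc_len] at h5
  refine h5.cast ?_ ?_
  · funext j
    rw [hzero _ hlast (by omega)]
    simp
  · rw [htw0]
    simp

/-- A plain line. -/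
lemma der_line_plain (l : Sp.Ln) (L : Frame p b) (hL : ∑ j, L j = 0) (c : ZMod 2)
    (hop : Sp.op l = LineOp.plain) (h : Sp.net.Der (Sum.inl (Sp.top l)) L c) :
    Sp.net.Der (Sum.inl (Sp.bot l)) L (Sp.twd l + c) := by
  refine der_line l L hL c ?_ ?_ h
  · intro t ht S j
    simp [rdl, hop]
  · intro t ht i σ he
    simp [rrd, hop] at he

/-- A reading line, when the frame passes the test. -/
lemma der_line_rd (l : Sp.Ln) (L : Frame p b) (hL : ∑ j, L j = 0) (c : ZMod 2) (j0 : Fin p)
    (s : Sg b) (hop : Sp.op l = LineOp.rd j0 s) (hs : L j0 = s)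
    (h : Sp.net.Der (Sum.inl (Sp.top l)) L c) :
    Sp.net.Der (Sum.inl (Sp.bot l)) L (Sp.twd l + c) := by
  refine der_line l L hL c ?_ ?_ h
  · intro t ht S j
    simp [rdl, hop]
  · intro t ht i σ he
    simp only [rrd, hop] at he
    split_ifs at he
    simp only [Option.some.injEq, Prod.mk.injEq] at he
    obtain ⟨rfl, rfl⟩ := he
    exact hs

end Spec

namespace Prog

variable {p b : ℕ} (Q : Prog p b)

/-- Accepted frames are code frames. -/
lemma Acc.code {Q : Prog p b} {n : Q.Node} {L : Frame p b} (h : Q.Acc n L) : ∑ j, L j = 0 := by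
  induction h with
  | ac a L hL => exact hL
  | re r L h h' ih => exact ih
  | wr w L h ih =>
    rw [Finset.sum_add_distrib, ih, Q.wr_sum w]
    simp
  | ga g i L h h' ih ih' => exact ih

/-- The known frames at the hubs. -/
def semKh (s1 s2 : Q.Node) : Q.Hub → Frame p b → Prop
  | Sum.inl n, L => Q.Acc n L
  | Sum.inr (Sum.inl (g, i, false)), L => Q.Acc (Q.gl g i) L
  | Sum.inr (Sum.inl (g, i, true)), L => Q.Acc (Q.gr g i) L
  | Sum.inr (Sum.inr u), L => Q.Acc ((![s2, s1, s1] : Fin 3 → Q.Node) u) L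

/-- The values at the hubs. -/
def semkh : Q.Hub → Frame p b → ZMod 2
  | Sum.inr (Sum.inr u), _ => (![1, 0, 0] : Fin 3 → ZMod 2) u
  | _, _ => 0

/-- (module R1) The semantics on hubs when nothing is accepted at `s1`: known frames at a node are
the accepted ones; the children hubs of a branch copy their child; the three start hubs: `0` copies
`s2` with value `1`, `1` and `2` copy `s1`. -/
def sem (s1 s2 : Q.Node) (h1 : ∀ L, ¬ Q.Acc s1 L) : (Q.spec s1 s2).Sem where
  Kh := Q.semKh s1 s2
  kh := Q.semkh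
  code := by
    intro u L h
    rcases u with n | ⟨g, i, c⟩ | u
    · exact Acc.code h
    · cases c
      · exact Acc.code h
      · exact Acc.code h
    · exact Acc.code h
  src := fun s L hL => ⟨Acc.ac s L hL, rfl⟩
  tr_K := by
    intro t L hA hB
    rcases t with ⟨g, i⟩ | _
    · exact Acc.ga g i L hA hB
    · exact absurd hA (h1 L)
  tr_A := by
    intro t L hK hB
    rcases t with ⟨g, i⟩ | _
    · have hK' : Q.Acc (Sum.inl g) L := hK
      have hB' : Q.Acc (Q.gr g i) L := hB
      show Q.Acc (Q.gl g i) L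
      cases hK' with
      | ga g i' L h h' =>
        rcases Q.gate_ok g with e0 | e
        · have : Q.gl g i = Q.gl g i' := (e0 i i').1
          rw [this]
          exact h
        · rw [e i]
          exact hB'
    · exact absurd hB (h1 L)
  tr_B := by
    intro t L hK hA
    rcases t with ⟨g, i⟩ | _
    · have hK' : Q.Acc (Sum.inl g) L := hK
      have hA' : Q.Acc (Q.gl g i) L := hA
      show Q.Acc (Q.gr g i) L
      cases hK' with
      | ga g i' L h h' =>
        rcases Q.gate_ok g with e0 | e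
        · have : Q.gr g i = Q.gr g i' := (e0 i i').2
          rw [this]
          exact h'
        · rw [← e i]
          exact hA'
    · exact absurd hA (h1 L)
  tr_sum := by
    intro t L hK hA hB
    rcases t with ⟨g, i⟩ | _
    · show (0 : ZMod 2) + 0 + 0 = 0
      simp
    · exact absurd hA (h1 L)
  ln_plain := by
    intro l hop L
    rcases l with r | w | ⟨g, i, c⟩ | c | u
    · cases hop
    · cases hop
    · cases c
      · exact ⟨Iff.rfl, fun _ => by
          show (0 : ZMod 2) = 0 + 0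
          simp⟩
      · exact ⟨Iff.rfl, fun _ => by
          show (0 : ZMod 2) = 0 + 0
          simp⟩
    · cases c
      · exact ⟨Iff.rfl, fun _ => by
          show (0 : ZMod 2) = 0 + 0
          simp⟩
      · exact ⟨Iff.rfl, fun _ => by
          show (0 : ZMod 2) = 0 + 0
          simp⟩
    · exact ⟨Iff.rfl, fun _ => by
          show (1 : ZMod 2) = 0 + 1
          simp⟩
  ln_rd := by
    intro l j s hop
    rcases l with r | w | ⟨g, i, c⟩ | c | u
    · cases hop
      refine ⟨rfl, fun L => ⟨⟨fun h => ?_, fun h => Acc.re r L h.2 h.1⟩, fun _ _ => rfl⟩⟩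
      have h' : Q.Acc (Sum.inr (Sum.inl r)) L := h
      cases h' with
      | re r L h1 h2 => exact ⟨h2, h1⟩
    · cases hop
    · cases hop
    · cases hop
    · cases hop
  ln_wr := by
    intro l d hop
    rcases l with r | w | ⟨g, i, c⟩ | c | u
    · cases hop
    · cases hop
      refine ⟨rfl, fun L => ⟨⟨fun h => ?_, fun h => Acc.wr w L h⟩, fun _ => rfl⟩⟩
      have h' : Q.Acc (Sum.inr (Sum.inr (Sum.inl w))) (fun j => L j + Q.wrD w j) := h
      generalize hF : (fun j => L j + Q.wrD w j) = F at h'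
      cases h' with
      | wr w L' h2 =>
        have : L = L' := by
          funext j
          exact add_right_cancel (congrFun hF j)
        rw [this]
        exact h2
    · cases hop
    · cases hop
    · cases hop

/-- A block exists. -/
lemma nonempty_bk (hp : 2 ≤ p) (s1 s2 : Q.Node) : Nonempty (Q.spec s1 s2).net.Bk :=
  ⟨{ row := Sum.inr (Sum.inl (Sum.inr ()))
     col := ⟨0, by omega⟩
     st := 0
     lab := 0
     allowed := by
       intro i σ h
       have e : (Q.spec s1 s2).rrd (Sum.inr (Sum.inl (Sum.inr ()))) = none := rfl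
       have h' : (Q.spec s1 s2).rrd (Sum.inr (Sum.inl (Sum.inr ()))) = some (i, σ) := h
       rw [e] at h'
       cases h'
     first := fun _ => rfl
     last := fun _ => by simp }⟩

/-- (module R1) If nothing is accepted at `s1` the two graphs are equivalent. -/
theorem wlEquiv_of_not_acc (hp : 2 ≤ p) (s1 s2 : Q.Node) (ν : (Q.spec s1 s2).net.Num)
    (h1 : ∀ L, ¬ Q.Acc s1 L) :
    WLEquiv p (((Q.spec s1 s2).net.sys ν).Gr 0) (((Q.spec s1 s2).net.sys ν).Gr 1) := by
  have := Q.nonempty_bk hp s1 s2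
  exact Net.wlEquiv_of_good _ ν ((Q.sem s1 s2 h1).good hp)

/-- The section of a node. -/
abbrev nodeSec (s1 s2 : Q.Node) (n : Q.Node) : (Q.spec s1 s2).Sec := Sum.inl (Sum.inl n)

/-- A T-row: derive at the head from the two legs with equal values zero. -/
lemma der_tr (s1 s2 : Q.Node) (t : Q.Tr) (L : Frame p b) (hL : ∑ j, L j = 0)
    (hA : (Q.spec s1 s2).net.Der (Sum.inl ((Q.spec s1 s2).A t)) L 0)
    (hB : (Q.spec s1 s2).net.Der (Sum.inl ((Q.spec s1 s2).B t)) L 0) :
    (Q.spec s1 s2).net.Der (Sum.inl ((Q.spec s1 s2).K t)) L 0 := by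
  set Sp := Q.spec s1 s2 with hSp
  refine Net.Der.step_tr (N := Sp.net) (Sum.inr (Sum.inl t)) L hL ?_ _ _ _ ?_ ?_ ?_ hA hB
  · intro i σ he
    have e : Sp.rrd (Sum.inr (Sum.inl t)) = none := rfl
    have h' : Sp.rrd (Sum.inr (Sum.inl t)) = some (i, σ) := he
    rw [e] at h'
    cases h'
  · intro X
    exact mem_triple' X _ _ _
  · intro S j
    rfl
  · rfl

/-- Accepted frames are derived with value zero. -/
lemma der_of_acc (s1 s2 : Q.Node) {n : Q.Node} {L : Frame p b} (h : Q.Acc n L) :
    (Q.spec s1 s2).net.Der (Sum.inl (Sum.inl n)) L 0 := by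
  induction h with
  | ac a L hL =>
    set Sp := Q.spec s1 s2 with hSp
    refine Net.Der.step_src (N := Sp.net) (Sum.inl a) L hL ?_ _ ?_ ?_ ?_
    · intro i σ he
      have e : Sp.rrd (Sum.inl a) = none := rfl
      have h' : Sp.rrd (Sum.inl a) = some (i, σ) := he
      rw [e] at h'
      cases h'
    · intro X
      exact Finset.mem_singleton
    · intro S j
      rfl
    · rfl
  | re r L hr h' ih =>
    have := Spec.der_line_rd (Sp := Q.spec s1 s2) (Sum.inl r) L (Acc.code h') 0 (Q.reJ r) (Q.reS r) rfl hr ih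
    refine this.cast rfl ?_
    show (0 : ZMod 2) + 0 = 0
    simp
  | wr w L h' ih =>
    exact Spec.der_line_wr (Sp := Q.spec s1 s2) (Sum.inr (Sum.inl w)) L (Acc.code h') 0 (Q.wrD w) rfl
      (Q.wr_sum w) rfl ih
  | ga g i L h h' ih ih' =>
    have hA := Spec.der_line_plain (Sp := Q.spec s1 s2) (Sum.inr (Sum.inr (Sum.inl (g, i, false)))) L
      (Acc.code h) 0 rfl ih
    have hB := Spec.der_line_plain (Sp := Q.spec s1 s2) (Sum.inr (Sum.inr (Sum.inl (g, i, true)))) L
      (Acc.code h) 0 rfl ih'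
    exact Q.der_tr s1 s2 (Sum.inl (g, i)) L (Acc.code h)
      (hA.cast rfl (by show (0 : ZMod 2) + 0 = 0; simp))
      (hB.cast rfl (by show (0 : ZMod 2) + 0 = 0; simp))

/-- (module R2) If a frame is accepted at both distinguished nodes the graphs are not
equivalent. -/
theorem not_wlEquiv_of_acc (hp : 2 ≤ p) (s1 s2 : Q.Node) (ν : (Q.spec s1 s2).net.Num) {L : Frame p b} (h1 : Q.Acc s1 L)
    (h2 : Q.Acc s2 L) :
    ¬ WLEquiv p (((Q.spec s1 s2).net.sys ν).Gr 0) (((Q.spec s1 s2).net.sys ν).Gr 1) := by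
  have hL := Acc.code h1
  have d1 := Q.der_of_acc s1 s2 h1
  have d2 := Q.der_of_acc s1 s2 h2
  -- the twisted line gives value one
  have h3 := Spec.der_line_plain (Sp := Q.spec s1 s2) (Sum.inr (Sum.inr (Sum.inr (Sum.inr ())))) L hL 0 rfl d2
  -- the two start lines and the T-row give value zero
  have hA := Spec.der_line_plain (Sp := Q.spec s1 s2) (Sum.inr (Sum.inr (Sum.inr (Sum.inl false)))) L hL 0 rfl d1
  have hB := Spec.der_line_plain (Sp := Q.spec s1 s2) (Sum.inr (Sum.inr (Sum.inr (Sum.inl true)))) L hL 0 rfl d1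
  have h4 := Q.der_tr s1 s2 (Sum.inr ()) L hL
    (hA.cast rfl (by show (0 : ZMod 2) + 0 = 0; simp))
    (hB.cast rfl (by show (0 : ZMod 2) + 0 = 0; simp))
  exact Net.not_wlEquiv_of_conflict _ ν hp h4 (h3.cast rfl (by show (1 : ZMod 2) + 0 = 1; simp))

end Prog

end

end Vale.Agent.Lib.P310.N
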