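import Vale.Agent.Lib.P310.N.NetState

namespace Vale.Agent.Lib.P310.N

open scoped Classical
open Finset

noncomputable section

namespace Net

variable {p b : ℕ} {N : Net p b}

/-- `x + x = 0` in `ZMod 2`. -/
lemma z2_add_self (x : ZMod 2) : x + x = 0 := CharTwo.add_self_eq_zero x

/-- `x + x = 0` in the labels. -/
lemma sg_add_self (x : Sg b) : x + x = 0 := by
  funext i
  exact z2_add_self _

lemma two_z2 : (2 : ZMod 2) = 0 := by decide

lemma State.phi_apply (σ : N.State) (ℓ : N.Row) (v : Sg b) :
    σ.phi ℓ v = ∑ S ∈ N.inc ℓ, σ.μ S v := by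
  unfold State.phi
  rw [AddMonoidHom.finsetSum_apply]

/-- The sum over the incident sections of a row at label `v` is affine (module A). -/
lemma State.sum_y (σ : N.State) (ℓ : N.Row) (j : Fin p) (v : Sg b) :
    ∑ S ∈ N.inc ℓ, σ.y S j (v + N.dl ℓ S j) = σ.c ℓ j + σ.phi ℓ v := by
  rw [State.phi_apply]
  unfold State.c State.y
  rw [← Finset.sum_add_distrib]
  apply Finset.sum_congr rfl
  intro S _
  rw [map_add]
  ring

/-- The constants of a row sum to the sum of the frame values of its sections (module A). -/
lemma State.sum_c (σ : N.State) (ℓ : N.Row) :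
    ∑ j, σ.c ℓ j = ∑ S ∈ N.inc ℓ, σ.f S := by
  unfold State.c State.f
  rw [Finset.sum_comm]
  apply Finset.sum_congr rfl
  intro S _
  rw [Finset.sum_add_distrib, ← map_sum, N.dl_sum, map_zero, add_zero]

/-- The predecessor of a column. -/
lemma sum_le_succ (c : Fin p → ZMod 2) (j : Fin p) (h : 0 < j.val) :
    ∑ j' ∈ Finset.univ.filter (fun j' => j' ≤ j), c j' =
      c j + ∑ j' ∈ Finset.univ.filter
        (fun j' : Fin p => j' ≤ (⟨j.val - 1, by have := j.isLt; omega⟩ : Fin p)), c j' := by
  have hset : Finset.univ.filter (fun j' => j' ≤ j) =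
      insert j (Finset.univ.filter
        (fun j' : Fin p => j' ≤ (⟨j.val - 1, by have := j.isLt; omega⟩ : Fin p))) := by
    ext x
    simp only [Finset.mem_filter, Finset.mem_univ, true_and, Finset.mem_insert, Fin.le_def, Fin.ext_iff]
    omega
  rw [hset, Finset.sum_insert]
  simp only [Finset.mem_filter, Finset.mem_univ, true_and, Fin.le_def, not_le]
  omega

lemma sum_le_zero (c : Fin p → ZMod 2) (j : Fin p) (h : j.val = 0) :
    ∑ j' ∈ Finset.univ.filter (fun j' => j' ≤ j), c j' = c j := by
  have hset : Finset.univ.filter (fun j' => j' ≤ j) = {j} := by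
    ext x
    simp only [Finset.mem_filter, Finset.mem_univ, true_and, Finset.mem_singleton, Fin.le_def,
      Fin.ext_iff]
    omega
  rw [hset, Finset.sum_singleton]

lemma sum_le_last (c : Fin p → ZMod 2) (j : Fin p) (h : j.val + 1 = p) :
    ∑ j' ∈ Finset.univ.filter (fun j' => j' ≤ j), c j' = ∑ j', c j' := by
  apply Finset.sum_congr _ (fun _ _ => rfl)
  ext x
  simp only [Finset.mem_filter, Finset.mem_univ, true_and, Fin.le_def, iff_true]
  have := x.isLt
  omega

/-- The sum of the wires of a block. -/
lemma State.sum_wires (σ : N.State) (e : N.Bk) :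
    ∑ v ∈ e.wires, σ.theta v = σ.c e.row e.col + σ.phi e.row e.lab := by
  unfold Bk.wires
  rw [Finset.sum_image]
  · rw [← State.sum_y]
    rfl
  · intro S _ S' _ h
    have : (S, e.col, e.lab + N.dl e.row S e.col) = (S', e.col, e.lab + N.dl e.row S' e.col) :=
      Sum.inl.inj h
    exact (Prod.mk.inj this).1

lemma wires_rail_disj (e : N.Bk) (x : N.Var) (h : x ∈ e.wires) (ℓ : N.Row) (j : Fin p) (t : Sg b) :
    x ≠ rail ℓ j t := by
  obtain ⟨S, _, rfl⟩ := Finset.mem_image.1 h
  intro h2
  cases h2

/-- (module A) The value of a block equation under an affine state: all equations hold, except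
that the last column needs exactness of the row. -/
theorem State.sum_vars (σ : N.State) (hp : 2 ≤ p) (e : N.Bk)
    (hex : e.col.val + 1 = p → ∑ S ∈ N.inc e.row, σ.f S = N.tw e.row) :
    ∑ v ∈ e.vars, σ.theta v = e.rhs := by
  have hwires := σ.sum_wires e
  have hphiadd : σ.phi e.row (e.st + e.lab) = σ.phi e.row e.st + σ.phi e.row e.lab := map_add _ _ _
  have htwo := two_z2
  unfold Bk.vars
  by_cases h0 : e.col.val = 0
  · -- first column, not last
    have hnl : e.col.val + 1 < p := by omega
    have hin : e.inRail = ∅ := by
      unfold Bk.inRail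
      rw [dif_neg (by omega)]
    have hout : e.outRail = {rail e.row e.col (e.st + e.lab)} := by
      unfold Bk.outRail
      rw [if_pos hnl]
    rw [hin, hout, Finset.union_empty, Finset.sum_union, Finset.sum_singleton, hwires]
    · have hst := e.first h0
      have hr : σ.theta (rail e.row e.col (e.st + e.lab))
          = σ.phi e.row (e.st + e.lab) + N.tw e.row + σ.c e.row e.col := by
        show σ.r e.row e.col (e.st + e.lab) = _
        unfold State.r
        rw [sum_le_zero _ _ h0]
      have hphi0 : σ.phi e.row e.st = 0 := by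
        rw [hst, map_zero]
      have hrhs : e.rhs = N.tw e.row := by
        unfold Bk.rhs
        rw [if_pos h0]
      rw [hr, hrhs, hphiadd, hphi0]
      linear_combination (σ.c e.row e.col + σ.phi e.row e.lab) * htwo
    · rw [Finset.disjoint_singleton_right]
      intro h
      exact wires_rail_disj e _ h _ _ _ rfl
  · have hjpos : 0 < e.col.val := by omega
    have hrhs : e.rhs = 0 := by
      unfold Bk.rhs
      rw [if_neg h0]
    set jm : Fin p := ⟨e.col.val - 1, by have := e.col.isLt; omega⟩ with hjm
    have hin : e.inRail = {rail e.row jm e.st} := by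
      unfold Bk.inRail
      rw [dif_pos hjpos]
    have hrin : σ.theta (rail e.row jm e.st) = σ.phi e.row e.st + N.tw e.row +
        ∑ j' ∈ Finset.univ.filter (fun j' => j' ≤ jm), σ.c e.row j' := rfl
    by_cases hl : e.col.val + 1 < p
    · -- middle column
      have hout : e.outRail = {rail e.row e.col (e.st + e.lab)} := by
        unfold Bk.outRail
        rw [if_pos hl]
      have hdisj1 : Disjoint e.wires e.outRail := by
        rw [hout, Finset.disjoint_singleton_right]
        intro h
        exact wires_rail_disj e _ h _ _ _ rfl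
      have hdisj2 : Disjoint (e.wires ∪ e.outRail) e.inRail := by
        rw [hin, Finset.disjoint_singleton_right]
        intro h
        rcases Finset.mem_union.1 h with h | h
        · exact wires_rail_disj e _ h _ _ _ rfl
        · rw [hout, Finset.mem_singleton] at h
          have h3 : (e.row, jm, e.st) = (e.row, e.col, e.st + e.lab) := Sum.inr.inj h
          have h4 : jm = e.col := (Prod.mk.inj (Prod.mk.inj h3).2).1
          have h5 : jm.val = e.col.val := by rw [h4]
          simp only [hjm] at h5
          omega
      rw [Finset.sum_union hdisj2, Finset.sum_union hdisj1, hout, hin, Finset.sum_singleton,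
        Finset.sum_singleton, hwires, hrin, hrhs]
      have hr : σ.theta (rail e.row e.col (e.st + e.lab))
          = σ.phi e.row (e.st + e.lab) + N.tw e.row +
            (σ.c e.row e.col + ∑ j' ∈ Finset.univ.filter (fun j' => j' ≤ jm), σ.c e.row j') := by
        show σ.r e.row e.col (e.st + e.lab) = _
        unfold State.r
        rw [sum_le_succ _ _ hjpos]
      rw [hr, hphiadd]
      linear_combination (σ.c e.row e.col + σ.phi e.row e.lab + σ.phi e.row e.st + N.tw e.row +
        ∑ j' ∈ Finset.univ.filter (fun j' => j' ≤ jm), σ.c e.row j') * htwo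
    · -- last column
      have hlast : e.col.val + 1 = p := by
        have := e.col.isLt
        omega
      have hout : e.outRail = ∅ := by
        unfold Bk.outRail
        rw [if_neg hl]
      have hex' := hex hlast
      have hsum : e.st = e.lab := by
        have h1 := e.last hlast
        have h2 : e.st + e.lab + e.lab = 0 + e.lab := by rw [h1]
        rw [add_assoc, sg_add_self, add_zero, zero_add] at h2
        exact h2
      rw [hout, Finset.union_empty, Finset.sum_union]
      · rw [hin, Finset.sum_singleton, hwires, hrin, hrhs]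
        have h3 := sum_le_last (σ.c e.row) e.col hlast
        rw [sum_le_succ _ _ hjpos, State.sum_c, hex'] at h3
        rw [hsum]
        linear_combination (σ.phi e.row e.lab) * htwo + (N.tw e.row) * htwo + h3
      · rw [hin, Finset.disjoint_singleton_right]
        intro h
        exact wires_rail_disj e _ h _ _ _ rfl

/-- Modification of a state. -/
def State.add (σ : N.State) (dC : N.Sec → Fin p → ZMod 2) (dμ : N.Sec → (Sg b →+ ZMod 2)) :
    N.State := ⟨fun S j => σ.C S j + dC S j, fun S => σ.μ S + dμ S⟩

/-- (module A) A modification fixes all wires of a block and all rails of its row provided it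
vanishes on the wires and does not change the data of the row. -/
theorem State.add_theta (σ : N.State) (dC : N.Sec → Fin p → ZMod 2)
    (dμ : N.Sec → (Sg b →+ ZMod 2)) (e : N.Bk)
    (hw : ∀ S ∈ N.inc e.row, dC S e.col + dμ S (e.lab + N.dl e.row S e.col) = 0)
    (hφ : ∑ S ∈ N.inc e.row, dμ S = 0)
    (hc : ∀ j, ∑ S ∈ N.inc e.row, (dC S j + dμ S (N.dl e.row S j)) = 0) :
    ∀ v ∈ e.vars, (σ.add dC dμ).theta v = σ.theta v := by
  have hphi : (σ.add dC dμ).phi e.row = σ.phi e.row := by
    unfold State.phi State.add
    simp only
    rw [Finset.sum_add_distrib, hφ, add_zero]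
  have hcc : ∀ j, (σ.add dC dμ).c e.row j = σ.c e.row j := by
    intro j
    unfold State.c State.add
    simp only [AddMonoidHom.add_apply]
    have : ∑ S ∈ N.inc e.row, (σ.C S j + dC S j + (σ.μ S (N.dl e.row S j) + dμ S (N.dl e.row S j)))
        = ∑ S ∈ N.inc e.row, (σ.C S j + σ.μ S (N.dl e.row S j))
          + ∑ S ∈ N.inc e.row, (dC S j + dμ S (N.dl e.row S j)) := by
      rw [← Finset.sum_add_distrib]
      apply Finset.sum_congr rfl
      intro S _
      ring
    rw [this, hc j, add_zero]
  have hrail : ∀ j t, (σ.add dC dμ).theta (rail e.row j t) = σ.theta (rail e.row j t) := by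
    intro j t
    show (σ.add dC dμ).r e.row j t = σ.r e.row j t
    unfold State.r
    rw [hphi]
    congr 1
    apply Finset.sum_congr rfl
    intro j' _
    exact hcc j'
  intro v hv
  unfold Bk.vars at hv
  rcases Finset.mem_union.1 hv with hv | hv
  · rcases Finset.mem_union.1 hv with hv | hv
    · obtain ⟨S, hS, rfl⟩ := Finset.mem_image.1 hv
      show (σ.add dC dμ).y S e.col (e.lab + N.dl e.row S e.col) = σ.y S e.col (e.lab + N.dl e.row S e.col)
      unfold State.y State.add
      simp only [AddMonoidHom.add_apply]
      have := hw S hS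
      linear_combination this
    · unfold Bk.outRail at hv
      split_ifs at hv
      · rw [Finset.mem_singleton] at hv
        rw [hv]
        exact hrail _ _
      · simp at hv
  · unfold Bk.inRail at hv
    split_ifs at hv
    · rw [Finset.mem_singleton] at hv
      rw [hv]
      exact hrail _ _
    · simp at hv

/-- (module A) The frame value of a modified state. -/
lemma State.add_f (σ : N.State) (dC : N.Sec → Fin p → ZMod 2)
    (dμ : N.Sec → (Sg b →+ ZMod 2)) (S : N.Sec) :
    (σ.add dC dμ).f S = σ.f S + ∑ j, dC S j := by
  unfold State.f State.add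
  simp only
  rw [Finset.sum_add_distrib]

end Net

end

end Vale.Agent.Lib.P310.N
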