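import Vale.Agent.Lib.P310.N.NetState

namespace Vale.Agent.Lib.P310.N

open scoped Classical
open Finset

noncomputable section

namespace Net

variable {p b : ℕ} {N : Net p b}

lemma Shared.mono {R R' : Finset N.Row} (h : R ⊆ R') {ℓ : N.Row} {S : N.Sec}
    (hs : Shared R ℓ S) : Shared R' ℓ S := by
  obtain ⟨ℓ', h1, h2, h3⟩ := hs
  exact ⟨ℓ', h h1, h2, h3⟩

/-- (module B) Solving the section-level system on a small set of rows, by peeling leaves. -/
theorem extend {Kn : N.Sec → Frame p b → Prop} {κ : N.Sec → Frame p b → ZMod 2}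
    (hG : N.Good Kn κ) (R : Finset N.Row) (hR : R.card ≤ p + 1)
    (P : N.Sec → Prop) (t : N.Sec → ZMod 2) (d : N.Row → ZMod 2)
    (pc1 : ∀ ℓ ∈ R, (∀ S ∈ N.inc ℓ, P S) → ∑ S ∈ N.inc ℓ, t S = d ℓ)
    (pc2 : ∀ ℓ ∈ R, 2 ≤ (N.inc ℓ).card → ∀ S0 ∈ N.inc ℓ, Shared R ℓ S0 →
      (∀ S ∈ N.inc ℓ, S ≠ S0 → P S) → P S0) :
    ∃ x : N.Sec → ZMod 2, (∀ S, P S → x S = t S) ∧ ∀ ℓ ∈ R, ∑ S ∈ N.inc ℓ, x S = d ℓ := by
  suffices H : ∀ R' : Finset N.Row, R' ⊆ R →
      ∃ x : N.Sec → ZMod 2, (∀ S, P S → x S = t S) ∧ ∀ ℓ ∈ R', ∑ S ∈ N.inc ℓ, x S = d ℓ from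
    H R (Finset.Subset.refl R)
  intro R'
  induction R' using Finset.strongInductionOn with
  | _ R' ih =>
    intro hsub
    rcases R'.eq_empty_or_nonempty with he | hne
    · subst he
      exact ⟨t, fun _ _ => rfl, fun ℓ hℓ => absurd hℓ (Finset.notMem_empty ℓ)⟩
    rcases hG.leaf R' ((Finset.card_le_card hsub).trans hR) hne with
      ⟨ℓ, hℓ, h2, huniq⟩ | ⟨hsing, hdisj⟩
    · obtain ⟨x, hx1, hx2⟩ := ih (R'.erase ℓ) (Finset.erase_ssubset hℓ)
        ((Finset.erase_subset _ _).trans hsub)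
      by_cases hstar : ∃ S ∈ N.inc ℓ, ¬ Shared R' ℓ S ∧ ¬ P S
      · obtain ⟨S1, hS1, hns, hnp⟩ := hstar
        refine ⟨Function.update x S1 (x S1 + ∑ S ∈ N.inc ℓ, x S + d ℓ), ?_, ?_⟩
        · intro S hS
          have hne' : S ≠ S1 := fun e => hnp (e ▸ hS)
          rw [Function.update_of_ne hne']
          exact hx1 S hS
        · intro ℓ' hℓ'
          by_cases hl : ℓ' = ℓ
          · subst hl
            rw [← Finset.add_sum_erase _ _ hS1, Function.update_self]
            have e1 : ∑ S ∈ (N.inc ℓ').erase S1, Function.update x S1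
                (x S1 + ∑ S ∈ N.inc ℓ', x S + d ℓ') S = ∑ S ∈ (N.inc ℓ').erase S1, x S := by
              apply Finset.sum_congr rfl
              intro S hS
              rw [Function.update_of_ne (Finset.ne_of_mem_erase hS)]
            rw [e1]
            have e2 : ∑ S ∈ N.inc ℓ', x S = x S1 + ∑ S ∈ (N.inc ℓ').erase S1, x S :=
              (Finset.add_sum_erase _ _ hS1).symm
            generalize (∑ S ∈ (N.inc ℓ').erase S1, x S) = A at *
            rw [e2]
            have h1 : x S1 + x S1 = 0 := CharTwo.add_self_eq_zero _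
            have h3 : A + A = 0 := CharTwo.add_self_eq_zero _
            linear_combination h1 + h3
          · have hnot : S1 ∉ N.inc ℓ' := fun hmem => hns ⟨ℓ', hℓ', hl, hmem⟩
            rw [← hx2 ℓ' (Finset.mem_erase.2 ⟨hl, hℓ'⟩)]
            apply Finset.sum_congr rfl
            intro S hS
            have hne' : S ≠ S1 := fun e => hnot (e ▸ hS)
            rw [Function.update_of_ne hne']
      · push Not at hstar
        refine ⟨x, hx1, ?_⟩
        intro ℓ' hℓ'
        by_cases hl : ℓ' = ℓ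
        · subst hl
          have hallP : ∀ S ∈ N.inc ℓ', P S := by
            intro S hS
            by_cases hsh : Shared R' ℓ' S
            · apply pc2 ℓ' (hsub hℓ) h2 S hS (hsh.mono hsub)
              intro S' hS' hne'
              apply hstar S' hS'
              intro hsh'
              exact hne' (huniq S' hS' S hS hsh' hsh)
            · exact hstar S hS hsh
          rw [← pc1 ℓ' (hsub hℓ) hallP]
          exact Finset.sum_congr rfl (fun S hS => hx1 S (hallP S hS))
        · exact hx2 ℓ' (Finset.mem_erase.2 ⟨hl, hℓ'⟩)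
    · have hex : ∀ S, ∃ a : ZMod 2, (P S → a = t S) ∧
          ∀ ℓ ∈ R', S ∈ N.inc ℓ → a = d ℓ := by
        intro S
        by_cases hP : P S
        · refine ⟨t S, fun _ => rfl, fun ℓ hℓ hS => ?_⟩
          obtain ⟨S1, hS1⟩ := Finset.card_eq_one.1 (hsing ℓ hℓ)
          have hS' : S = S1 := by
            rw [hS1] at hS
            exact Finset.mem_singleton.1 hS
          subst hS'
          have := pc1 ℓ (hsub hℓ) (fun S' hS' => by
            rw [hS1] at hS'
            rw [Finset.mem_singleton.1 hS']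
            exact hP)
          rw [hS1, Finset.sum_singleton] at this
          exact this
        · by_cases hmem : ∃ ℓ ∈ R', S ∈ N.inc ℓ
          · obtain ⟨ℓ0, h0, h1⟩ := hmem
            refine ⟨d ℓ0, fun h => absurd h hP, fun ℓ hℓ hS => ?_⟩
            by_cases hl : ℓ0 = ℓ
            · rw [hl]
            · exact absurd hS (Finset.disjoint_left.1 (hdisj ℓ0 h0 ℓ hℓ hl) h1)
          · exact ⟨0, fun h => absurd h hP, fun ℓ hℓ hS => absurd ⟨ℓ, hℓ, hS⟩ hmem⟩
      choose x hx1 hx2 using hex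
      refine ⟨x, hx1, fun ℓ hℓ => ?_⟩
      obtain ⟨S1, hS1⟩ := Finset.card_eq_one.1 (hsing ℓ hℓ)
      rw [hS1, Finset.sum_singleton]
      exact hx2 S1 ℓ hℓ (by rw [hS1]; exact Finset.mem_singleton_self _)

end Net

end

end Vale.Agent.Lib.P310.N
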