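import Vale.Agent.Lib.P310.N.FinalDefs
import Vale.Agent.Lib.P310.N.ProgSem
import Vale.Agent.Lib.P310.N.XorCard

/-! (module T) The program with a start frame: adding read chains. The final reduction. -/

namespace Vale.Agent.Lib.P310.N

open scoped Classical
open Finset

noncomputable section

namespace Prog

variable {p b : ℕ} (P : Prog p b)

/-- Inversion at an accepting node. -/
lemma acc_ac_inv {Q : Prog p b} {a : Q.Ac} {L : Frame p b}
    (h : Q.Acc (Sum.inr (Sum.inr (Sum.inr a))) L) : ∑ j, L j = 0 := by
  cases h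
  assumption

/-- Inversion at a read node. -/
lemma acc_re_inv {Q : Prog p b} {r : Q.Re} {L : Frame p b}
    (h : Q.Acc (Sum.inr (Sum.inl r)) L) : L (Q.reJ r) = Q.reS r ∧ Q.Acc (Q.reN r) L := by
  cases h
  exact ⟨by assumption, by assumption⟩

variable {P} in
/-- Acceptance in the wrapped program at embedded nodes gives acceptance in the program. -/
lemma acc_of_emb {hp : 0 < p} {start : P.Node} {L0 : Frame p b} {x : (P.wrap hp start L0).Node}
    {L : Frame p b} (h : (P.wrap hp start L0).Acc x L) :
    ∀ n : P.Node, x = P.emb n → P.Acc n L := by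
  induction h with
  | ac a L hL =>
    intro n hn
    rcases n with g | r | w | a0
    · cases hn
    · cases hn
    · cases hn
    · exact Acc.ac (Q := P) a0 L hL
  | re r L h h' ih =>
    intro n hn
    rcases n with g | r0 | w | a0
    · cases hn
    · cases hn
      exact Acc.re (Q := P) r0 L h (ih _ rfl)
    · cases hn
    · cases hn
  | wr w L h ih =>
    intro n hn
    rcases n with g | r0 | w0 | a0
    · cases hn
    · cases hn
    · cases hn
      exact Acc.wr (Q := P) w L (ih _ rfl)
    · cases hn
  | ga g i L h h' ih ih' =>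
    intro n hn
    rcases n with g0 | r0 | w0 | a0
    · cases hn
      exact Acc.ga (Q := P) g i L (ih _ rfl) (ih' _ rfl)
    · cases hn
    · cases hn
    · cases hn

variable {P} in
/-- Acceptance in the program gives acceptance in the wrapped program at embedded nodes. -/
lemma emb_of_acc (hp : 0 < p) (start : P.Node) (L0 : Frame p b) {n : P.Node} {L : Frame p b}
    (h : P.Acc n L) : (P.wrap hp start L0).Acc (P.emb n) L := by
  induction h with
  | ac a L hL => exact Acc.ac (Q := P.wrap hp start L0) (Sum.inl a) L hL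
  | re r L h _ ih => exact Acc.re (Q := P.wrap hp start L0) (Sum.inl r) L h ih
  | wr w L _ ih => exact Acc.wr (Q := P.wrap hp start L0) w L ih
  | ga g i L _ _ ih ih' => exact Acc.ga (Q := P.wrap hp start L0) g i L ih ih'

/-- What a chain requires at its end. -/
def chainTail (start : P.Node) (c : Bool) (L : Frame p b) : Prop :=
  if c then ∑ j, L j = 0 else P.Acc start L

lemma acc_chainNext_end (hp : 0 < p) (start : P.Node) (L0 L : Frame p b) (c : Bool) :
    (P.wrap hp start L0).Acc (if c then P.newAc else P.emb start) L ↔ P.chainTail start c L := by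
  cases c with
  | true =>
    simp only [if_true, chainTail]
    constructor
    · intro h
      exact acc_ac_inv (Q := P.wrap hp start L0) h
    · intro h
      exact Acc.ac (Q := P.wrap hp start L0) (Sum.inr ()) L h
  | false =>
    simp only [Bool.false_eq_true, if_false, chainTail]
    exact ⟨fun h => acc_of_emb h _ rfl, fun h => emb_of_acc hp start L0 h⟩

lemma acc_chain (hp : 0 < p) (start : P.Node) (L0 L : Frame p b) (c : Bool) :
    ∀ (k : ℕ) (i : Fin p), p - i.val = k →
      ((P.wrap hp start L0).Acc (P.chainNode i c) L ↔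
        (∀ j : Fin p, i ≤ j → L j = L0 j) ∧ P.chainTail start c L) := by
  intro k
  induction k with
  | zero =>
    intro i hi
    have := i.isLt
    omega
  | succ k ih =>
    intro i hi
    have hnext : (P.wrap hp start L0).Acc (P.chainNode i c) L ↔
        L i = L0 i ∧ (P.wrap hp start L0).Acc (P.chainNext start i c) L := by
      constructor
      · intro h
        exact acc_re_inv (Q := P.wrap hp start L0) (r := Sum.inr (i, c)) h
      · rintro ⟨h1, h2⟩
        exact Acc.re (Q := P.wrap hp start L0) (Sum.inr (i, c)) L h1 h2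
    rw [hnext]
    by_cases hi1 : i.val + 1 < p
    · have hc : P.chainNext start i c = P.chainNode ⟨i.val + 1, hi1⟩ c := by
        simp [chainNext, hi1]
      rw [hc, ih ⟨i.val + 1, hi1⟩ (by simp only; omega)]
      constructor
      · rintro ⟨h1, h2, h3⟩
        refine ⟨fun j hj => ?_, h3⟩
        rcases eq_or_lt_of_le hj with rfl | hlt
        · exact h1
        · exact h2 j (Fin.le_def.2 (by simp only; exact Fin.lt_def.1 hlt))
      · rintro ⟨h1, h3⟩
        refine ⟨h1 i le_rfl, fun j hj => h1 j ?_, h3⟩
        rw [Fin.le_def] at hj ⊢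
        simp only at hj
        omega
    · have hc : P.chainNext start i c = if c then P.newAc else P.emb start := by
        simp [chainNext, hi1]
      rw [hc]
      have hend := P.acc_chainNext_end hp start L0 L c
      constructor
      · rintro ⟨h1, h3⟩
        refine ⟨fun j hj => ?_, hend.1 h3⟩
        have hj' : j = i := by
          apply Fin.ext
          have := j.isLt
          rw [Fin.le_def] at hj
          omega
        rw [hj']
        exact h1
      · rintro ⟨h1, h3⟩
        exact ⟨h1 i le_rfl, hend.2 h3⟩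

theorem wrap_acc1 (hp : 0 < p) (start : P.Node) (L0 L : Frame p b) :
    (P.wrap hp start L0).Acc (P.wrapS1 hp start L0) L ↔ L = L0 ∧ P.Acc start L := by
  have h := P.acc_chain hp start L0 L false _ ⟨0, hp⟩ rfl
  simp only [chainTail, Bool.false_eq_true, if_false] at h
  show (P.wrap hp start L0).Acc (P.chainNode ⟨0, hp⟩ false) L ↔ _
  rw [h]
  constructor
  · rintro ⟨h1, h2⟩
    exact ⟨funext fun j => h1 j (Fin.le_def.2 (Nat.zero_le _)), h2⟩
  · rintro ⟨rfl, h2⟩
    exact ⟨fun _ _ => rfl, h2⟩

theorem wrap_acc2 (hp : 0 < p) (start : P.Node) (L0 L : Frame p b) :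
    (P.wrap hp start L0).Acc (P.wrapS2 hp start L0) L ↔ L = L0 ∧ ∑ j, L j = 0 := by
  have h := P.acc_chain hp start L0 L true _ ⟨0, hp⟩ rfl
  simp only [chainTail, if_true] at h
  show (P.wrap hp start L0).Acc (P.chainNode ⟨0, hp⟩ true) L ↔ _
  rw [h]
  constructor
  · rintro ⟨h1, h2⟩
    exact ⟨funext fun j => h1 j (Fin.le_def.2 (Nat.zero_le _)), h2⟩
  · rintro ⟨rfl, h2⟩
    exact ⟨fun _ _ => rfl, h2⟩

/-- The final theorem on programs. -/
theorem reduction (hp : 2 ≤ p) (start : P.Node) (L0 : Frame p b) :
    P.WLE hp start L0 ↔ ¬ P.Acc start L0 := by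
  have hp0 : 0 < p := by omega
  constructor
  · intro hW hA
    have h1 : (P.wrap hp0 start L0).Acc (P.wrapS1 hp0 start L0) L0 :=
      (P.wrap_acc1 hp0 start L0 L0).2 ⟨rfl, hA⟩
    have h2 : (P.wrap hp0 start L0).Acc (P.wrapS2 hp0 start L0) L0 :=
      (P.wrap_acc2 hp0 start L0 L0).2 ⟨rfl, hA.code⟩
    exact (P.wrap hp0 start L0).not_wlEquiv_of_acc hp _ _ _ h1 h2 hW
  · intro hA
    refine (P.wrap hp0 start L0).wlEquiv_of_not_acc hp _ _ _ ?_
    intro L hL
    obtain ⟨rfl, h⟩ := (P.wrap_acc1 hp0 start L0 L).1 hL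
    exact hA h

/-- The number of blocks of a net. -/
lemma card_bk (N : Net p b) : Fintype.card N.Bk ≤ Fintype.card N.Row * p * (2 ^ b) ^ 2 := by
  have h := Fintype.card_le_of_injective
    (fun e : N.Bk => ((e.row, e.col, e.st, e.lab) : N.Row × Fin p × Sg b × Sg b)) (by
      intro u u' h
      simp only [Prod.mk.injEq] at h
      exact Net.Bk.ext h.1 h.2.1 h.2.2.1 h.2.2.2)
  have hs : Fintype.card (Sg b) = 2 ^ b := by simp [Sg, ZMod.card]
  rw [Fintype.card_prod, Fintype.card_prod, Fintype.card_prod, hs, Fintype.card_fin] at h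
  calc Fintype.card N.Bk ≤ _ := h
    _ = _ := by ring

/-- A block has at most as many variables as its row has incidences, plus two. -/
lemma vars_card (N : Net p b) (e : N.Bk) : e.vars.card ≤ (N.inc e.row).card + 2 := by
  have h1 : e.wires.card ≤ (N.inc e.row).card := Finset.card_image_le
  have h2 : e.outRail.card ≤ 1 := by
    unfold Net.Bk.outRail
    split_ifs <;> simp
  have h3 : e.inRail.card ≤ 1 := by
    unfold Net.Bk.inRail
    split_ifs <;> simp
  have h4 := Finset.card_union_le (e.wires ∪ e.outRail) e.inRail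
  have h5 := Finset.card_union_le e.wires e.outRail
  unfold Net.Bk.vars
  omega

/-- The incidences of a row of a specification. -/
lemma rinc_card {Sp : Spec p b} (ℓ : Sp.Row) : (Sp.rinc ℓ).card ≤ 3 := by
  rcases ℓ with s | t | ⟨l, t⟩
  · simp [Spec.rinc]
  · exact Finset.card_le_three
  · exact le_trans Finset.card_le_two (by omega)

/-- The variables of a block are nonempty. -/
lemma vars_ne (N : Net p b) (e : N.Bk) : e.vars.Nonempty := by
  obtain ⟨S, hS⟩ := N.inc_ne e.row
  refine ⟨Net.wire S e.col (e.lab + N.dl e.row S e.col), ?_⟩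
  unfold Net.Bk.vars
  apply Finset.mem_union_left
  apply Finset.mem_union_left
  exact Finset.mem_image_of_mem _ hS

lemma card_row_eq (hp : 0 < p) (start : P.Node) (L0 : Frame p b) (s1 s2 : (P.wrap hp start L0).Node) :
    Fintype.card ((P.wrap hp start L0).spec s1 s2).net.Row =
      (Fintype.card P.Ac + 1) + (Fintype.card P.Ga * Fintype.card P.Br + 1) +
        ((Fintype.card P.Re + 2 * p) + Fintype.card P.Wr +
          2 * (Fintype.card P.Ga * Fintype.card P.Br) + 3) * len p := by
  show Fintype.card ((P.Ac ⊕ Unit) ⊕ ((P.Ga × P.Br) ⊕ Unit) ⊕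
      (((P.Re ⊕ (Fin p × Bool)) ⊕ P.Wr ⊕ (P.Ga × P.Br × Bool) ⊕ Bool ⊕ Unit) × Fin (len p))) = _
  simp only [Fintype.card_sum, Fintype.card_prod, Fintype.card_unit, Fintype.card_bool,
    Fintype.card_fin]
  ring

theorem card_le (hp : 2 ≤ p) (start : P.Node) (L0 : Frame p b) (c : ZMod 2) :
    Fintype.card ((P.redSys hp start L0).Vtx c) ≤
      sizeBound p b (Fintype.card P.Ga) (Fintype.card P.Br) (Fintype.card P.Re) (Fintype.card P.Wr)
        (Fintype.card P.Ac) := by
  have hp0 : 0 < p := by omega
  set Sp := (P.wrap hp0 start L0).spec (P.wrapS1 hp0 start L0) (P.wrapS2 hp0 start L0) with hSp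
  have hd : ∀ e, ((P.redSys hp start L0).vars e).card ≤ 5 := by
    intro e
    have h1 := vars_card Sp.net e
    have h2 : (Sp.net.inc e.row).card ≤ 3 := rinc_card e.row
    exact le_trans h1 (by omega)
  have hc := XorSys.card_vtx_le (P.redSys hp start L0) hd c
  have hb : Fintype.card (P.redSys hp start L0).Eqn ≤
      ((Fintype.card P.Ac + 1) + (Fintype.card P.Ga * Fintype.card P.Br + 1) +
        ((Fintype.card P.Re + 2 * p) + Fintype.card P.Wr +
          2 * (Fintype.card P.Ga * Fintype.card P.Br) + 3) * len p)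
          * p * (2 ^ b) ^ 2 := by
    have h1 := card_bk Sp.net
    rw [P.card_row_eq hp0 start L0] at h1
    exact h1
  refine le_trans hc ?_
  unfold sizeBound
  simp only
  set B := ((Fintype.card P.Ac + 1) + (Fintype.card P.Ga * Fintype.card P.Br + 1) +
        ((Fintype.card P.Re + 2 * p) + Fintype.card P.Wr +
          2 * (Fintype.card P.Ga * Fintype.card P.Br) + 3) * len p)
          * p * (2 ^ b) ^ 2
  set E := Fintype.card (P.redSys hp start L0).Eqn
  exact Nat.mul_le_mul (Nat.mul_le_mul_right _ hb)
    (Nat.add_le_add_left (Nat.mul_le_mul hb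
      (Nat.add_le_add_right (Nat.mul_le_mul_right _ hb) _)) _)

theorem card_eq (hp : 2 ≤ p) (start : P.Node) (L0 : Frame p b) :
    Fintype.card ((P.redSys hp start L0).Vtx 1) =
      Fintype.card ((P.redSys hp start L0).Vtx 0) := by
  exact XorSys.card_vtx_eq _ (fun e => vars_ne _ e)

end Prog

end

end Vale.Agent.Lib.P310.N
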