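import Vale.Agent.Lib.P310.N.Prog
import Vale.Agent.Lib.P310.Defs

/-! The program with a start frame: adding read chains. The graphs of the reduction. -/

namespace Vale.Agent.Lib.P310.N

open scoped Classical
open Finset
open Vale.Agent.Lib.P310

noncomputable section

namespace Prog

variable {p b : ℕ} (P : Prog p b)

/-- The nodes of the wrapped program. -/
abbrev WNode : Type := P.Ga ⊕ (P.Re ⊕ (Fin p × Bool)) ⊕ P.Wr ⊕ (P.Ac ⊕ Unit)

/-- Embedding of the nodes of the program into the nodes of the wrapped program. -/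
def emb : P.Node → P.WNode :=
  Sum.elim Sum.inl (Sum.elim (fun r => Sum.inr (Sum.inl (Sum.inl r)))
    (Sum.elim (fun w => Sum.inr (Sum.inr (Sum.inl w)))
      (fun a => Sum.inr (Sum.inr (Sum.inr (Sum.inl a))))))

/-- The chain node reading column `i`. -/
def chainNode (i : Fin p) (c : Bool) : P.WNode := Sum.inr (Sum.inl (Sum.inr (i, c)))

/-- The new accepting node. -/
def newAc : P.WNode := Sum.inr (Sum.inr (Sum.inr (Sum.inr ())))

/-- The node after a chain node. -/
def chainNext (start : P.Node) (i : Fin p) (c : Bool) : P.WNode :=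
  if h : i.val + 1 < p then P.chainNode ⟨i.val + 1, h⟩ c
  else if c then P.newAc else P.emb start

/-- The gates stay legal when the nodes are embedded. -/
theorem wrap_gate_ok (g : P.Ga) :
    (∀ i i', P.emb (P.gl g i) = P.emb (P.gl g i') ∧ P.emb (P.gr g i) = P.emb (P.gr g i')) ∨
      ∀ i, P.emb (P.gl g i) = P.emb (P.gr g i) := by
  rcases P.gate_ok g with h | h
  · left
    exact fun i i' => ⟨congrArg P.emb (h i i').1, congrArg P.emb (h i i').2⟩
  · right
    intro i
    exact congrArg P.emb (h i)

/-- The program with two read chains added, both reading the frame `L0` column by column: chain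
`false` ends at `start`, chain `true` ends at a new accepting node. -/
def wrap (_hp : 0 < p) (start : P.Node) (L0 : Frame p b) : Prog p b where
  Ga := P.Ga
  Re := P.Re ⊕ (Fin p × Bool)
  Wr := P.Wr
  Ac := P.Ac ⊕ Unit
  Br := P.Br
  instG := P.instG
  instR := inferInstance
  instW := P.instW
  instA := inferInstance
  instB := P.instB
  gl := fun g i => P.emb (P.gl g i)
  gr := fun g i => P.emb (P.gr g i)
  gate_ok := P.wrap_gate_ok
  reJ := Sum.elim P.reJ (fun x => x.1)
  reS := Sum.elim P.reS (fun x => L0 x.1)
  reN := Sum.elim (fun r => P.emb (P.reN r)) (fun x => P.chainNext start x.1 x.2)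
  wrD := P.wrD
  wrN := fun w => P.emb (P.wrN w)
  wr_sum := P.wr_sum

/-- The first chain node. -/
def wrapS1 (hp : 0 < p) (start : P.Node) (L0 : Frame p b) : (P.wrap hp start L0).Node :=
  P.chainNode ⟨0, hp⟩ false

/-- The second chain node. -/
def wrapS2 (hp : 0 < p) (start : P.Node) (L0 : Frame p b) : (P.wrap hp start L0).Node :=
  P.chainNode ⟨0, hp⟩ true

/-- The XOR system of the reduction. -/
def redSys (hp : 2 ≤ p) (start : P.Node) (L0 : Frame p b) : XorSys :=
  ((P.wrap (by omega) start L0).spec (P.wrapS1 (by omega) start L0)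
    (P.wrapS2 (by omega) start L0)).net.sys (Fintype.equivFin _)

/-- The number of vertices of the two graphs of the reduction (`c = 0`, `c = 1`). -/
def nV (hp : 2 ≤ p) (start : P.Node) (L0 : Frame p b) (c : ZMod 2) : ℕ :=
  Fintype.card ((P.redSys hp start L0).Vtx c)

/-- The two graphs of the reduction are `p`-WL equivalent. -/
def WLE (hp : 2 ≤ p) (start : P.Node) (L0 : Frame p b) : Prop :=
  WLEquiv p ((P.redSys hp start L0).Gr 0) ((P.redSys hp start L0).Gr 1)

/-- The size bound. -/
def sizeBound (p b g br r w a : ℕ) : ℕ :=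
  let rows := (a + 1) + (g * br + 1) + ((r + 2 * p) + w + 2 * (g * br) + 3) * len p
  let blocks := rows * p * (2 ^ b) ^ 2
  (blocks * 2 ^ 5) * (1 + blocks * (blocks * 2 ^ 5 + 2))

end Prog

end

end Vale.Agent.Lib.P310.N
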