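import Vale.Agent.Lib.P310.N.Vis
import Vale.Agent.Lib.P310.N.Extend

namespace Vale.Agent.Lib.P310.N

open scoped Classical
open Finset

noncomputable section

namespace Net

variable {p b : ℕ} {N : Net p b}

variable {Kn : N.Sec → Frame p b → Prop} {κ : N.Sec → Frame p b → ZMod 2}

/-- From a section-level solution and a realization to the conclusion of the forth lemma. -/
lemma forth_of_real (hG : N.Good Kn κ) {U : Finset N.Bk} {σ : N.State} (hU : U.card ≤ p)
    (e : N.Bk) (x : N.Sec → ZMod 2)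
    (hx1 : ∀ S, Pres Kn (insert e U) S → x S = tgt Kn κ (insert e U) σ S)
    (hx2 : ∀ ℓ ∈ rowsOf (insert e U), ∑ S ∈ N.inc ℓ, x S = ∑ S ∈ N.inc ℓ, σ.f S + N.tw ℓ)
    (dC : N.Sec → Fin p → ZMod 2) (dμ : N.Sec → (Sg b →+ ZMod 2))
    (hd : ∀ S, ∑ j, dC S j = x S)
    (hw : ∀ e0 ∈ U, ∀ S ∈ N.inc e0.row, dC S e0.col + dμ S (e0.lab + N.dl e0.row S e0.col) = 0)
    (hφ : ∀ e0 ∈ U, ∑ S ∈ N.inc e0.row, dμ S = 0)
    (hc : ∀ e0 ∈ U, ∀ j, ∑ S ∈ N.inc e0.row, (dC S j + dμ S (N.dl e0.row S j)) = 0) :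
    ∃ σ' : N.State, InE Kn κ (insert e U) σ' ∧
      ∀ e0 ∈ U, ∀ v ∈ e0.vars, σ'.theta v = σ.theta v := by
  have hU1 : (insert e U).card ≤ p + 1 := (Finset.card_insert_le _ _).trans (by omega)
  have hf : ∀ S, (σ.add dC dμ).f S = σ.f S + x S := by
    intro S
    rw [State.add_f, hd]
  refine ⟨σ.add dC dμ, ⟨?_, ?_⟩, ?_⟩
  · intro ℓ hℓ
    simp only [hf]
    rw [Finset.sum_add_distrib, hx2 ℓ hℓ, ← add_assoc, ← two_nsmul, two_nsmul, CharTwo.add_self_eq_zero,
      zero_add]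
  · intro S L hK hv
    have hP : Pres Kn (insert e U) S := ⟨L, hK, hv⟩
    rw [hf, hx1 S hP, tgt_eq hG hU1 σ hK hv, ← add_assoc, CharTwo.add_self_eq_zero, zero_add]
  · intro e0 he0 v hv
    exact State.add_theta σ dC dμ e0 (hw e0 he0) (hφ e0 he0) (hc e0 he0) v hv

/-- The section-level system for the new position. -/
lemma exists_x (hG : N.Good Kn κ) {U1 : Finset N.Bk} (hU1 : U1.card ≤ p + 1) (σ : N.State) :
    ∃ x : N.Sec → ZMod 2, (∀ S, Pres Kn U1 S → x S = tgt Kn κ U1 σ S) ∧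
      ∀ ℓ ∈ rowsOf U1, ∑ S ∈ N.inc ℓ, x S = ∑ S ∈ N.inc ℓ, σ.f S + N.tw ℓ :=
  extend hG (rowsOf U1) ((card_rowsOf_le U1).trans hU1) (Pres Kn U1) (tgt Kn κ U1 σ)
    (fun ℓ => ∑ S ∈ N.inc ℓ, σ.f S + N.tw ℓ)
    (fun _ hℓ hall => pc1 hG hU1 σ hℓ hall)
    (fun _ hℓ h2 _ hS0 _ hall => pc2 hG hU1 hℓ h2 hS0 hall)

lemma rowsOf_mono {U U' : Finset N.Bk} (h : U ⊆ U') : rowsOf U ⊆ rowsOf U' :=
  Finset.image_subset_image h

lemma mem_rowsOf_insert {U : Finset N.Bk} {e : N.Bk} {ℓ : N.Row}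
    (h : ℓ ∈ rowsOf (insert e U)) : ℓ = e.row ∨ ℓ ∈ rowsOf U := by
  unfold rowsOf at h
  rw [Finset.image_insert, Finset.mem_insert] at h
  exact h

/-- A row of the old position has section sum zero. -/
lemma x_zero {U : Finset N.Bk} {σ : N.State} {e : N.Bk} (hσ : InE Kn κ U σ)
    {x : N.Sec → ZMod 2}
    (hx2 : ∀ ℓ ∈ rowsOf (insert e U), ∑ S ∈ N.inc ℓ, x S = ∑ S ∈ N.inc ℓ, σ.f S + N.tw ℓ)
    {e0 : N.Bk} (he0 : e0 ∈ U) : ∑ S ∈ N.inc e0.row, x S = 0 := by
  have h1 := row_mem_rowsOf he0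
  rw [hx2 _ (rowsOf_mono (Finset.subset_insert _ _) h1), hσ.1 _ h1, CharTwo.add_self_eq_zero]

/-- Column `j` has no block in the cluster of `S`. -/
def Miss (U : Finset N.Bk) (S : N.Sec) (j : Fin p) : Prop :=
  ¬ ∃ e ∈ U, e.col = j ∧ ∃ S' ∈ N.inc e.row, Cl (rowsOf U) S S'

lemma Miss.congr {U : Finset N.Bk} {S S' : N.Sec} (h : Cl (rowsOf U) S S') (j : Fin p) :
    Miss U S j ↔ Miss U S' j := by
  unfold Miss
  apply not_congr
  constructor
  · rintro ⟨e, he, hc, S1, hS1, hcl⟩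
    exact ⟨e, he, hc, S1, hS1, (Cl.symm h).trans hcl⟩
  · rintro ⟨e, he, hc, S1, hS1, hcl⟩
    exact ⟨e, he, hc, S1, hS1, h.trans hcl⟩

/-- Case (i): every cluster misses a column. -/
lemma forth_i (hG : N.Good Kn κ) {U : Finset N.Bk} {σ : N.State} (hU : U.card ≤ p)
    (hσ : InE Kn κ U σ) (e : N.Bk) (hmiss : ∀ S, ∃ j, Miss U S j) :
    ∃ σ' : N.State, InE Kn κ (insert e U) σ' ∧
      ∀ e0 ∈ U, ∀ v ∈ e0.vars, σ'.theta v = σ.theta v := by
  have hU1 : (insert e U).card ≤ p + 1 := (Finset.card_insert_le _ _).trans (by omega)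
  obtain ⟨x, hx1, hx2⟩ := exists_x hG hU1 σ
  have hne : Nonempty (Fin p) := ⟨⟨0, by have := hG.hp; omega⟩⟩
  have hpick : ∀ A : Set (Fin p), ∃ a : Fin p, A.Nonempty → a ∈ A := by
    intro A
    by_cases h : A.Nonempty
    · obtain ⟨a, ha⟩ := h
      exact ⟨a, fun _ => ha⟩
    · exact ⟨hne.some, fun h' => absurd h' h⟩
  choose pick hpick using hpick
  let r : N.Sec → Fin p := fun S => pick {j | Miss U S j}
  have hr : ∀ S, Miss U S (r S) := fun S => hpick {j | Miss U S j} (hmiss S)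
  have hrc : ∀ S S', Cl (rowsOf U) S S' → r S = r S' := by
    intro S S' h
    show pick _ = pick _
    congr 1
    ext j
    exact Miss.congr h j
  refine forth_of_real hG hU e x hx1 hx2 (fun S j => if j = r S then x S else 0) (fun _ => 0) ?_ ?_ ?_ ?_
  · intro S
    rw [Finset.sum_ite_eq']
    simp
  · intro e0 he0 S hS
    have hne : e0.col ≠ r S := by
      intro h
      exact hr S ⟨e0, he0, h, S, hS, Cl.refl S⟩
    simp [hne]
  · intro e0 _
    simp
  · intro e0 he0 j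
    obtain ⟨S0, hS0⟩ := N.inc_ne e0.row
    have h1 : ∑ S ∈ N.inc e0.row, ((if j = r S then x S else 0) + (0 : Sg b →+ ZMod 2) (N.dl e0.row S j)) =
        ∑ S ∈ N.inc e0.row, (if j = r S0 then x S else 0) := by
      apply Finset.sum_congr rfl
      intro S hS
      rw [hrc S S0 (Cl.of_row (row_mem_rowsOf he0) hS hS0)]
      simp
    rw [h1]
    split_ifs with hj
    · exact x_zero hσ hx2 he0
    · simp

/-- Data of case (ii): one block per column in one cluster. -/
structure Full (U : Finset N.Bk) (S0 : N.Sec) where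
  bl : Fin p → N.Bk
  mem : ∀ j, bl j ∈ U
  col : ∀ j, (bl j).col = j
  sc : Fin p → N.Sec
  sc_mem : ∀ j, sc j ∈ N.inc (bl j).row
  cl : ∀ j, Cl (rowsOf U) S0 (sc j)

lemma Full.uniq {U : Finset N.Bk} {S0 : N.Sec} (D : Full (N := N) U S0) (hU : U.card ≤ p) {e0 : N.Bk}
    (he0 : e0 ∈ U) : D.bl e0.col = e0 := by
  have hinj : Function.Injective D.bl := by
    intro j j' h
    rw [← D.col j, ← D.col j', h]
  have hsub : (Finset.univ : Finset (Fin p)).image D.bl ⊆ U := by
    intro z hz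
    obtain ⟨j, _, rfl⟩ := Finset.mem_image.1 hz
    exact D.mem j
  have hcard : U.card ≤ ((Finset.univ : Finset (Fin p)).image D.bl).card := by
    rw [Finset.card_image_of_injective _ hinj]
    simpa using hU
  have heq := Finset.eq_of_subset_of_card_le hsub hcard
  rw [← heq] at he0
  obtain ⟨j, _, rfl⟩ := Finset.mem_image.1 he0
  rw [D.col]

lemma Full.in_cluster {U : Finset N.Bk} {S0 : N.Sec} (D : Full (N := N) U S0) (hU : U.card ≤ p)
    {e0 : N.Bk} (he0 : e0 ∈ U) {S : N.Sec} (hS : S ∈ N.inc e0.row) : Cl (rowsOf U) S0 S := by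
  have h1 := D.uniq hU he0
  have h2 := D.cl e0.col
  have h3 := D.sc_mem e0.col
  rw [h1] at h3
  exact h2.trans (Cl.of_row (row_mem_rowsOf he0) h3 hS)

/-- The common value on a block. -/
def Full.n {U : Finset N.Bk} {S0 : N.Sec} (D : Full (N := N) U S0) (g : N.Sec → Fin p → Sg b)
    (j : Fin p) : Sg b :=
  (D.bl j).lab + N.dl (D.bl j).row (D.sc j) j + g (D.sc j) j

lemma Full.n_eq {U : Finset N.Bk} {S0 : N.Sec} (D : Full (N := N) U S0)
    {g : N.Sec → Fin p → Sg b} (hg : Pot (rowsOf U) g) (j : Fin p) {S : N.Sec}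
    (hS : S ∈ N.inc (D.bl j).row) : (D.bl j).lab + N.dl (D.bl j).row S j + g S j = D.n g j := by
  unfold Full.n
  have := hg.2 _ (row_mem_rowsOf (D.mem j)) S hS (D.sc j) (D.sc_mem j) j
  rw [add_assoc, add_comm (N.dl _ S j), this, add_assoc, add_comm (g (D.sc j) j)]

/-- Case (ii-a): the sum of the block labels is not zero. -/
lemma forth_iia (hG : N.Good Kn κ) {U : Finset N.Bk} {σ : N.State} (hU : U.card ≤ p)
    (hσ : InE Kn κ U σ) (e : N.Bk) {S0 : N.Sec} (D : Full (N := N) U S0)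
    {g : N.Sec → Fin p → Sg b} (hg : Pot (rowsOf U) g) (hw : ∑ j, D.n g j ≠ 0) :
    ∃ σ' : N.State, InE Kn κ (insert e U) σ' ∧
      ∀ e0 ∈ U, ∀ v ∈ e0.vars, σ'.theta v = σ.theta v := by
  have hU1 : (insert e U).card ≤ p + 1 := (Finset.card_insert_le _ _).trans (by omega)
  obtain ⟨x, hx1, hx2⟩ := exists_x hG hU1 σ
  obtain ⟨i, hi⟩ := Function.ne_iff.1 hw
  have hi1 : (∑ j, D.n g j) i = 1 := by
    have h2 : ∀ y : ZMod 2, y ≠ 0 → y = 1 := by decide
    exact h2 _ hi
  let dμ : N.Sec → (Sg b →+ ZMod 2) := fun S =>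
    (AddMonoidHom.mulLeft (x S)).comp (Pi.evalAddMonoidHom (fun _ : Fin b => ZMod 2) i)
  have hdμ : ∀ S v, dμ S v = x S * v i := fun _ _ => rfl
  refine forth_of_real hG hU e x hx1 hx2 (fun S j => x S * (D.n g j + g S j) i) dμ ?_ ?_ ?_ ?_
  · intro S
    rw [← Finset.mul_sum, ← Finset.sum_apply, Finset.sum_add_distrib, hg.1 S, add_zero, hi1,
      mul_one]
  · intro e0 he0 S hS
    rw [hdμ]
    have h1 := D.uniq hU he0
    have hS' : S ∈ N.inc (D.bl e0.col).row := by rw [h1]; exact hS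
    have h2 := D.n_eq hg e0.col hS'
    rw [h1] at h2
    rw [← h2, ← mul_add]
    have : ((e0.lab + N.dl e0.row S e0.col + g S e0.col + g S e0.col) i +
        (e0.lab + N.dl e0.row S e0.col) i) = 0 := by
      rw [← Pi.add_apply, add_assoc (e0.lab + N.dl e0.row S e0.col), sg_add_self, add_zero,
        sg_add_self]
      rfl
    rw [this, mul_zero]
  · intro e0 he0
    apply AddMonoidHom.ext
    intro v
    rw [AddMonoidHom.finsetSum_apply]
    simp only [hdμ]
    rw [← Finset.sum_mul, x_zero hσ hx2 he0, zero_mul]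
    rfl
  · intro e0 he0 j
    obtain ⟨S1, hS1⟩ := N.inc_ne e0.row
    have h1 : ∀ S ∈ N.inc e0.row, x S * (D.n g j + g S j) i + dμ S (N.dl e0.row S j) =
        x S * (D.n g j + (g S1 j + N.dl e0.row S1 j)) i := by
      intro S hS
      rw [hdμ, ← hg.2 _ (row_mem_rowsOf he0) S hS S1 hS1 j, ← mul_add, ← Pi.add_apply, add_assoc]
    rw [Finset.sum_congr rfl h1, ← Finset.sum_mul, x_zero hσ hx2 he0, zero_mul]

/-- The frame read off at a section of the full cluster. -/
def Full.fr {U : Finset N.Bk} {S0 : N.Sec} (D : Full (N := N) U S0) (g : N.Sec → Fin p → Sg b)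
    (S : N.Sec) : Frame p b := fun j => D.n g j + g S j

lemma Full.fr_visible {U : Finset N.Bk} {S0 : N.Sec} (D : Full (N := N) U S0)
    {g : N.Sec → Fin p → Sg b} (hg : Pot (rowsOf U) g) {S : N.Sec} (hS : Cl (rowsOf U) S0 S) :
    Visible U S (D.fr g S) := by
  intro j
  refine ⟨D.bl j, D.mem j, D.col j, D.sc j, D.sc_mem j, ?_⟩
  have h1 : Cl (rowsOf U) S (D.sc j) := (Cl.symm hS).trans (D.cl j)
  have h2 := Cl.lk hg h1 j (D.fr g S j)
  have h3 : D.fr g S j + g S j + g (D.sc j) j =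
      (D.bl j).lab + N.dl (D.bl j).row (D.sc j) j := by
    unfold Full.fr Full.n
    generalize (D.bl j).lab + N.dl (D.bl j).row (D.sc j) j = A
    generalize g (D.sc j) j = c
    generalize g S j = d
    rw [show A + c + d + d + c = A + (c + c) + (d + d) by abel, sg_add_self, sg_add_self, add_zero,
      add_zero]
  rw [h3] at h2
  exact h2

lemma Full.fr_code {U : Finset N.Bk} {S0 : N.Sec} (D : Full (N := N) U S0)
    {g : N.Sec → Fin p → Sg b} (hg : Pot (rowsOf U) g) (hw : ∑ j, D.n g j = 0) (S : N.Sec) :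
    ∑ j, D.fr g S j = 0 := by
  unfold Full.fr
  rw [Finset.sum_add_distrib, hw, hg.1 S, add_zero]

/-- Case (ii-b), the key claim: visible known frames in the full cluster have correct value. -/
lemma Full.tgt_zero (hG : N.Good Kn κ) {U : Finset N.Bk} {σ : N.State} (hU : U.card ≤ p)
    (hσ : InE Kn κ U σ) (e : N.Bk) {S0 : N.Sec} (D : Full (N := N) U S0)
    {g : N.Sec → Fin p → Sg b} (hg : Pot (rowsOf U) g) (hw : ∑ j, D.n g j = 0) {S : N.Sec}
    (hS : Cl (rowsOf U) S0 S) (hP : Pres Kn (insert e U) S) :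
    tgt Kn κ (insert e U) σ S = 0 := by
  have hU1 : (insert e U).card ≤ p + 1 := (Finset.card_insert_le _ _).trans (by omega)
  obtain ⟨L, hK, hv⟩ := hP
  obtain ⟨g1, hg1⟩ := hG.pot (rowsOf (insert e U)) ((card_rowsOf_le _).trans hU1)
  have hfv := D.fr_visible hg hS
  have hoff : ∀ j, j ≠ e.col → L j = D.fr g S j := by
    intro j hj
    obtain ⟨e', he', hc', S', hS', hl⟩ := hv j
    have he'U : e' ∈ U := by
      rcases Finset.mem_insert.1 he' with h | h
      · exact absurd (h ▸ hc'.symm) hj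
      · exact h
    obtain ⟨e'', he'', hc'', S'', hS'', hl'⟩ := hfv j
    have h1 : e'' = e' := by
      rw [← D.uniq hU he'', ← D.uniq hU he'U, hc'', hc']
    subst h1
    have hl2 : Lk (rowsOf (insert e U)) j (S, D.fr g S j)
        (S'', e''.lab + N.dl e''.row S'' j) :=
      Lk.mono (rowsOf_mono (Finset.subset_insert _ _)) hl'
    exact Lk.eq_of_same hg1
      ((hl.trans (Lk.of_row (row_mem_rowsOf he') hS' hS'' j e''.lab)).trans (Lk.symm hl2))
  have hL : L = D.fr g S := by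
    by_contra hne
    obtain ⟨j1, j2, h12, h1, h2⟩ := exists_two_columns (hG.code _ _ hK) (D.fr_code hg hw S) hne
    by_cases h : j1 = e.col
    · exact h2 (hoff j2 (fun h' => h12 (h.trans h'.symm)))
    · exact h1 (hoff j1 h)
  have hvU : Visible U S L := by
    rw [hL]
    exact hfv
  rw [tgt_eq hG hU1 σ hK hv, hσ.2 S L hK hvU, CharTwo.add_self_eq_zero]

/-- Case (ii-b): the section level system with the full cluster forced to zero. -/
lemma Full.exists_x (hG : N.Good Kn κ) {U : Finset N.Bk} {σ : N.State} (hU : U.card ≤ p)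
    (hσ : InE Kn κ U σ) (e : N.Bk) {S0 : N.Sec} (D : Full (N := N) U S0)
    {g : N.Sec → Fin p → Sg b} (hg : Pot (rowsOf U) g) (hw : ∑ j, D.n g j = 0) :
    ∃ x : N.Sec → ZMod 2, (∀ S, Pres Kn (insert e U) S → x S = tgt Kn κ (insert e U) σ S) ∧
      (∀ ℓ ∈ rowsOf (insert e U), ∑ S ∈ N.inc ℓ, x S = ∑ S ∈ N.inc ℓ, σ.f S + N.tw ℓ) ∧
      ∀ S, Cl (rowsOf U) S0 S → x S = 0 := by
  have hU1 : (insert e U).card ≤ p + 1 := (Finset.card_insert_le _ _).trans (by omega)
  have hsubR : rowsOf U ⊆ rowsOf (insert e U) := rowsOf_mono (Finset.subset_insert _ _)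
  have hrowC : ∀ ℓ ∈ rowsOf U, ∀ S ∈ N.inc ℓ, Cl (rowsOf U) S0 S := by
    intro ℓ hℓ S hS
    obtain ⟨e0, he0, rfl⟩ := Finset.mem_image.1 hℓ
    exact D.in_cluster hU he0 hS
  have hallP : ∀ ℓ ∈ rowsOf (insert e U), ℓ ∉ rowsOf U →
      (∀ S ∈ N.inc ℓ, Pres Kn (insert e U) S ∨ Cl (rowsOf U) S0 S) →
      ∀ S ∈ N.inc ℓ, Pres Kn (insert e U) S := by
    intro ℓ hℓ hnot hall S hS
    by_cases hC : Cl (rowsOf U) S0 S
    · have hℓe : ℓ = e.row := by
        rcases mem_rowsOf_insert hℓ with h | h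
        · exact h
        · exact absurd h hnot
      have hothers : ∀ S' ∈ N.inc ℓ, S' ≠ S → Pres Kn (insert e U) S' := by
        intro S' hS' hne
        rcases hall S' hS' with h | h
        · exact h
        · exact absurd ((Cl.symm hC).trans h)
            (hG.forest (rowsOf U) ((card_rowsOf_le U).trans hU) ℓ hnot S hS S' hS' (Ne.symm hne))
      by_cases h2 : 2 ≤ (N.inc ℓ).card
      · exact pc2 hG hU1 hℓ h2 hS hothers
      · have hc1 : (N.inc ℓ).card = 1 := by
          have := Finset.card_pos.2 (N.inc_ne ℓ)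
          omega
        obtain ⟨S1, hS1⟩ := Finset.card_eq_one.1 hc1
        have hSS1 : S = S1 := by
          rw [hS1] at hS
          exact Finset.mem_singleton.1 hS
        subst hSS1
        have hve : e ∈ insert e U := Finset.mem_insert_self _ _
        have hcode : ∑ j, (D.fr g S j + N.dl e.row S j) = 0 := by
          rw [Finset.sum_add_distrib, D.fr_code hg hw S, N.dl_sum, add_zero]
        have hSe : S ∈ N.inc e.row := by rw [← hℓe]; exact hS
        have hKn := hG.kv (insert e U) hU1 e hve (fun j => D.fr g S j + N.dl e.row S j) hcode S hSe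
          (by
            intro S' hS' hne
            rw [← hℓe, hS1] at hS'
            exact absurd (Finset.mem_singleton.1 hS') hne)
        have hfr : (fun j => (D.fr g S j + N.dl e.row S j) + N.dl e.row S j) = D.fr g S := by
          funext j
          rw [add_assoc, sg_add_self, add_zero]
        have hKn' : Kn S (fun j => (D.fr g S j + N.dl e.row S j) + N.dl e.row S j) := hKn
        rw [hfr] at hKn'
        exact ⟨_, hKn', Visible.mono (Finset.subset_insert _ _) (D.fr_visible hg hC)⟩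
    · rcases hall S hS with h | h
      · exact h
      · exact absurd h hC
  have htz := fun S hS hP => D.tgt_zero hG hU hσ e hg hw (S := S) hS hP
  obtain ⟨x, hx1, hx2⟩ := extend hG (rowsOf (insert e U)) ((card_rowsOf_le _).trans hU1)
    (fun S => Pres Kn (insert e U) S ∨ Cl (rowsOf U) S0 S)
    (fun S => if Cl (rowsOf U) S0 S then 0 else tgt Kn κ (insert e U) σ S)
    (fun ℓ => ∑ S ∈ N.inc ℓ, σ.f S + N.tw ℓ)
    (by
      intro ℓ hℓ hall
      by_cases hR0 : ℓ ∈ rowsOf U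
      · rw [hσ.1 ℓ hR0, CharTwo.add_self_eq_zero]
        apply Finset.sum_eq_zero
        intro S hS
        rw [if_pos (hrowC ℓ hR0 S hS)]
      · have hP := hallP ℓ hℓ hR0 hall
        rw [← pc1 hG hU1 σ hℓ hP]
        apply Finset.sum_congr rfl
        intro S hS
        split_ifs with hC
        · exact (htz S hC (hP S hS)).symm
        · rfl)
    (by
      intro ℓ hℓ _ S1 hS1 hsh _
      right
      by_cases hR0 : ℓ ∈ rowsOf U
      · exact hrowC ℓ hR0 S1 hS1
      · obtain ⟨ℓ', hℓ', hne, hm⟩ := hsh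
        have hℓe : ℓ = e.row := by
          rcases mem_rowsOf_insert hℓ with h | h
          · exact h
          · exact absurd h hR0
        have : ℓ' ∈ rowsOf U := by
          rcases mem_rowsOf_insert hℓ' with h | h
          · exact absurd (h.trans hℓe.symm) hne
          · exact h
        exact hrowC ℓ' this S1 hm)
  refine ⟨x, ?_, hx2, ?_⟩
  · intro S hP
    rw [hx1 S (Or.inl hP)]
    by_cases hC : Cl (rowsOf U) S0 S
    · rw [if_pos hC, htz S hC hP]
    · rw [if_neg hC]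
  · intro S hC
    rw [hx1 S (Or.inr hC), if_pos hC]

/-- Case (ii-b). -/
lemma forth_iib (hG : N.Good Kn κ) {U : Finset N.Bk} {σ : N.State} (hU : U.card ≤ p)
    (hσ : InE Kn κ U σ) (e : N.Bk) {S0 : N.Sec} (D : Full (N := N) U S0)
    {g : N.Sec → Fin p → Sg b} (hg : Pot (rowsOf U) g) (hw : ∑ j, D.n g j = 0) :
    ∃ σ' : N.State, InE Kn κ (insert e U) σ' ∧
      ∀ e0 ∈ U, ∀ v ∈ e0.vars, σ'.theta v = σ.theta v := by
  obtain ⟨x, hx1, hx2, hx0⟩ := D.exists_x hG hU hσ e hg hw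
  have hp0 : 0 < p := by have := hG.hp; omega
  let j0 : Fin p := ⟨0, hp0⟩
  refine forth_of_real hG hU e x hx1 hx2 (fun S j => if j = j0 then x S else 0) (fun _ => 0) ?_ ?_ ?_ ?_
  · intro S
    rw [Finset.sum_ite_eq']
    simp
  · intro e0 he0 S hS
    have := hx0 S (D.in_cluster hU he0 hS)
    simp [this]
  · intro e0 _
    simp
  · intro e0 he0 j
    apply Finset.sum_eq_zero
    intro S hS
    have := hx0 S (D.in_cluster hU he0 hS)
    simp [this]

/-- (module F) The forth lemma. -/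
theorem forth (hG : N.Good Kn κ) {U : Finset N.Bk} {σ : N.State} (hU : U.card ≤ p)
    (hσ : InE Kn κ U σ) (e : N.Bk) :
    ∃ σ' : N.State, InE Kn κ (insert e U) σ' ∧
      ∀ e0 ∈ U, ∀ v ∈ e0.vars, σ'.theta v = σ.theta v := by
  by_cases hmiss : ∀ S, ∃ j, Miss U S j
  · exact forth_i hG hU hσ e hmiss
  · push Not at hmiss
    obtain ⟨S0, hS0⟩ := hmiss
    have hfull : ∀ j, ∃ e0 ∈ U, e0.col = j ∧ ∃ S' ∈ N.inc e0.row, Cl (rowsOf U) S0 S' := by
      intro j
      by_contra h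
      exact hS0 j h
    choose bl hbl hcol sc hsc hcl using hfull
    let D : Full (N := N) U S0 := ⟨bl, hbl, hcol, sc, hsc, hcl⟩
    obtain ⟨g, hg⟩ := hG.pot (rowsOf U) ((card_rowsOf_le U).trans (by omega))
    by_cases hw : ∑ j, D.n g j = 0
    · exact forth_iib hG hU hσ e D hg hw
    · exact forth_iia hG hU hσ e D hg hw

end Net

end

end Vale.Agent.Lib.P310.N
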