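import Vale.Agent.Lib.P310.N.Xor

/-!
Nets: rows with incidences, rails and the XOR system; affine states; the Duplicator invariant.
-/

namespace Vale.Agent.Lib.P310.N

open scoped Classical
open Finset

noncomputable section

/-- The labels: an `F_2` vector space. -/
abbrev Sg (b : ℕ) := Fin b → ZMod 2

/-- Frames: one label per column. -/
abbrev Frame (p b : ℕ) := Fin p → Sg b

/-- A net with `p` columns and labels in `Sg b`. A row `ℓ` has its incident sections `inc ℓ`, each
with a translation `dl ℓ S`; optionally it reads one column (only one label allowed there); `tw ℓ`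
is the twist of the row. -/
structure Net (p b : ℕ) where
  Sec : Type
  Row : Type
  instS : Fintype Sec
  instR : Fintype Row
  inc : Row → Finset Sec
  dl : Row → Sec → Fin p → Sg b
  rd : Row → Option (Fin p × Sg b)
  tw : Row → ZMod 2
  inc_ne : ∀ ℓ, (inc ℓ).Nonempty
  dl_sum : ∀ ℓ S, ∑ j, dl ℓ S j = 0

attribute [instance] Net.instS Net.instR

namespace Net

variable {p b : ℕ} (N : Net p b)

/-- A block = one equation of a row: column `col`, incoming state `st`, label `lab`. -/
@[ext] structure Bk where
  row : N.Row
  col : Fin p
  st : Sg b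
  lab : Sg b
  allowed : ∀ i σ, N.rd row = some (i, σ) → i = col → lab = σ
  first : col.val = 0 → st = 0
  last : col.val + 1 = p → st + lab = 0

lemma Bk.finite : Finite N.Bk :=
  Finite.of_injective (fun e : N.Bk => (e.row, e.col, e.st, e.lab)) (by
    intro u u' h
    simp only [Prod.mk.injEq] at h
    exact Bk.ext h.1 h.2.1 h.2.2.1 h.2.2.2)

instance : Fintype N.Bk := @Fintype.ofFinite _ (Bk.finite N)

/-- The variables: wires `(S, j, v)` and rails `(ℓ, j, t)` (the output of column `j` of row `ℓ`
in state `t`). -/
abbrev Var : Type := (N.Sec × Fin p × Sg b) ⊕ (N.Row × Fin p × Sg b)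

variable {N}

/-- The wire variable. -/
def wire (S : N.Sec) (j : Fin p) (v : Sg b) : N.Var := Sum.inl (S, j, v)

/-- The rail variable. -/
def rail (ℓ : N.Row) (j : Fin p) (t : Sg b) : N.Var := Sum.inr (ℓ, j, t)

/-- The wires of a block: one at each incident section. -/
def Bk.wires (e : N.Bk) : Finset N.Var :=
  (N.inc e.row).image (fun S => wire S e.col (e.lab + N.dl e.row S e.col))

/-- The outgoing rail of a block (none in the last column). -/
def Bk.outRail (e : N.Bk) : Finset N.Var :=
  if e.col.val + 1 < p then {rail e.row e.col (e.st + e.lab)} else ∅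

/-- The incoming rail of a block (none in the first column). -/
def Bk.inRail (e : N.Bk) : Finset N.Var :=
  if h : 0 < e.col.val then
    {rail e.row ⟨e.col.val - 1, by have := e.col.isLt; omega⟩ e.st} else ∅

/-- The variables of a block. -/
def Bk.vars (e : N.Bk) : Finset N.Var := e.wires ∪ e.outRail ∪ e.inRail

/-- The right-hand side of a block: the twist in the first column. -/
def Bk.rhs (e : N.Bk) : ZMod 2 := if e.col.val = 0 then N.tw e.row else 0

variable (N)

/-- A numbering of the blocks. -/
abbrev Num : Type := N.Bk ≃ Fin (Fintype.card N.Bk)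

/-- The XOR system of a net. -/
def sys (ν : N.Num) : XorSys where
  Var := N.Var
  Eqn := N.Bk
  instV := inferInstance
  instE := inferInstance
  vars := Bk.vars
  rhs := Bk.rhs
  num := ν

end Net

end

end Vale.Agent.Lib.P310.N
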