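import Vale.Agent.Lib.P310.N.XorCard

namespace Vale.Agent.Lib.P310.N

open scoped Classical
open Finset

noncomputable section

namespace XorSys

variable {X : XorSys}

/-- The fiber of a vertex (a leaf lies in the fiber of its parent). -/
def fibOf {c : ZMod 2} : X.Vtx c → X.Eqn
  | Sum.inl u => u.e
  | Sum.inr l => l.1.e

/-- `u'` is `u` shifted by `Θ`. -/
def RelB (Θ : X.Var → ZMod 2) (u : X.Vx 0) (u' : X.Vx 1) : Prop :=
  u'.e = u.e ∧ ∀ v, v ∈ X.vars u.e → u'.a v = u.a v + Θ v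

/-- The shift relation on all vertices. -/
def Rel (Θ : X.Var → ZMod 2) : X.Vtx 0 → X.Vtx 1 → Prop
  | Sum.inl u, Sum.inl u' => RelB Θ u u'
  | Sum.inr l, Sum.inr l' => RelB Θ l.1 l'.1 ∧ l.2.val = l'.2.val
  | _, _ => False

lemma RelB.eq_iff {Θ : X.Var → ZMod 2} {u y : X.Vx 0} {u' y' : X.Vx 1}
    (h1 : RelB Θ u u') (h2 : RelB Θ y y') : u = y ↔ u' = y' := by
  constructor
  · rintro rfl
    apply Vx.ext
    · rw [h1.1, h2.1]
    · funext v
      by_cases hv : v ∈ X.vars u.e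
      · rw [h1.2 v hv, h2.2 v hv]
      · rw [u'.supp v (by rwa [h1.1]), y'.supp v (by rwa [h2.1])]
  · rintro rfl
    have hf : u.e = y.e := h1.1.symm.trans h2.1
    apply Vx.ext hf
    funext v
    by_cases hv : v ∈ X.vars u.e
    · have e1 := h1.2 v hv
      have e2 := h2.2 v (by rwa [← hf])
      rw [e1] at e2
      exact add_right_cancel e2
    · rw [u.supp v hv, y.supp v (by rwa [← hf])]

lemma leaf_eq {c : ZMod 2} {l l' : Σ u : X.Vx c, Fin (X.mult u.e)} (h1 : l.1 = l'.1)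
    (h2 : l.2.val = l'.2.val) : l = l' := by
  obtain ⟨u, n⟩ := l
  obtain ⟨u', n'⟩ := l'
  simp only at h1 h2
  subst h1
  have : n = n' := Fin.ext h2
  rw [this]

lemma Rel.eq_iff {Θ : X.Var → ZMod 2} {x y : X.Vtx 0} {x' y' : X.Vtx 1}
    (h1 : Rel Θ x x') (h2 : Rel Θ y y') : x = y ↔ x' = y' := by
  rcases x with u | l <;> rcases x' with u' | l' <;> rcases y with v | m <;>
    rcases y' with v' | m' <;> simp only [Rel] at h1 h2
  · have := RelB.eq_iff h1 h2
    simpa using this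
  · simp
  · simp
  · constructor
    · intro h
      have h' := Sum.inr_injective h
      subst h'
      congr 1
      apply leaf_eq
      · exact (RelB.eq_iff h1.1 h2.1).1 rfl
      · rw [← h1.2, ← h2.2]
    · intro h
      have h' := Sum.inr_injective h
      subst h'
      congr 1
      apply leaf_eq
      · exact (RelB.eq_iff h1.1 h2.1).2 rfl
      · rw [h1.2, h2.2]

lemma Rel.adj_iff {Θ : X.Var → ZMod 2} {x y : X.Vtx 0} {x' y' : X.Vtx 1}
    (h1 : Rel Θ x x') (h2 : Rel Θ y y') : (X.Gr 0).Adj x y ↔ (X.Gr 1).Adj x' y' := by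
  rcases x with u | l <;> rcases x' with u' | l' <;> rcases y with v | m <;>
    rcases y' with v' | m' <;> simp only [Rel] at h1 h2
  · change X.baseAdj u v ↔ X.baseAdj u' v'
    unfold baseAdj
    rw [h1.1, h2.1]
    apply and_congr_right
    intro _
    apply forall_congr'
    intro z
    apply forall_congr'
    intro hz1
    apply forall_congr'
    intro hz2
    rw [h1.2 z hz1, h2.2 z hz2]
    exact (add_left_inj _).symm
  · change m.1 = u ↔ m'.1 = u'
    rw [RelB.eq_iff h2.1 h1]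
  · change l.1 = v ↔ l'.1 = v'
    rw [RelB.eq_iff h1.1 h2]
  · exact Iff.rfl

lemma Rel.fib_eq {Θ : X.Var → ZMod 2} {x : X.Vtx 0} {x' : X.Vtx 1}
    (h : Rel Θ x x') : fibOf x' = fibOf x := by
  rcases x with u | l <;> rcases x' with u' | l' <;> simp only [Rel] at h
  · exact h.1
  · exact h.1.1

lemma Rel.congr {Θ Θ' : X.Var → ZMod 2} {x : X.Vtx 0} {x' : X.Vtx 1}
    (h : Rel Θ x x') (hag : ∀ v, v ∈ X.vars (fibOf x) → Θ' v = Θ v) :
    Rel Θ' x x' := by
  rcases x with u | l <;> rcases x' with u' | l' <;> simp only [Rel] at h ⊢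
  · exact ⟨h.1, fun v hv => by rw [h.2 v hv, hag v hv]⟩
  · exact ⟨⟨h.1.1, fun v hv => by rw [h.1.2 v hv, hag v hv]⟩, h.2⟩

/-- A base vertex can be shifted if its parity is matched. -/
lemma exists_shiftB (Θ : X.Var → ZMod 2) (u : X.Vx 0)
    (hpar : ∑ v ∈ X.vars u.e, Θ v = X.rhs u.e) : ∃ u' : X.Vx 1, RelB Θ u u' := by
  refine ⟨⟨u.e, fun v => if v ∈ X.vars u.e then u.a v + Θ v else 0, ?_, ?_⟩, rfl, ?_⟩
  · intro v hv
    simp [hv]
  · have h0 := u.par
    have e : ∑ v ∈ X.vars u.e, (if v ∈ X.vars u.e then u.a v + Θ v else 0) =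
        ∑ v ∈ X.vars u.e, (u.a v + Θ v) :=
      Finset.sum_congr rfl (fun v hv => by simp [hv])
    simp only [zero_mul] at h0
    rw [e, Finset.sum_add_distrib, h0, hpar]
    simp
  · intro v hv
    simp [hv]

lemma exists_shift (Θ : X.Var → ZMod 2) (x : X.Vtx 0)
    (hpar : ∑ v ∈ X.vars (fibOf x), Θ v = X.rhs (fibOf x)) :
    ∃ x' : X.Vtx 1, Rel Θ x x' := by
  rcases x with u | ⟨u, n⟩
  · obtain ⟨u', hu'⟩ := exists_shiftB Θ u hpar
    exact ⟨Sum.inl u', hu'⟩
  · obtain ⟨u', hu'⟩ := exists_shiftB Θ u hpar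
    have hm : X.mult u.e = X.mult u'.e := by rw [hu'.1]
    exact ⟨Sum.inr ⟨u', ⟨n.val, hm ▸ n.isLt⟩⟩, hu', rfl⟩

/-- The Duplicator relation on tuples. -/
def Dup {k t : ℕ} (D : X.DupFamily k) (x : Fin t → X.Vtx 0) (x' : Fin t → X.Vtx 1) : Prop :=
  ∃ Θ : X.Var → ZMod 2, Θ ∈ D.F (Finset.univ.image (fun s => fibOf (x s))) ∧
    ∀ s, Rel Θ (x s) (x' s)

lemma Dup.atomic {k t : ℕ} {D : X.DupFamily k} {x : Fin t → X.Vtx 0} {x' : Fin t → X.Vtx 1}
    (h : Dup D x x') : atomicType (X.Gr 0) x = atomicType (X.Gr 1) x' := by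
  obtain ⟨Θ, -, hR⟩ := h
  funext i j
  simp only [atomicType]
  have h1 := Rel.eq_iff (hR i) (hR j)
  have h2 := Rel.adj_iff (hR i) (hR j)
  exact Prod.ext (decide_eq_decide.2 h1) (decide_eq_decide.2 h2)

lemma Dup.step (hne : ∀ e, (X.vars e).Nonempty) {k : ℕ} {D : X.DupFamily k}
    {x : Fin k → X.Vtx 0} {x' : Fin k → X.Vtx 1} (h : Dup D x x') :
    ∃ f : X.Vtx 0 → X.Vtx 1, Function.Bijective f ∧
      ∀ y i, Dup D (Function.update x i y) (Function.update x' i (f y)) := by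
  obtain ⟨Θ, hV, hR⟩ := h
  set P := Finset.univ.image (fun s => fibOf (x s)) with hPdef
  have hP : P.card ≤ k := by
    have := Finset.card_image_le (s := (Finset.univ : Finset (Fin k)))
      (f := fun s => fibOf (x s))
    simpa using this
  have hext := fun φ => D.forth hP hV φ
  choose T hT hag using hext
  have hpar : ∀ y : X.Vtx 0, ∑ v ∈ X.vars (fibOf y), T (fibOf y) v = X.rhs (fibOf y) := fun y =>
    D.eqs (hT _) _ (Finset.mem_insert_self _ _)
  have hex : ∀ y : X.Vtx 0, ∃ y' : X.Vtx 1, Rel (T (fibOf y)) y y' := fun y =>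
    exists_shift _ y (hpar y)
  choose f hf using hex
  have hinj : Function.Injective f := by
    intro a b hab
    have h1 := Rel.fib_eq (hf a)
    have h2 := Rel.fib_eq (hf b)
    rw [hab] at h1
    have hfib : fibOf a = fibOf b := h1.symm.trans h2
    have h3 := hf a
    rw [hfib] at h3
    exact (Rel.eq_iff h3 (hf b)).2 hab
  have hbij : Function.Bijective f := by
    rw [Fintype.bijective_iff_injective_and_card]
    exact ⟨hinj, (card_vtx_eq X hne).symm⟩
  refine ⟨f, hbij, fun y i => ⟨T (fibOf y), ?_, fun s => ?_⟩⟩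
  · refine D.mono ?_ (hT (fibOf y))
    intro φ hφ
    simp only [Finset.mem_image, Finset.mem_univ, true_and] at hφ
    obtain ⟨s, rfl⟩ := hφ
    by_cases hs : s = i
    · subst hs
      simp
    · rw [Function.update_of_ne hs]
      apply Finset.mem_insert_of_mem
      exact Finset.mem_image.2 ⟨s, Finset.mem_univ _, rfl⟩
  · by_cases hs : s = i
    · subst hs
      simpa using hf y
    · rw [Function.update_of_ne hs, Function.update_of_ne hs]
      apply Rel.congr (hR s)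
      apply hag
      exact Finset.mem_image.2 ⟨s, Finset.mem_univ _, rfl⟩

lemma Dup.eqAt (hne : ∀ e, (X.vars e).Nonempty) {k : ℕ} {D : X.DupFamily k} (r : ℕ) :
    ∀ {x : Fin k → X.Vtx 0} {x' : Fin k → X.Vtx 1}, Dup D x x' →
      EqAt (X.Gr 0) (X.Gr 1) r x x' := by
  induction r with
  | zero =>
    intro x x' h
    exact h.atomic
  | succ r ih =>
    intro x x' h
    obtain ⟨f, hf, hD⟩ := Dup.step hne h
    have h1 : EqAt (X.Gr 0) (X.Gr 1) r x x' := ih h
    unfold EqAt at h1 ⊢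
    simp only [wlColor]
    rw [h1]
    congr 1
    let e := Equiv.ofBijective f hf
    have h2 : (Finset.univ : Finset (X.Vtx 1)).val =
        (Finset.univ : Finset (X.Vtx 0)).val.map e := by
      rw [Multiset.map_univ_val_equiv]
    rw [h2, Multiset.map_map]
    apply Multiset.map_congr rfl
    intro y _
    funext i
    exact ih (hD y i)

/-- Duplicator's theorem (module X1): a family gives `k`-WL equivalence. -/
theorem wlEquiv_of_family (X : XorSys) (hne : ∀ e, (X.vars e).Nonempty) [Nonempty X.Eqn] {k : ℕ}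
    (D : X.DupFamily k) : WLEquiv k (X.Gr 0) (X.Gr 1) := by
  obtain ⟨Θ0, hΘ0⟩ := D.base
  obtain ⟨e0⟩ := ‹Nonempty X.Eqn›
  obtain ⟨Θ, hΘ, -⟩ := D.forth (U := ∅) (by simp) hΘ0 e0
  let y : X.Vtx 0 := X.zv e0
  have hy : fibOf y = e0 := rfl
  have hV : Θ ∈ D.F (Finset.univ.image (fun _ : Fin k => fibOf y)) := by
    refine D.mono ?_ hΘ
    intro φ hφ
    simp only [Finset.mem_image, Finset.mem_univ, true_and] at hφ
    obtain ⟨_, rfl⟩ := hφ
    simp [hy]
  have hpar : ∑ v ∈ X.vars (fibOf y), Θ v = X.rhs (fibOf y) :=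
    D.eqs hΘ _ (by simp [hy])
  obtain ⟨y', hy'⟩ := exists_shift Θ y hpar
  have hD : Dup D (fun _ : Fin k => y) (fun _ => y') := ⟨Θ, hV, fun _ => hy'⟩
  exact wlEquiv_of_pair (fun _ => y) (fun _ => y') (fun r => Dup.eqAt hne r hD)

end XorSys

end

end Vale.Agent.Lib.P310.N
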