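import Vale.Agent.Lib.P310.N.Forth
import Vale.Agent.Lib.P310.N.XorDup

namespace Vale.Agent.Lib.P310.N

open scoped Classical
open Finset

noncomputable section

namespace Net

variable {p b : ℕ} {N : Net p b}

/-- The zero state. -/
private def zeroState (N : Net p b) : N.State := ⟨fun _ _ => 0, fun _ => 0⟩

private lemma inE_empty {Kn : N.Sec → Frame p b → Prop} {κ : N.Sec → Frame p b → ZMod 2}
    (hp : 2 ≤ p) : InE Kn κ (∅ : Finset N.Bk) (zeroState N) := by
  refine ⟨?_, ?_⟩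
  · intro ℓ hℓ
    simp [rowsOf] at hℓ
  · intro S L _ hv
    obtain ⟨e, he, -⟩ := hv ⟨0, by omega⟩
    simp at he

private lemma inE_mono {Kn : N.Sec → Frame p b → Prop} {κ : N.Sec → Frame p b → ZMod 2}
    {U U' : Finset N.Bk} (h : U ⊆ U') {σ : N.State} (hσ : InE Kn κ U' σ) : InE Kn κ U σ := by
  refine ⟨?_, ?_⟩
  · intro ℓ hℓ
    exact hσ.1 ℓ (Finset.image_subset_image h hℓ)
  · intro S L hK hv
    exact hσ.2 S L hK (Visible.mono h hv)

private lemma vars_nonempty (e : N.Bk) : (e.vars).Nonempty := by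
  obtain ⟨S, hS⟩ := N.inc_ne e.row
  refine ⟨wire S e.col (e.lab + N.dl e.row S e.col), ?_⟩
  unfold Bk.vars Bk.wires
  simp only [Finset.mem_union, Finset.mem_image]
  exact Or.inl (Or.inl ⟨S, hS, rfl⟩)

variable (N)

/-- The Duplicator family of a good net. -/
private def dupFamily {Kn : N.Sec → Frame p b → Prop} {κ : N.Sec → Frame p b → ZMod 2}
    (ν : N.Num) (hG : N.Good Kn κ) : (N.sys ν).DupFamily p where
  F U := {Θ | ∃ σ : N.State, InE Kn κ U σ ∧ Θ = σ.theta}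
  base := ⟨(zeroState N).theta, zeroState N, inE_empty hG.hp, rfl⟩
  mono := by
    rintro U U' h Θ ⟨σ, hσ, rfl⟩
    exact ⟨σ, inE_mono h hσ, rfl⟩
  eqs := by
    rintro U Θ ⟨σ, hσ, rfl⟩ e he
    refine State.sum_vars σ hG.hp e ?_
    intro _
    exact hσ.1 e.row (Finset.mem_image_of_mem _ he)
  forth := by
    rintro U Θ hU ⟨σ, hσ, rfl⟩ e
    obtain ⟨σ', h1, h2⟩ := forth hG hU hσ e
    exact ⟨σ'.theta, ⟨σ', h1, rfl⟩, h2⟩

/-- (module S) Duplicator wins under the hypotheses. -/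
theorem wlEquiv_of_good {Kn : N.Sec → Frame p b → Prop} {κ : N.Sec → Frame p b → ZMod 2}
    (ν : N.Num)
    (hG : N.Good Kn κ) [Nonempty N.Bk] :
    WLEquiv p ((N.sys ν).Gr 0) ((N.sys ν).Gr 1) := by
  have : Nonempty (N.sys ν).Eqn := ‹Nonempty N.Bk›
  exact XorSys.wlEquiv_of_family (N.sys ν) (fun e => vars_nonempty e) (dupFamily N ν hG)

end Net

end

end Vale.Agent.Lib.P310.N
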