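import Vale.Agent.Lib.P310.N.NetDefs

/-!
Specifications of nets: hubs joined by long lines, source rows and T-rows (three incidences).
-/

namespace Vale.Agent.Lib.P310.N

open scoped Classical
open Finset

noncomputable section

/-- What a line does. -/
inductive LineOp (p b : ℕ)
  | plain
  | rd (j : Fin p) (s : Sg b)
  | wr (d : Fin p → Sg b)

/-- A specification. -/
structure Spec (p b : ℕ) where
  Hub : Type
  Ln : Type
  Tr : Type
  Src : Type
  instH : Fintype Hub
  instL : Fintype Ln
  instT : Fintype Tr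
  instS : Fintype Src
  top : Ln → Hub
  bot : Ln → Hub
  op : Ln → LineOp p b
  twd : Ln → ZMod 2
  srcHub : Src → Hub
  K : Tr → Hub
  A : Tr → Hub
  B : Tr → Hub
  wr_sum : ∀ l d, op l = LineOp.wr d → ∑ j, d j = 0

attribute [instance] Spec.instH Spec.instL Spec.instT Spec.instS

/-- The unit of length of a line. -/
def dd (p : ℕ) : ℕ := p + 2

/-- The number of rows of a line. -/
def len (p : ℕ) : ℕ := 5 * dd p

namespace Spec

variable {p b : ℕ} (Sp : Spec p b)

/-- Sections: hubs and the interior sections of the lines. -/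
abbrev Sec : Type := Sp.Hub ⊕ (Sp.Ln × Fin (len p - 1))

/-- Rows: source rows, T-rows, line rows. -/
abbrev Row : Type := Sp.Src ⊕ Sp.Tr ⊕ (Sp.Ln × Fin (len p))

/-- The section number `t` of a line (`0` the top hub, `len p` the bottom hub). -/
def sc (l : Sp.Ln) (t : ℕ) : Sp.Sec :=
  if h0 : t = 0 then Sum.inl (Sp.top l)
  else if h : t < len p then Sum.inr (l, ⟨t - 1, by omega⟩)
  else Sum.inl (Sp.bot l)

/-- The incident sections of a row. -/
def rinc : Sp.Row → Finset Sp.Sec
  | Sum.inl s => {Sum.inl (Sp.srcHub s)}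
  | Sum.inr (Sum.inl t) => {Sum.inl (Sp.K t), Sum.inl (Sp.A t), Sum.inl (Sp.B t)}
  | Sum.inr (Sum.inr (l, t)) => {Sp.sc l t.val, Sp.sc l (t.val + 1)}

/-- The translations: a write line translates at its row `dd p`, at the lower section. -/
def rdl : Sp.Row → Sp.Sec → Fin p → Sg b
  | Sum.inr (Sum.inr (l, t)), S, j =>
    match Sp.op l with
    | LineOp.wr d => if t.val = dd p ∧ S = Sp.sc l (t.val + 1) then d j else 0
    | _ => 0
  | _, _, _ => 0

/-- The reads: a read line reads in its rows from `dd p` up to `4 * dd p`. -/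
def rrd : Sp.Row → Option (Fin p × Sg b)
  | Sum.inr (Sum.inr (l, t)) =>
    match Sp.op l with
    | LineOp.rd j s => if dd p ≤ t.val ∧ t.val < 4 * dd p then some (j, s) else none
    | _ => none
  | _ => none

/-- The twists: only on the last row of a twisted line. -/
def rtw : Sp.Row → ZMod 2
  | Sum.inr (Sum.inr (l, t)) => if t.val + 1 = len p then Sp.twd l else 0
  | _ => 0

/-- (module P) Incidence sets are nonempty. -/
lemma rinc_ne (ℓ : Sp.Row) : (Sp.rinc ℓ).Nonempty := by
  rcases ℓ with s | t | ⟨l, t⟩ <;> simp [rinc]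

/-- (module P) Translations sum to zero. -/
lemma rdl_sum (ℓ : Sp.Row) (S : Sp.Sec) : ∑ j, Sp.rdl ℓ S j = 0 := by
  rcases ℓ with s | t | ⟨l, t⟩
  · simp [rdl]
  · simp [rdl]
  · simp only [rdl]
    split
    · rename_i d hd
      by_cases hc : t.val = dd p ∧ S = Sp.sc l (t.val + 1)
      · simp only [hc, and_self, if_true]
        exact Sp.wr_sum l d hd
      · simp [hc]
    · simp

/-- The net of a specification. -/
def net : Net p b where
  Sec := Sp.Sec
  Row := Sp.Row
  instS := inferInstance
  instR := inferInstance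
  inc := Sp.rinc
  dl := Sp.rdl
  rd := Sp.rrd
  tw := Sp.rtw
  inc_ne := Sp.rinc_ne
  dl_sum := Sp.rdl_sum

end Spec

end

end Vale.Agent.Lib.P310.N
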