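import Vale.Agent.Lib.P310.N.SpecMore

/-! (module P) Structure lemmas of the net of a specification: potentials, leaves, no short cycles. -/

namespace Vale.Agent.Lib.P310.N

open scoped Classical
open Finset

set_option linter.unusedSectionVars false

noncomputable section

namespace Spec

variable {p b : ℕ} (Sp : Spec p b) [Sp.Ok]

lemma len_pos' : 0 < len p := by unfold len dd; omega

lemma sc_zero (l : Sp.Ln) : Sp.sc l 0 = Sum.inl (Sp.top l) := by simp [sc]

lemma sc_int (l : Sp.Ln) {t : ℕ} (h0 : 0 < t) (h : t < len p) :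
    Sp.sc l t = Sum.inr (l, ⟨t - 1, by omega⟩) := by
  simp [sc, h0.ne', h]

lemma sc_bot (l : Sp.Ln) {t : ℕ} (h : len p ≤ t) : Sp.sc l t = Sum.inl (Sp.bot l) := by
  have h0 : t ≠ 0 := by have := len_pos' (p := p); omega
  simp [sc, h0, not_lt.2 h]

lemma sc_eq_int (l l' : Sp.Ln) {t x : ℕ} (hx0 : 0 < x) (hx : x < len p)
    (h : Sp.sc l' t = Sp.sc l x) : l' = l ∧ t = x := by
  rw [Sp.sc_int l hx0 hx] at h
  rcases Nat.eq_zero_or_pos t with rfl | ht0
  · rw [sc_zero] at h; cases h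
  · by_cases ht : t < len p
    · rw [Sp.sc_int l' ht0 ht] at h
      simp only [Sum.inr.injEq, Prod.mk.injEq, Fin.mk.injEq] at h
      exact ⟨h.1, by omega⟩
    · rw [Sp.sc_bot l' (not_lt.1 ht)] at h; cases h

lemma sc_eq_hub (l : Sp.Ln) {t : ℕ} {u : Sp.Hub} (h : Sp.sc l t = Sum.inl u) :
    (t = 0 ∧ Sp.top l = u) ∨ (len p ≤ t ∧ Sp.bot l = u) := by
  rcases Nat.eq_zero_or_pos t with rfl | ht0
  · rw [sc_zero] at h
    left; exact ⟨rfl, by simpa using h⟩
  · by_cases ht : t < len p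
    · rw [Sp.sc_int l ht0 ht] at h; cases h
    · rw [Sp.sc_bot l (not_lt.1 ht)] at h
      right; exact ⟨not_lt.1 ht, by simpa using h⟩

lemma mem_rinc_line (l : Sp.Ln) (t : Fin (len p)) (S : Sp.Sec) :
    S ∈ Sp.rinc (Sum.inr (Sum.inr (l, t))) ↔ S = Sp.sc l t.val ∨ S = Sp.sc l (t.val + 1) := by
  simp [rinc]

lemma sc_ne_succ (l : Sp.Ln) {t : ℕ} (h : t < len p) : Sp.sc l t ≠ Sp.sc l (t + 1) := by
  intro he
  by_cases h1 : t + 1 < len p
  · have := Sp.sc_eq_int l l (Nat.succ_pos t) h1 he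
    omega
  · rw [Sp.sc_bot l (not_lt.1 h1)] at he
    have h2 : 0 < t := by
      have : 10 ≤ len p := by unfold len dd; omega
      omega
    rw [Sp.sc_int l h2 h] at he
    cases he

/-- The rows containing an interior section. -/
lemma rows_of_int (l : Sp.Ln) {x : ℕ} (hx0 : 0 < x) (hx : x < len p) (ℓ : Sp.Row)
    (hS : Sp.sc l x ∈ Sp.rinc ℓ) :
    ∃ t : Fin (len p), ℓ = Sum.inr (Sum.inr (l, t)) ∧ (t.val = x ∨ t.val + 1 = x) := by
  rw [Sp.sc_int l hx0 hx] at hS
  rcases ℓ with s | t | ⟨l', t⟩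
  · simp [rinc] at hS
  · simp [rinc] at hS
  · rw [mem_rinc_line, ← Sp.sc_int l hx0 hx] at hS
    rcases hS with h | h
    · obtain ⟨h1, h2⟩ := Sp.sc_eq_int l l' hx0 hx h.symm
      exact ⟨t, by rw [h1], Or.inl h2⟩
    · obtain ⟨h1, h2⟩ := Sp.sc_eq_int l l' hx0 hx h.symm
      exact ⟨t, by rw [h1], Or.inr h2⟩

lemma exists_missing (R : Finset Sp.Row) (l : Sp.Ln) (a m : ℕ) (hR : R.card ≤ m)
    (ha : a + m + 1 ≤ len p) :
    ∃ t, ∃ h : t < len p, a ≤ t ∧ t ≤ a + m ∧ (Sum.inr (Sum.inr (l, ⟨t, h⟩)) : Sp.Row) ∉ R := by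
  by_contra hcon
  push Not at hcon
  let f : ℕ → Sp.Row := fun t =>
    if h : t < len p then Sum.inr (Sum.inr (l, ⟨t, h⟩))
    else Sum.inr (Sum.inr (l, ⟨0, len_pos'⟩))
  have hle : (Finset.Icc a (a + m)).card ≤ R.card := by
    refine Finset.card_le_card_of_injOn f ?_ ?_
    · intro t ht
      have ht' := Finset.mem_coe.1 ht
      rw [Finset.mem_Icc] at ht'
      have h : t < len p := by omega
      simp only [f, dif_pos h]
      exact Finset.mem_coe.2 (hcon t h ht'.1 ht'.2)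
    · intro t ht t' ht' he
      have h1 := Finset.mem_Icc.1 (Finset.mem_coe.1 ht)
      have h2 := Finset.mem_Icc.1 (Finset.mem_coe.1 ht')
      have h3 : t < len p := by omega
      have h4 : t' < len p := by omega
      simp only [f, dif_pos h3, dif_pos h4] at he
      simpa using he
  rw [Nat.card_Icc] at hle
  omega

lemma sg_add_self (x : Sg b) : x + x = 0 := by
  funext i
  exact CharTwo.add_self_eq_zero (x i)

/-- The least missing row below the write row. -/
lemma exists_D (R : Finset Sp.Row) (hR : R.card ≤ p + 1) (l : Sp.Ln) :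
    ∃ t, dd p < t ∧ ∃ h : t < len p, (Sum.inr (Sum.inr (l, ⟨t, h⟩)) : Sp.Row) ∉ R := by
  obtain ⟨t, h, h1, _, h3⟩ := Sp.exists_missing R l (dd p + 1) (p + 1) hR (by unfold len dd; omega)
  exact ⟨t, by omega, h, h3⟩

theorem pot_aux (R : Finset Sp.Row) (hR : R.card ≤ p + 1) :
    ∃ g : Sp.Sec → Fin p → Sg b, (∀ S, ∑ j, g S j = 0) ∧
      ∀ ℓ ∈ R, ∀ S ∈ Sp.rinc ℓ, ∀ S' ∈ Sp.rinc ℓ, ∀ j,
        g S j + Sp.rdl ℓ S j = g S' j + Sp.rdl ℓ S' j := by
  let D : Sp.Ln → ℕ := fun l => Nat.find (Sp.exists_D R hR l)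
  have hD : ∀ l, dd p < D l ∧ ∃ h : D l < len p, (Sum.inr (Sum.inr (l, ⟨D l, h⟩)) : Sp.Row) ∉ R :=
    fun l => Nat.find_spec (Sp.exists_D R hR l)
  let w : Sp.Ln → ℕ → Fin p → Sg b := fun l x j =>
    match Sp.op l with
    | LineOp.wr d => if dd p < x ∧ x ≤ D l then d j else 0
    | _ => 0
  let g : Sp.Sec → Fin p → Sg b := fun S j =>
    match S with
    | Sum.inl _ => 0
    | Sum.inr (l, i) => w l (i.val + 1) j
  have hw0 : ∀ l j, w l 0 j = 0 := by
    intro l j
    simp only [w]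
    split
    · simp
    · rfl
  have hwlen : ∀ l j x, len p ≤ x → w l x j = 0 := by
    intro l j x hx
    simp only [w]
    split
    · have := (hD l).2.choose
      rw [if_neg]
      omega
    · rfl
  have hgsc : ∀ l x j, g (Sp.sc l x) j = w l x j := by
    intro l x j
    rcases Nat.eq_zero_or_pos x with rfl | h0
    · rw [sc_zero, hw0]
    · by_cases hx : x < len p
      · rw [Sp.sc_int l h0 hx]
        show w l (x - 1 + 1) j = w l x j
        rw [Nat.sub_add_cancel h0]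
      · rw [Sp.sc_bot l (not_lt.1 hx), hwlen l j x (not_lt.1 hx)]
  refine ⟨g, ?_, ?_⟩
  · intro S
    rcases S with u | ⟨l, i⟩
    · simp [g]
    · show ∑ j, w l (i.val + 1) j = 0
      simp only [w]
      split
      · rename_i d hd
        split_ifs with hc
        · exact Sp.wr_sum l d hd
        · simp
      · simp
  · -- the local check at a line row, for the pair (upper, lower)
    have key : ∀ (l : Sp.Ln) (t : Fin (len p)), (Sum.inr (Sum.inr (l, t)) : Sp.Row) ∈ R → ∀ j,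
        g (Sp.sc l t.val) j + Sp.rdl (Sum.inr (Sum.inr (l, t))) (Sp.sc l t.val) j =
          g (Sp.sc l (t.val + 1)) j + Sp.rdl (Sum.inr (Sum.inr (l, t))) (Sp.sc l (t.val + 1)) j := by
      intro l t ht j
      rw [hgsc, hgsc]
      have hne := Sp.sc_ne_succ l t.isLt
      cases hop : Sp.op l with
      | plain => simp [rdl, w, hop]
      | rd a s => simp [rdl, w, hop]
      | wr d =>
        simp only [rdl, w, hop]
        have e1 : ¬ (t.val = dd p ∧ Sp.sc l t.val = Sp.sc l (t.val + 1)) := fun h => hne h.2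
        rw [if_neg e1]
        have hDl := (hD l).1
        have hDne : t.val ≠ D l := by
          intro h
          obtain ⟨h1, h2⟩ := (hD l).2
          apply h2
          have : (⟨D l, h1⟩ : Fin (len p)) = t := by
            apply Fin.ext
            exact h.symm
          rw [this]
          exact ht
        by_cases h1 : t.val < dd p
        · rw [if_neg (by omega), if_neg (by omega), if_neg (by simp; omega)]
        · by_cases h2 : t.val = dd p
          · rw [if_neg (by omega), if_pos (by omega), if_pos (by simp [h2])]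
            simp [sg_add_self]
          · by_cases h3 : t.val < D l
            · rw [if_pos (by omega), if_pos (by omega), if_neg (by simp; omega)]
            · rw [if_neg (by omega), if_neg (by omega), if_neg (by simp; omega)]
    intro ℓ hℓ S hS S' hS' j
    rcases ℓ with s | t | ⟨l, t⟩
    · simp only [rinc, Finset.mem_singleton] at hS hS'
      rw [hS, hS']
    · have hg : ∀ X ∈ Sp.rinc (Sum.inr (Sum.inl t)), g X j = 0 := by
        intro X hX
        simp only [rinc, Finset.mem_insert, Finset.mem_singleton] at hX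
        rcases hX with rfl | rfl | rfl <;> rfl
      rw [hg S hS, hg S' hS']
      simp [rdl]
    · rw [mem_rinc_line] at hS hS'
      have hk := key l t hℓ j
      rcases hS with rfl | rfl <;> rcases hS' with rfl | rfl
      · rfl
      · exact hk
      · exact hk.symm
      · rfl

/-- Potentials exist for small sets of rows. -/
theorem net_pot (R : Finset Sp.net.Row) (hR : R.card ≤ p + 1) : ∃ g, Net.Pot R g := by
  obtain ⟨g, h1, h2⟩ := Sp.pot_aux R hR
  exact ⟨g, h1, h2⟩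

theorem leaf_aux (R : Finset Sp.Row) (hR : R.card ≤ p + 1) (hne : R.Nonempty) :
    (∃ ℓ ∈ R, 2 ≤ (Sp.rinc ℓ).card ∧ ∀ S ∈ Sp.rinc ℓ, ∀ S' ∈ Sp.rinc ℓ,
        (∃ ℓ' ∈ R, ℓ' ≠ ℓ ∧ S ∈ Sp.rinc ℓ') → (∃ ℓ' ∈ R, ℓ' ≠ ℓ ∧ S' ∈ Sp.rinc ℓ') → S = S') ∨
      ((∀ ℓ ∈ R, (Sp.rinc ℓ).card = 1) ∧
        ∀ ℓ ∈ R, ∀ ℓ' ∈ R, ℓ ≠ ℓ' → Disjoint (Sp.rinc ℓ) (Sp.rinc ℓ')) := by
  by_cases hline : ∃ (l : Sp.Ln) (t : Fin (len p)), (Sum.inr (Sum.inr (l, t)) : Sp.Row) ∈ R
  · obtain ⟨l, t0, ht0⟩ := hline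
    left
    have hcard2 : ∀ t : Fin (len p), 2 ≤ (Sp.rinc (Sum.inr (Sum.inr (l, t)))).card := by
      intro t
      refine Finset.one_lt_card.2 ⟨Sp.sc l t.val, ?_, Sp.sc l (t.val + 1), ?_, Sp.sc_ne_succ l t.isLt⟩
      · rw [mem_rinc_line]; exact Or.inl rfl
      · rw [mem_rinc_line]; exact Or.inr rfl
    by_cases hup : ∃ t : Fin (len p), (Sum.inr (Sum.inr (l, t)) : Sp.Row) ∈ R ∧
        ∃ h : t.val + 1 < len p, (Sum.inr (Sum.inr (l, ⟨t.val + 1, h⟩)) : Sp.Row) ∉ R
    · obtain ⟨t, ht, h1, h2⟩ := hup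
      refine ⟨_, ht, hcard2 t, ?_⟩
      have hnot : ¬ ∃ ℓ' ∈ R, ℓ' ≠ (Sum.inr (Sum.inr (l, t)) : Sp.Row) ∧
          Sp.sc l (t.val + 1) ∈ Sp.rinc ℓ' := by
        rintro ⟨ℓ', hℓ', hne', hm⟩
        obtain ⟨t', rfl, h3⟩ := Sp.rows_of_int l (Nat.succ_pos _) h1 ℓ' hm
        rcases h3 with h3 | h3
        · apply h2
          have : (⟨t.val + 1, h1⟩ : Fin (len p)) = t' := Fin.ext h3.symm
          rw [this]; exact hℓ'
        · apply hne'
          have : t' = t := Fin.ext (by omega)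
          rw [this]
      intro S hS S' hS' h4 h5
      rw [mem_rinc_line] at hS hS'
      rcases hS with rfl | rfl
      · rcases hS' with rfl | rfl
        · rfl
        · exact absurd h5 hnot
      · exact absurd h4 hnot
    · push Not at hup
      have hex : ∃ x, ∃ h : x < len p, (Sum.inr (Sum.inr (l, ⟨x, h⟩)) : Sp.Row) ∈ R :=
        ⟨t0.val, t0.isLt, ht0⟩
      let x0 := Nat.find hex
      obtain ⟨hx0, hx0R⟩ : ∃ h : x0 < len p, (Sum.inr (Sum.inr (l, ⟨x0, h⟩)) : Sp.Row) ∈ R :=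
        Nat.find_spec hex
      have hmin : ∀ y, y < x0 → ∀ h : y < len p, (Sum.inr (Sum.inr (l, ⟨y, h⟩)) : Sp.Row) ∉ R := by
        intro y hy h hm
        exact Nat.find_min hex hy ⟨h, hm⟩
      rcases Nat.eq_zero_or_pos x0 with h00 | hpos
      · exfalso
        have hall : ∀ y, ∀ h : y < len p, (Sum.inr (Sum.inr (l, ⟨y, h⟩)) : Sp.Row) ∈ R := by
          intro y
          induction y with
          | zero =>
            intro h
            have : (⟨0, h⟩ : Fin (len p)) = ⟨x0, hx0⟩ := Fin.ext h00.symm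
            rw [this]; exact hx0R
          | succ y ih =>
            intro h
            exact hup ⟨y, by omega⟩ (ih (by omega)) h
        obtain ⟨t, h, _, _, h3⟩ := Sp.exists_missing R l 0 (p + 1) hR (by unfold len dd; omega)
        exact h3 (hall t h)
      · refine ⟨_, hx0R, hcard2 ⟨x0, hx0⟩, ?_⟩
        have hnot : ¬ ∃ ℓ' ∈ R, ℓ' ≠ (Sum.inr (Sum.inr (l, ⟨x0, hx0⟩)) : Sp.Row) ∧
            Sp.sc l x0 ∈ Sp.rinc ℓ' := by
          rintro ⟨ℓ', hℓ', hne', hm⟩
          obtain ⟨t', rfl, h3⟩ := Sp.rows_of_int l hpos hx0 ℓ' hm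
          rcases h3 with h3 | h3
          · apply hne'
            have : t' = ⟨x0, hx0⟩ := Fin.ext h3
            rw [this]
          · exact hmin t'.val (by omega) t'.isLt hℓ'
        intro S hS S' hS' h4 h5
        rw [mem_rinc_line] at hS hS'
        rcases hS with rfl | rfl
        · exact absurd h4 hnot
        · rcases hS' with rfl | rfl
          · exact absurd h5 hnot
          · rfl
  · push Not at hline
    by_cases hT : ∃ t : Sp.Tr, (Sum.inr (Sum.inl t) : Sp.Row) ∈ R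
    · obtain ⟨t, ht⟩ := hT
      left
      refine ⟨_, ht, ?_, ?_⟩
      · refine Finset.one_lt_card.2 ⟨Sum.inl (Sp.K t), ?_, Sum.inl (Sp.A t), ?_, ?_⟩
        · simp [rinc]
        · simp [rinc]
        · intro h; exact Sp.hKA t (by simpa using h)
      · have hnotA : ¬ ∃ ℓ' ∈ R, ℓ' ≠ (Sum.inr (Sum.inl t) : Sp.Row) ∧
            (Sum.inl (Sp.A t) : Sp.Sec) ∈ Sp.rinc ℓ' := by
          rintro ⟨ℓ', hℓ', hne', hm⟩
          rcases ℓ' with s | t' | ⟨l', t'⟩
          · simp only [rinc, Finset.mem_singleton, Sum.inl.injEq] at hm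
            exact Sp.A_src _ _ hm
          · simp only [rinc, Finset.mem_insert, Finset.mem_singleton, Sum.inl.injEq] at hm
            rcases hm with h | h | h
            · exact Sp.A_K _ _ h
            · exact hne' (by rw [Sp.A_inj _ _ h])
            · exact Sp.A_B _ _ h
          · exact hline _ _ hℓ'
        have hnotB : ¬ ∃ ℓ' ∈ R, ℓ' ≠ (Sum.inr (Sum.inl t) : Sp.Row) ∧
            (Sum.inl (Sp.B t) : Sp.Sec) ∈ Sp.rinc ℓ' := by
          rintro ⟨ℓ', hℓ', hne', hm⟩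
          rcases ℓ' with s | t' | ⟨l', t'⟩
          · simp only [rinc, Finset.mem_singleton, Sum.inl.injEq] at hm
            exact Sp.B_src _ _ hm
          · simp only [rinc, Finset.mem_insert, Finset.mem_singleton, Sum.inl.injEq] at hm
            rcases hm with h | h | h
            · exact Sp.B_K _ _ h
            · exact Sp.A_B _ _ h.symm
            · exact hne' (by rw [Sp.B_inj _ _ h])
          · exact hline _ _ hℓ'
        intro S hS S' hS' h4 h5
        simp only [rinc, Finset.mem_insert, Finset.mem_singleton] at hS hS'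
        rcases hS with rfl | rfl | rfl
        · rcases hS' with rfl | rfl | rfl
          · rfl
          · exact absurd h5 hnotA
          · exact absurd h5 hnotB
        · exact absurd h4 hnotA
        · exact absurd h4 hnotB
    · push Not at hT
      right
      have hsrc : ∀ ℓ ∈ R, ∃ s, ℓ = (Sum.inl s : Sp.Row) := by
        intro ℓ hℓ
        rcases ℓ with s | t | ⟨l, t⟩
        · exact ⟨s, rfl⟩
        · exact absurd hℓ (hT t)
        · exact absurd hℓ (hline l t)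
      constructor
      · intro ℓ hℓ
        obtain ⟨s, rfl⟩ := hsrc ℓ hℓ
        simp [rinc]
      · intro ℓ hℓ ℓ' hℓ' hne'
        obtain ⟨s, rfl⟩ := hsrc ℓ hℓ
        obtain ⟨s', rfl⟩ := hsrc ℓ' hℓ'
        simp only [rinc, Finset.disjoint_singleton, ne_eq, Sum.inl.injEq]
        intro h
        exact hne' (by rw [Sp.srcHub_inj _ _ h])

/-- Small sets of rows have leaves. -/
theorem net_leaf (R : Finset Sp.net.Row) (hR : R.card ≤ p + 1) (hne : R.Nonempty) :
    (∃ ℓ ∈ R, 2 ≤ (Sp.net.inc ℓ).card ∧ ∀ S ∈ Sp.net.inc ℓ, ∀ S' ∈ Sp.net.inc ℓ,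
        Net.Shared R ℓ S → Net.Shared R ℓ S' → S = S') ∨
      ((∀ ℓ ∈ R, (Sp.net.inc ℓ).card = 1) ∧
        ∀ ℓ ∈ R, ∀ ℓ' ∈ R, ℓ ≠ ℓ' → Disjoint (Sp.net.inc ℓ) (Sp.net.inc ℓ')) :=
  Sp.leaf_aux R hR hne

lemma trap (R : Finset Sp.net.Row) (P : Sp.Sec → Prop)
    (hc : ∀ S S', P S → ∀ ℓ ∈ R, S ∈ Sp.rinc ℓ → S' ∈ Sp.rinc ℓ → P S')
    {S S' : Sp.Sec} (hS : P S) (h : Net.Cl (N := Sp.net) R S S') : P S' := by
  unfold Net.Cl at h
  induction h with
  | refl => exact hS
  | tail _ hstep ih =>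
    obtain ⟨ℓ, hℓ, h1, h2⟩ := hstep
    exact hc _ _ ih ℓ hℓ h1 h2

lemma cl_symm (R : Finset Sp.net.Row) {S S' : Sp.Sec} (h : Net.Cl (N := Sp.net) R S S') :
    Net.Cl (N := Sp.net) R S' S := by
  unfold Net.Cl at h ⊢
  induction h with
  | refl => exact Relation.ReflTransGen.refl
  | tail _ hstep ih =>
    obtain ⟨ℓ, hℓ, h1, h2⟩ := hstep
    exact Relation.ReflTransGen.head ⟨ℓ, hℓ, h2, h1⟩ ih

/-- The line rows trap: a section band bounded by two absent rows is closed. -/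
lemma band_closed (R : Finset Sp.Row) (l : Sp.Ln) (lo hi : ℕ) (hhi : hi < len p)
    (hlo : ∀ h : lo < len p, (Sum.inr (Sum.inr (l, ⟨lo, h⟩)) : Sp.Row) ∉ R)
    (hhir : (Sum.inr (Sum.inr (l, ⟨hi, hhi⟩)) : Sp.Row) ∉ R)
    (S S' : Sp.Sec) (hS : ∃ x, lo < x ∧ x ≤ hi ∧ S = Sp.sc l x) (ℓ : Sp.Row) (hℓ : ℓ ∈ R)
    (h1 : S ∈ Sp.rinc ℓ) (h2 : S' ∈ Sp.rinc ℓ) : ∃ x, lo < x ∧ x ≤ hi ∧ S' = Sp.sc l x := by
  obtain ⟨x, hx1, hx2, rfl⟩ := hS
  obtain ⟨t, rfl, ht⟩ := Sp.rows_of_int l (by omega) (by omega) ℓ h1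
  rw [mem_rinc_line] at h2
  have hthi : t.val ≠ hi := by
    intro h
    apply hhir
    have : (⟨hi, hhi⟩ : Fin (len p)) = t := Fin.ext h.symm
    rw [this]; exact hℓ
  have htlo : t.val ≠ lo := by
    intro h
    apply hlo (by omega)
    have : (⟨lo, by omega⟩ : Fin (len p)) = t := Fin.ext h.symm
    rw [this]; exact hℓ
  rcases ht with ht | ht <;> rcases h2 with rfl | rfl
  · exact ⟨t.val, by omega, by omega, rfl⟩
  · exact ⟨t.val + 1, by omega, by omega, rfl⟩
  · exact ⟨t.val, by omega, by omega, rfl⟩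
  · exact ⟨t.val + 1, by omega, by omega, rfl⟩

lemma forest_line (R : Finset Sp.net.Row) (hR : R.card ≤ p) (l : Sp.Ln) (t : Fin (len p))
    (hℓ : (Sum.inr (Sum.inr (l, t)) : Sp.Row) ∉ R) :
    ¬ Net.Cl (N := Sp.net) R (Sp.sc l t.val) (Sp.sc l (t.val + 1)) := by
  intro hcl
  by_cases hsmall : t.val + p + 1 < len p
  · obtain ⟨d, hd, hd1, hd2, hd3⟩ := Sp.exists_missing R l (t.val + 1) p hR (by omega)
    have hc := Sp.trap R (fun S => ∃ x, t.val < x ∧ x ≤ d ∧ S = Sp.sc l x)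
      (fun S S' hS ℓ' hℓ' h1 h2 =>
        Sp.band_closed R l t.val d hd (fun _ => hℓ) hd3 S S' hS ℓ' hℓ' h1 h2)
      (S := Sp.sc l (t.val + 1)) (S' := Sp.sc l t.val)
      ⟨t.val + 1, by omega, by omega, rfl⟩ (Sp.cl_symm R hcl)
    obtain ⟨x, h1, h2, h3⟩ := hc
    have := (Sp.sc_eq_int l l (x := x) (t := t.val) (by omega) (by omega) h3).2
    omega
  · have hlen : 2 * p + 2 ≤ len p := by unfold len dd; omega
    have htt := t.isLt
    obtain ⟨c, hc0, hc1, hc2, hc3⟩ := Sp.exists_missing R l (t.val - p - 1) p hR (by omega)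
    have hc := Sp.trap R (fun S => ∃ x, c < x ∧ x ≤ t.val ∧ S = Sp.sc l x)
      (fun S S' hS ℓ' hℓ' h1 h2 =>
        Sp.band_closed R l c t.val t.isLt (fun _ => hc3) hℓ S S' hS ℓ' hℓ' h1 h2)
      (S := Sp.sc l t.val) (S' := Sp.sc l (t.val + 1))
      ⟨t.val, by omega, le_refl _, rfl⟩ hcl
    obtain ⟨x, h1, h2, h3⟩ := hc
    have := (Sp.sc_eq_int l l (x := x) (t := t.val + 1) (by omega) (by omega) h3).2
    omega

lemma forest_hub (R : Finset Sp.net.Row) (hR : R.card ≤ p) (u0 : Sp.Hub)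
    (hrows : ∀ ℓ ∈ (R : Finset Sp.Row), (Sum.inl u0 : Sp.Sec) ∈ Sp.rinc ℓ →
      ∃ (l' : Sp.Ln) (t' : Fin (len p)), ℓ = Sum.inr (Sum.inr (l', t')) ∧ t'.val + 1 = len p ∧
        Sp.bot l' = u0)
    (huniq : ∀ l l', Sp.bot l = u0 → Sp.bot l' = u0 → l = l') (u : Sp.Hub) (hu : u ≠ u0) :
    ¬ Net.Cl (N := Sp.net) R (Sum.inl u0) (Sum.inl u) := by
  intro hcl
  by_cases hl : ∃ l, Sp.bot l = u0
  · obtain ⟨l, rfl⟩ := hl
    obtain ⟨c, hc0, hc1, hc2, hc3⟩ :=
      Sp.exists_missing R l (len p - p - 1) p hR (by unfold len dd; omega)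
    have hlen : 2 * p + 2 ≤ len p := by unfold len dd; omega
    have hP := Sp.trap R (fun S => ∃ x, c < x ∧ x ≤ len p ∧ S = Sp.sc l x)
      (by
        rintro S S' ⟨x, hx1, hx2, rfl⟩ ℓ hℓ h1 h2
        by_cases hxl : x < len p
        · obtain ⟨t, rfl, ht⟩ := Sp.rows_of_int l (by omega) hxl ℓ h1
          rw [mem_rinc_line] at h2
          have htc : t.val ≠ c := by
            intro h
            apply hc3
            have : (⟨c, hc0⟩ : Fin (len p)) = t := Fin.ext h.symm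
            rw [this]; exact hℓ
          have htt := t.isLt
          rcases ht with ht | ht <;> rcases h2 with rfl | rfl
          · exact ⟨t.val, by omega, by omega, rfl⟩
          · exact ⟨t.val + 1, by omega, by omega, rfl⟩
          · exact ⟨t.val, by omega, by omega, rfl⟩
          · exact ⟨t.val + 1, by omega, by omega, rfl⟩
        · have hxe : x = len p := by omega
          subst hxe
          rw [Sp.sc_bot l (le_refl _)] at h1
          obtain ⟨l', t', rfl, h3, h4⟩ := hrows ℓ hℓ h1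
          obtain rfl := huniq _ _ h4 rfl
          rw [mem_rinc_line] at h2
          have htc : t'.val ≠ c := by
            intro h
            apply hc3
            have : (⟨c, hc0⟩ : Fin (len p)) = t' := Fin.ext h.symm
            rw [this]; exact hℓ
          rcases h2 with rfl | rfl
          · exact ⟨t'.val, by omega, by omega, rfl⟩
          · exact ⟨t'.val + 1, by omega, by omega, rfl⟩)
      (S := Sum.inl (Sp.bot l)) (S' := Sum.inl u)
      ⟨len p, by omega, le_refl _, (Sp.sc_bot l (le_refl _)).symm⟩ hcl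
    obtain ⟨x, h1, h2, h3⟩ := hP
    rcases Sp.sc_eq_hub l h3.symm with ⟨h4, _⟩ | ⟨_, h4⟩
    · omega
    · exact hu h4.symm
  · have hP := Sp.trap R (fun S => S = Sum.inl u0)
      (by
        rintro S S' rfl ℓ hℓ h1 h2
        obtain ⟨l', t', _, _, h4⟩ := hrows ℓ hℓ h1
        exact absurd ⟨l', h4⟩ hl)
      (S := Sum.inl u0) (S' := Sum.inl u) rfl hcl
    exact hu (by simpa using hP)

lemma hubrows_A (R : Finset Sp.Row) (t : Sp.Tr) (ht : (Sum.inr (Sum.inl t) : Sp.Row) ∉ R) :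
    ∀ ℓ ∈ R, (Sum.inl (Sp.A t) : Sp.Sec) ∈ Sp.rinc ℓ →
      ∃ (l' : Sp.Ln) (t' : Fin (len p)), ℓ = Sum.inr (Sum.inr (l', t')) ∧ t'.val + 1 = len p ∧
        Sp.bot l' = Sp.A t := by
  intro ℓ hℓ hm
  rcases ℓ with s | t' | ⟨l', t'⟩
  · simp only [rinc, Finset.mem_singleton, Sum.inl.injEq] at hm
    exact absurd hm (Sp.A_src _ _)
  · simp only [rinc, Finset.mem_insert, Finset.mem_singleton, Sum.inl.injEq] at hm
    rcases hm with h | h | h
    · exact absurd h (Sp.A_K _ _)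
    · rw [Sp.A_inj _ _ h] at ht; exact absurd hℓ ht
    · exact absurd h (Sp.A_B _ _)
  · rw [mem_rinc_line] at hm
    have htt := t'.isLt
    rcases hm with h | h
    · rcases Sp.sc_eq_hub l' h.symm with ⟨_, h4⟩ | ⟨h3, _⟩
      · exact absurd h4.symm (Sp.A_top _ _)
      · omega
    · rcases Sp.sc_eq_hub l' h.symm with ⟨h3, _⟩ | ⟨h3, h4⟩
      · omega
      · exact ⟨l', t', rfl, by omega, h4⟩

lemma hubrows_B (R : Finset Sp.Row) (t : Sp.Tr) (ht : (Sum.inr (Sum.inl t) : Sp.Row) ∉ R) :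
    ∀ ℓ ∈ R, (Sum.inl (Sp.B t) : Sp.Sec) ∈ Sp.rinc ℓ →
      ∃ (l' : Sp.Ln) (t' : Fin (len p)), ℓ = Sum.inr (Sum.inr (l', t')) ∧ t'.val + 1 = len p ∧
        Sp.bot l' = Sp.B t := by
  intro ℓ hℓ hm
  rcases ℓ with s | t' | ⟨l', t'⟩
  · simp only [rinc, Finset.mem_singleton, Sum.inl.injEq] at hm
    exact absurd hm (Sp.B_src _ _)
  · simp only [rinc, Finset.mem_insert, Finset.mem_singleton, Sum.inl.injEq] at hm
    rcases hm with h | h | h
    · exact absurd h (Sp.B_K _ _)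
    · exact absurd h.symm (Sp.A_B _ _)
    · rw [Sp.B_inj _ _ h] at ht; exact absurd hℓ ht
  · rw [mem_rinc_line] at hm
    have htt := t'.isLt
    rcases hm with h | h
    · rcases Sp.sc_eq_hub l' h.symm with ⟨_, h4⟩ | ⟨h3, _⟩
      · exact absurd h4.symm (Sp.B_top _ _)
      · omega
    · rcases Sp.sc_eq_hub l' h.symm with ⟨h3, _⟩ | ⟨h3, h4⟩
      · omega
      · exact ⟨l', t', rfl, by omega, h4⟩

theorem forest_aux (R : Finset Sp.net.Row) (hR : R.card ≤ p) (ℓ : Sp.Row) (hℓ : ℓ ∉ R)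
    (S : Sp.Sec) (hS : S ∈ Sp.rinc ℓ) (S' : Sp.Sec) (hS' : S' ∈ Sp.rinc ℓ)
    (hne : S ≠ S') : ¬ Net.Cl (N := Sp.net) R S S' := by
  rcases ℓ with s | t | ⟨l, t⟩
  · simp only [rinc, Finset.mem_singleton] at hS hS'
    exact absurd (hS.trans hS'.symm) hne
  · have hA : ∀ u, u ≠ Sp.A t → ¬ Net.Cl (N := Sp.net) R (Sum.inl (Sp.A t)) (Sum.inl u) :=
      fun u hu => Sp.forest_hub R hR (Sp.A t) (Sp.hubrows_A R t hℓ)
        (fun l l' h1 h2 => Sp.A_line t l l' h1 h2) u hu
    have hB : ∀ u, u ≠ Sp.B t → ¬ Net.Cl (N := Sp.net) R (Sum.inl (Sp.B t)) (Sum.inl u) :=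
      fun u hu => Sp.forest_hub R hR (Sp.B t) (Sp.hubrows_B R t hℓ)
        (fun l l' h1 h2 => Sp.B_line t l l' h1 h2) u hu
    simp only [rinc, Finset.mem_insert, Finset.mem_singleton] at hS hS'
    rcases hS with rfl | rfl | rfl <;> rcases hS' with rfl | rfl | rfl
    · exact absurd rfl hne
    · exact fun h => hA _ (Sp.hKA t) (Sp.cl_symm R h)
    · exact fun h => hB _ (Sp.hKB t) (Sp.cl_symm R h)
    · exact hA _ (Sp.hKA t)
    · exact absurd rfl hne
    · exact hA _ (Sp.hAB t).symm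
    · exact hB _ (Sp.hKB t)
    · exact hB _ (Sp.hAB t)
    · exact absurd rfl hne
  · have h0 := Sp.forest_line R hR l t hℓ
    rw [mem_rinc_line] at hS hS'
    rcases hS with rfl | rfl <;> rcases hS' with rfl | rfl
    · exact absurd rfl hne
    · exact h0
    · exact fun h => h0 (Sp.cl_symm R h)
    · exact absurd rfl hne

/-- The sections of a row not in a small set lie in different clusters. -/
theorem net_forest (R : Finset Sp.net.Row) (hR : R.card ≤ p) (ℓ : Sp.net.Row) (hℓ : ℓ ∉ R)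
    (S : Sp.net.Sec) (hS : S ∈ Sp.net.inc ℓ) (S' : Sp.net.Sec) (hS' : S' ∈ Sp.net.inc ℓ)
    (hne : S ≠ S') : ¬ Net.Cl R S S' :=
  Sp.forest_aux R hR ℓ hℓ S hS S' hS' hne

end Spec

end

end Vale.Agent.Lib.P310.N
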