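import Vale.Agent.Lib.P310.N.Alg

namespace Vale.Agent.Lib.P310.N

open scoped Classical
open Finset

noncomputable section

namespace Net

variable {p b : ℕ} {N : Net p b}

variable {Kn : N.Sec → Frame p b → Prop} {κ : N.Sec → Frame p b → ZMod 2}

/-- Links are symmetric. -/
lemma Lk.symm {R : Finset N.Row} {j : Fin p} {x y : N.Sec × Sg b} (h : Lk R j x y) :
    Lk R j y x := by
  induction h with
  | refl => exact Relation.ReflTransGen.refl
  | tail _ hs ih =>
    obtain ⟨ℓ, hℓ, S, hS, S', hS', w, rfl, rfl⟩ := hs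
    exact Relation.ReflTransGen.head ⟨ℓ, hℓ, S', hS', S, hS, w, rfl, rfl⟩ ih

lemma Lk.mono {R R' : Finset N.Row} (hR : R ⊆ R') {j : Fin p} {x y : N.Sec × Sg b}
    (h : Lk R j x y) : Lk R' j x y := by
  induction h with
  | refl => exact Relation.ReflTransGen.refl
  | tail _ hs ih =>
    obtain ⟨ℓ, hℓ, S, hS, S', hS', w, rfl, rfl⟩ := hs
    exact ih.tail ⟨ℓ, hR hℓ, S, hS, S', hS', w, rfl, rfl⟩

lemma Lk.of_row {R : Finset N.Row} {ℓ : N.Row} (hℓ : ℓ ∈ R) {S S' : N.Sec} (hS : S ∈ N.inc ℓ)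
    (hS' : S' ∈ N.inc ℓ) (j : Fin p) (w : Sg b) :
    Lk R j (S, w + N.dl ℓ S j) (S', w + N.dl ℓ S' j) :=
  Relation.ReflTransGen.single ⟨ℓ, hℓ, S, hS, S', hS', w, rfl, rfl⟩

/-- A potential is invariant along links. -/
lemma Lk.pot {R : Finset N.Row} {g : N.Sec → Fin p → Sg b} (hg : Pot R g) {j : Fin p}
    {x y : N.Sec × Sg b} (h : Lk R j x y) : x.2 + g x.1 j = y.2 + g y.1 j := by
  induction h with
  | refl => rfl
  | tail _ hs ih =>
    rw [ih]
    obtain ⟨ℓ, hℓ, S, hS, S', hS', w, rfl, rfl⟩ := hs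
    simp only
    have := hg.2 ℓ hℓ S hS S' hS' j
    rw [add_assoc, add_comm (N.dl ℓ S j), this, add_comm (g S' j), add_assoc]

/-- No monodromy. -/
lemma Lk.eq_of_same {R : Finset N.Row} {g : N.Sec → Fin p → Sg b} (hg : Pot R g) {j : Fin p}
    {S : N.Sec} {v v' : Sg b} (h : Lk R j (S, v) (S, v')) : v = v' := by
  have := Lk.pot hg h
  exact add_right_cancel this

/-- Links project to clusters. -/
lemma Lk.cl {R : Finset N.Row} {j : Fin p} {x y : N.Sec × Sg b} (h : Lk R j x y) :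
    Cl R x.1 y.1 := by
  induction h with
  | refl => exact Relation.ReflTransGen.refl
  | tail _ hs ih =>
    obtain ⟨ℓ, hℓ, S, hS, S', hS', w, rfl, rfl⟩ := hs
    exact ih.tail ⟨ℓ, hℓ, hS, hS'⟩

lemma Cl.symm {R : Finset N.Row} {S S' : N.Sec} (h : Cl R S S') : Cl R S' S := by
  induction h with
  | refl => exact Relation.ReflTransGen.refl
  | tail _ hs ih =>
    obtain ⟨ℓ, hℓ, h1, h2⟩ := hs
    exact Relation.ReflTransGen.head ⟨ℓ, hℓ, h2, h1⟩ ih

lemma Cl.of_row {R : Finset N.Row} {ℓ : N.Row} (hℓ : ℓ ∈ R) {S S' : N.Sec} (hS : S ∈ N.inc ℓ)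
    (hS' : S' ∈ N.inc ℓ) : Cl R S S' :=
  Relation.ReflTransGen.single ⟨ℓ, hℓ, hS, hS'⟩

lemma Cl.trans {R : Finset N.Row} {S S' S'' : N.Sec} (h : Cl R S S') (h' : Cl R S' S'') :
    Cl R S S'' := Relation.ReflTransGen.trans h h'

lemma Cl.refl {R : Finset N.Row} (S : N.Sec) : Cl R S S := Relation.ReflTransGen.refl

/-- A cluster path lifts to a link, with the label given by the potential. -/
lemma Cl.lk {R : Finset N.Row} {g : N.Sec → Fin p → Sg b} (hg : Pot R g) {S S' : N.Sec}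
    (h : Cl R S S') (j : Fin p) (v : Sg b) :
    Lk R j (S, v) (S', v + g S j + g S' j) := by
  induction h with
  | refl =>
    have : v + g S j + g S j = v := by
      rw [add_assoc, sg_add_self, add_zero]
    rw [this]
    exact Relation.ReflTransGen.refl
  | tail _ hs ih =>
    rename_i S1 S2 _
    obtain ⟨ℓ, hℓ, h1, h2⟩ := hs
    refine ih.trans ?_
    have e := hg.2 ℓ hℓ S1 h1 S2 h2 j
    have k := Lk.of_row (R := R) hℓ h1 h2 j (v + g S j + g S1 j + N.dl ℓ S1 j)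
    have e1 : v + g S j + g S1 j + N.dl ℓ S1 j + N.dl ℓ S1 j = v + g S j + g S1 j := by
      rw [add_assoc _ (N.dl ℓ S1 j), sg_add_self, add_zero]
    have e2 : v + g S j + g S1 j + N.dl ℓ S1 j + N.dl ℓ S2 j = v + g S j + g S2 j := by
      have : g S2 j = g S2 j + N.dl ℓ S2 j + N.dl ℓ S2 j := by
        rw [add_assoc, sg_add_self, add_zero]
      rw [this, ← e]
      abel
    rw [e1, e2] at k
    exact k

lemma Visible.mono {U U' : Finset N.Bk} (h : U ⊆ U') {S : N.Sec} {L : Frame p b}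
    (hv : Visible U S L) : Visible U' S L := by
  intro j
  obtain ⟨e, he, hc, S', hS', hl⟩ := hv j
  exact ⟨e, h he, hc, S', hS', Lk.mono (Finset.image_subset_image h) hl⟩

lemma card_rowsOf_le (U : Finset N.Bk) : (rowsOf U).card ≤ U.card := Finset.card_image_le

lemma row_mem_rowsOf {U : Finset N.Bk} {e : N.Bk} (he : e ∈ U) : e.row ∈ rowsOf U :=
  Finset.mem_image_of_mem _ he

/-- Visibility crosses a row of the position. -/
lemma Visible.cross {U : Finset N.Bk} {ℓ : N.Row} (hℓ : ℓ ∈ rowsOf U) {S S' : N.Sec}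
    (hS : S ∈ N.inc ℓ) (hS' : S' ∈ N.inc ℓ) {L : Frame p b}
    (hv : Visible U S (fun j => L j + N.dl ℓ S j)) :
    Visible U S' (fun j => L j + N.dl ℓ S' j) := by
  intro j
  obtain ⟨e, he, hc, S1, hS1, hl⟩ := hv j
  exact ⟨e, he, hc, S1, hS1, (Lk.of_row hℓ hS' hS j (L j)).trans hl⟩

/-- Two frames visible at a section and differing at a column: that column holds two blocks. -/
lemma two_blocks {U : Finset N.Bk} {g : N.Sec → Fin p → Sg b} (hg : Pot (rowsOf U) g) {S : N.Sec}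
    {L L' : Frame p b} (hv : Visible U S L) (hv' : Visible U S L') {j : Fin p}
    (hj : L j ≠ L' j) : 2 ≤ (U.filter (fun e => e.col = j)).card := by
  obtain ⟨e, he, hc, S1, hS1, hl⟩ := hv j
  obtain ⟨e', he', hc', S2, hS2, hl'⟩ := hv' j
  have hne : e ≠ e' := by
    rintro rfl
    apply hj
    subst hc
    exact Lk.eq_of_same hg
      ((hl.trans (Lk.of_row (row_mem_rowsOf he) hS1 hS2 _ _)).trans (Lk.symm hl'))
  have : 1 < (U.filter (fun e => e.col = j)).card :=
    Finset.one_lt_card.2 ⟨e, Finset.mem_filter.2 ⟨he, hc⟩, e', Finset.mem_filter.2 ⟨he', hc'⟩, hne⟩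
  omega

/-- Two code frames differ in at least two columns. -/
lemma exists_two_columns {L L' : Frame p b} (hL : ∑ j, L j = 0) (hL' : ∑ j, L' j = 0)
    (hne : L ≠ L') : ∃ j1 j2, j1 ≠ j2 ∧ L j1 ≠ L' j1 ∧ L j2 ≠ L' j2 := by
  obtain ⟨j1, hj1⟩ := Function.ne_iff.1 hne
  refine ⟨j1, ?_⟩
  by_contra hcon
  push Not at hcon
  have hall : ∀ j, j ≠ j1 → L j = L' j := by
    intro j hj
    by_contra h
    exact h (hcon j (Ne.symm hj) hj1)
  apply hj1
  have h1 : ∑ j, L j = L j1 + ∑ j ∈ Finset.univ.erase j1, L j :=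
    (Finset.add_sum_erase _ _ (Finset.mem_univ j1)).symm
  have h2 : ∑ j, L' j = L' j1 + ∑ j ∈ Finset.univ.erase j1, L' j :=
    (Finset.add_sum_erase _ _ (Finset.mem_univ j1)).symm
  have h3 : ∑ j ∈ Finset.univ.erase j1, L j = ∑ j ∈ Finset.univ.erase j1, L' j :=
    Finset.sum_congr rfl (fun j hj => hall j (Finset.ne_of_mem_erase hj))
  rw [hL, h3] at h1
  rw [hL'] at h2
  rw [h1] at h2
  exact add_right_cancel h2

/-- Every column visible: a count over columns. -/
lemma card_ge_of_columns {U : Finset N.Bk} (h1 : ∀ j : Fin p, 1 ≤ (U.filter (fun e => e.col = j)).card)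
    {j1 j2 : Fin p} (h12 : j1 ≠ j2) (hj1 : 2 ≤ (U.filter (fun e => e.col = j1)).card)
    (hj2 : 2 ≤ (U.filter (fun e => e.col = j2)).card) : p + 2 ≤ U.card := by
  have hc : U.card = ∑ j : Fin p, (U.filter (fun e => e.col = j)).card :=
    Finset.card_eq_sum_card_fiberwise (fun e _ => Finset.mem_coe.2 (Finset.mem_univ e.col))
  have hle : ∑ j : Fin p, (1 + (if j = j1 then 1 else 0) + (if j = j2 then 1 else 0)) ≤
      ∑ j : Fin p, (U.filter (fun e => e.col = j)).card := by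
    apply Finset.sum_le_sum
    intro j _
    by_cases e1 : j = j1
    · subst e1
      rw [if_pos rfl, if_neg h12]
      exact hj1
    · by_cases e2 : j = j2
      · subst e2
        rw [if_neg e1, if_pos rfl]
        exact hj2
      · rw [if_neg e1, if_neg e2]
        exact h1 j
  have hsum : ∑ j : Fin p, (1 + (if j = j1 then 1 else 0) + (if j = j2 then 1 else 0)) = p + 2 := by
    rw [Finset.sum_add_distrib, Finset.sum_add_distrib]
    simp
  omega

/-- At most one code frame is visible at a section (module C; here the counting happens: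
two visible code frames differ in at least two columns, each of which then holds two blocks). -/
theorem visible_unique (hG : N.Good Kn κ) {U : Finset N.Bk} (hU : U.card ≤ p + 1) {S : N.Sec}
    {L L' : Frame p b} (hL : ∑ j, L j = 0) (hL' : ∑ j, L' j = 0) (hv : Visible U S L)
    (hv' : Visible U S L') : L = L' := by
  by_contra hne
  obtain ⟨g, hg⟩ := hG.pot (rowsOf U) ((card_rowsOf_le U).trans hU)
  obtain ⟨j1, j2, h12, h1, h2⟩ := exists_two_columns hL hL' hne
  have hcount := card_ge_of_columns (U := U) (fun j => by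
    obtain ⟨e, he, hc, _⟩ := hv j
    exact Finset.card_pos.2 ⟨e, Finset.mem_filter.2 ⟨he, hc⟩⟩) h12
    (two_blocks hg hv hv' h1) (two_blocks hg hv hv' h2)
  omega

/-- The sections carrying a visible known frame. -/
def Pres (Kn : N.Sec → Frame p b → Prop) (U : Finset N.Bk) (S : N.Sec) : Prop :=
  ∃ L, Kn S L ∧ Visible U S L

/-- The correction needed at a section. -/
def tgt (Kn : N.Sec → Frame p b → Prop) (κ : N.Sec → Frame p b → ZMod 2) (U : Finset N.Bk)
    (σ : N.State) (S : N.Sec) : ZMod 2 :=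
  if h : Pres Kn U S then σ.f S + κ S h.choose else 0

lemma tgt_eq (hG : N.Good Kn κ) {U : Finset N.Bk} (hU : U.card ≤ p + 1) (σ : N.State) {S : N.Sec}
    {L : Frame p b} (hK : Kn S L) (hv : Visible U S L) : tgt Kn κ U σ S = σ.f S + κ S L := by
  have hP : Pres Kn U S := ⟨L, hK, hv⟩
  unfold tgt
  rw [dif_pos hP]
  have hs := hP.choose_spec
  have : hP.choose = L := visible_unique hG hU (hG.code _ _ hs.1) (hG.code _ _ hK) hs.2 hv
  rw [this]

/-- Frames of a row: from a visible known frame at one section of a row of the position, the row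
frame gives the known frame at every other section of the row with a visible known frame. -/
lemma row_frame (hG : N.Good Kn κ) {U : Finset N.Bk} (hU : U.card ≤ p + 1) {ℓ : N.Row}
    (hℓ : ℓ ∈ rowsOf U) {S1 S : N.Sec} (hS1 : S1 ∈ N.inc ℓ) (hS : S ∈ N.inc ℓ)
    {L1 : Frame p b} (hK1 : Kn S1 L1) (hv1 : Visible U S1 L1) (hP : Pres Kn U S) :
    Kn S (fun j => (L1 j + N.dl ℓ S1 j) + N.dl ℓ S j) ∧
      Visible U S (fun j => (L1 j + N.dl ℓ S1 j) + N.dl ℓ S j) := by
  have hL1 : (fun j => (L1 j + N.dl ℓ S1 j) + N.dl ℓ S1 j) = L1 := by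
    funext j
    rw [add_assoc, sg_add_self, add_zero]
  have hv : Visible U S (fun j => (L1 j + N.dl ℓ S1 j) + N.dl ℓ S j) :=
    Visible.cross hℓ hS1 hS (by rw [hL1]; exact hv1)
  obtain ⟨L2, hK2, hv2⟩ := hP
  have hcode : ∑ j, ((L1 j + N.dl ℓ S1 j) + N.dl ℓ S j) = 0 := by
    rw [Finset.sum_add_distrib, Finset.sum_add_distrib, hG.code _ _ hK1, N.dl_sum, N.dl_sum,
      add_zero, add_zero]
  have he : (fun j => (L1 j + N.dl ℓ S1 j) + N.dl ℓ S j) = L2 :=
    visible_unique hG hU hcode (hG.code _ _ hK2) hv hv2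
  rw [he]
  exact ⟨hK2, hv2⟩

/-- (module C) The first consistency property. -/
theorem pc1 (hG : N.Good Kn κ) {U : Finset N.Bk} (hU : U.card ≤ p + 1) (σ : N.State) {ℓ : N.Row}
    (hℓ : ℓ ∈ rowsOf U) (hall : ∀ S ∈ N.inc ℓ, Pres Kn U S) :
    ∑ S ∈ N.inc ℓ, tgt Kn κ U σ S = ∑ S ∈ N.inc ℓ, σ.f S + N.tw ℓ := by
  obtain ⟨S1, hS1⟩ := N.inc_ne ℓ
  obtain ⟨L1, hK1, hv1⟩ := hall S1 hS1
  have hrf := fun S (hS : S ∈ N.inc ℓ) => row_frame hG hU hℓ hS1 hS hK1 hv1 (hall S hS)
  have hsum := hG.ks ℓ (fun j => L1 j + N.dl ℓ S1 j) (fun S hS => (hrf S hS).1)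
  rw [← hsum, ← Finset.sum_add_distrib]
  apply Finset.sum_congr rfl
  intro S hS
  exact tgt_eq hG hU σ (hrf S hS).1 (hrf S hS).2

/-- (module C) The second consistency property. -/
theorem pc2 (hG : N.Good Kn κ) {U : Finset N.Bk} (hU : U.card ≤ p + 1) {ℓ : N.Row}
    (hℓ : ℓ ∈ rowsOf U) (h2 : 2 ≤ (N.inc ℓ).card) {S0 : N.Sec} (hS0 : S0 ∈ N.inc ℓ)
    (hall : ∀ S ∈ N.inc ℓ, S ≠ S0 → Pres Kn U S) : Pres Kn U S0 := by
  obtain ⟨S1, hS1, hne⟩ : ∃ S1 ∈ N.inc ℓ, S1 ≠ S0 := by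
    obtain ⟨a, ha, c, hc, hac⟩ := Finset.one_lt_card.1 (by omega : 1 < (N.inc ℓ).card)
    by_cases h : a = S0
    · exact ⟨c, hc, fun e => hac (h.trans e.symm)⟩
    · exact ⟨a, ha, h⟩
  obtain ⟨L1, hK1, hv1⟩ := hall S1 hS1 hne
  obtain ⟨e, he, rfl⟩ := Finset.mem_image.1 hℓ
  have hcode : ∑ j, (L1 j + N.dl e.row S1 j) = 0 := by
    rw [Finset.sum_add_distrib, hG.code _ _ hK1, N.dl_sum, add_zero]
  have hKn := hG.kv U hU e he (fun j => L1 j + N.dl e.row S1 j) hcode S0 hS0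
    (fun S hS hS' => row_frame hG hU (row_mem_rowsOf he) hS1 hS hK1 hv1 (hall S hS hS'))
  have hL1 : (fun j => (L1 j + N.dl e.row S1 j) + N.dl e.row S1 j) = L1 := by
    funext j
    rw [add_assoc, sg_add_self, add_zero]
  refine ⟨_, hKn, Visible.cross (row_mem_rowsOf he) hS1 hS0 (by rw [hL1]; exact hv1)⟩

end Net

end

end Vale.Agent.Lib.P310.N
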