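import Vale.Agent.Lib.P310.WL

/-!
Generic XOR systems and their graphs.  A fiber for each equation, a vertex of a fiber is a local
assignment of the variables of the equation with the prescribed parity, vertices of different
fibers are adjacent iff they agree on shared variables, pendant leaves identify the fibers.
`Gr 0`: all parities zero; `Gr 1`: parities `rhs`.
-/

namespace Vale.Agent.Lib.P310.N

open scoped Classical
open Finset

noncomputable section

/-- An XOR system: variables, equations, the variables of an equation, right-hand sides, and a
numbering of the equations (used only to make the fibers recognisable by degrees). -/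
structure XorSys where
  Var : Type
  Eqn : Type
  instV : Fintype Var
  instE : Fintype Eqn
  vars : Eqn → Finset Var
  rhs : Eqn → ZMod 2
  num : Eqn ≃ Fin (Fintype.card Eqn)

attribute [instance] XorSys.instV XorSys.instE

namespace XorSys

variable (X : XorSys)

/-- A base vertex of the graph with parameter `c`: an equation with an assignment of its variables
of parity `c * rhs`. -/
@[ext] structure Vx (c : ZMod 2) where
  e : X.Eqn
  a : X.Var → ZMod 2
  supp : ∀ v, v ∉ X.vars e → a v = 0
  par : ∑ v ∈ X.vars e, a v = c * X.rhs e

lemma Vx.finite (c : ZMod 2) : Finite (X.Vx c) :=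
  Finite.of_injective (fun u : X.Vx c => (u.e, u.a)) (by
    intro u u' h
    simp only [Prod.mk.injEq] at h
    exact Vx.ext h.1 h.2)

instance (c : ZMod 2) : Fintype (X.Vx c) := @Fintype.ofFinite _ (Vx.finite X c)

/-- Base vertices are adjacent if they lie in different fibers and agree on shared variables. -/
def baseAdj {c : ZMod 2} (u u' : X.Vx c) : Prop :=
  u.e ≠ u'.e ∧ ∀ v, v ∈ X.vars u.e → v ∈ X.vars u'.e → u.a v = u'.a v

/-- The number of pendant leaves at each vertex of a fiber. -/
def mult (e : X.Eqn) : ℕ :=
  ((X.num e).val + 1) * (Fintype.card (X.Vx 0) + 2)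

/-- All vertices: base vertices and pendant leaves. -/
abbrev Vtx (c : ZMod 2) : Type := X.Vx c ⊕ (Σ u : X.Vx c, Fin (X.mult u.e))

/-- The graph with parameter `c`. -/
def Gr (c : ZMod 2) : SimpleGraph (X.Vtx c) where
  Adj x y := match x, y with
    | Sum.inl u, Sum.inl u' => X.baseAdj u u'
    | Sum.inl u, Sum.inr l => l.1 = u
    | Sum.inr l, Sum.inl u => l.1 = u
    | Sum.inr _, Sum.inr _ => False
  symm := by
    constructor
    rintro (u | l) (u' | l') h
    · exact ⟨fun e => h.1 e.symm, fun v h1 h2 => (h.2 v h2 h1).symm⟩
    · exact h
    · exact h
    · exact h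
  loopless := by
    constructor
    rintro (u | l) h
    · exact h.1 rfl
    · exact h

end XorSys

end

end Vale.Agent.Lib.P310.N
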