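import Vale.Agent.Lib.P310.N.Xor

namespace Vale.Agent.Lib.P310.N

open scoped Classical
open Finset

noncomputable section

namespace XorSys

variable (X : XorSys)

/-- A Duplicator family for the pair `Gr 0`, `Gr 1`: shifts allowed at a set of pebbled
equations. -/
structure DupFamily (k : ℕ) where
  F : Finset X.Eqn → Set (X.Var → ZMod 2)
  base : ∃ Θ, Θ ∈ F ∅
  mono : ∀ {U U' : Finset X.Eqn}, U ⊆ U' → F U' ⊆ F U
  eqs : ∀ {U : Finset X.Eqn} {Θ}, Θ ∈ F U → ∀ e ∈ U, ∑ v ∈ X.vars e, Θ v = X.rhs e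
  forth : ∀ {U : Finset X.Eqn} {Θ}, U.card ≤ k → Θ ∈ F U → ∀ e,
    ∃ Θ' ∈ F (insert e U), ∀ e0 ∈ U, ∀ v ∈ X.vars e0, Θ' v = Θ v

/-- The zero vertex of a fiber. -/
def zeroVx (e : X.Eqn) : X.Vx 0 :=
  ⟨e, fun _ => 0, fun _ _ => rfl, by simp⟩

/-- The zero vertex, as a vertex of `Gr 0`. -/
def zv (e : X.Eqn) : X.Vtx 0 := Sum.inl (X.zeroVx e)

/-- The image tuple has the fibers `pos` and reads off the global assignment `val`. -/
def Match {t : ℕ} (pos : Fin t → X.Eqn) (val : X.Var → ZMod 2) (x' : Fin t → X.Vtx 1) : Prop :=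
  ∀ s, ∃ u' : X.Vx 1, x' s = Sum.inl u' ∧ u'.e = pos s ∧ ∀ v ∈ X.vars (pos s), u'.a v = val v

end XorSys

end

end Vale.Agent.Lib.P310.N
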